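import Mathlib.Tactic.IntervalCases
import Mathlib.Tactic.Linarith

/-! Arithmetic conditions on the numbers of short excursions. -/

namespace Vale.Agent.P048

/-- every length up to four can be compensated -/
def F4 (a1 a2 a3 a4 w o : ℕ) : Prop :=
  1 ≤ w ∧ (2 ≤ w ∨ 1 ≤ a1 ∨ (1 ≤ a2 ∧ 1 ≤ o)) ∧
  (3 ≤ w ∨ (1 ≤ a1 ∧ 2 ≤ w) ∨ 2 ≤ a1 ∨ 1 ≤ a2 ∨ (1 ≤ a3 ∧ 1 ≤ o)) ∧
  (4 ≤ w ∨ (1 ≤ a1 ∧ 3 ≤ w) ∨ ((2 ≤ a1 ∨ 1 ≤ a2) ∧ 2 ≤ w) ∨ 3 ≤ a1 ∨ (1 ≤ a1 ∧ 1 ≤ a2) ∨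
    1 ≤ a3 ∨ 2 ≤ a2 ∨ (1 ≤ a4 ∧ 1 ≤ o))

def f4 (a1 a2 a3 a4 w o : ℕ) : Bool :=
  Nat.ble 4 w || (Nat.ble 1 w && (Nat.ble 2 w || Nat.ble 1 a1 || (Nat.ble 1 a2 && Nat.ble 1 o)) &&
  (Nat.ble 3 w || Nat.ble 1 a2 || (Nat.ble 1 a1 && Nat.ble 2 w) || Nat.ble 2 a1 ||
    (Nat.ble 1 a3 && Nat.ble 1 o)) &&
  (Nat.ble 2 a2 || Nat.ble 3 a1 || Nat.ble 1 a3 || (Nat.ble 1 a1 && Nat.ble 3 w) ||
    ((Nat.ble 2 a1 || Nat.ble 1 a2) && Nat.ble 2 w) || (Nat.ble 1 a1 && Nat.ble 1 a2) ||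
    (Nat.ble 1 a4 && Nat.ble 1 o)))

theorem f4_sound {a1 a2 a3 a4 w o : ℕ} (h : f4 a1 a2 a3 a4 w o = true) : F4 a1 a2 a3 a4 w o := by
  simp only [f4, Bool.or_eq_true, Bool.and_eq_true, Nat.ble_eq] at h
  unfold F4
  omega

def ind (a i : ℕ) : ℕ := cond (Nat.beq a i) 1 0

theorem ind_eq (a i : ℕ) : ind a i = if a = i then 1 else 0 := by
  unfold ind
  by_cases h : a = i
  · subst h
    simp
  · rw [if_neg h]
    cases h1 : Nat.beq a i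
    · rfl
    · exact absurd (Nat.eq_of_beq_eq_true h1) h

def AllOK (n1 n2 n3 n4 W z : ℕ) : Prop :=
  ∀ a b τ : ℕ, τ ≤ z → τ ≤ ind a 0 + ind b 0 →
    F4 (n1 - ind a 1 - ind b 1) (n2 - ind a 2 - ind b 2) (n3 - ind a 3 - ind b 3)
      (n4 - ind a 4 - ind b 4) (W - τ) (2 - ind a 0 - ind b 0)

def trip : List (ℕ × ℕ × ℕ) :=
  [(0, 0, 2), (0, 0, 1), (0, 0, 0), (0, 1, 1), (0, 2, 1), (0, 3, 1), (0, 4, 1), (0, 5, 1),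
    (0, 1, 0), (0, 2, 0), (0, 3, 0), (0, 4, 0), (0, 5, 0),
    (1, 1, 0), (1, 2, 0), (1, 3, 0), (1, 4, 0), (1, 5, 0), (2, 2, 0), (2, 3, 0), (2, 4, 0),
    (2, 5, 0), (3, 3, 0), (3, 4, 0), (3, 5, 0), (4, 4, 0), (4, 5, 0), (5, 5, 0)]

def allOK (n1 n2 n3 n4 W z : ℕ) : Bool :=
  trip.all fun x => Nat.blt z x.2.2 ||
    f4 (n1 - ind x.1 1 - ind x.2.1 1) (n2 - ind x.1 2 - ind x.2.1 2) (n3 - ind x.1 3 - ind x.2.1 3)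
      (n4 - ind x.1 4 - ind x.2.1 4) (W - x.2.2) (2 - ind x.1 0 - ind x.2.1 0)

theorem allOK_sound {n1 n2 n3 n4 W z : ℕ} (h : allOK n1 n2 n3 n4 W z = true) :
    AllOK n1 n2 n3 n4 W z := by
  have key : ∀ a b τ : ℕ, a ≤ b → b ≤ 5 → τ ≤ z → τ ≤ ind a 0 + ind b 0 →
      F4 (n1 - ind a 1 - ind b 1) (n2 - ind a 2 - ind b 2) (n3 - ind a 3 - ind b 3)
        (n4 - ind a 4 - ind b 4) (W - τ) (2 - ind a 0 - ind b 0) := by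
    intro a b τ h1 h2 h3 h4
    have h5 : (a, b, τ) ∈ trip := by
      have h6 : τ ≤ 2 := by
        simp only [ind_eq] at h4
        split_ifs at h4 <;> omega
      revert h4
      interval_cases b <;> interval_cases a <;> interval_cases τ <;> decide
    have h6 := List.all_eq_true.1 h _ h5
    rw [Bool.or_eq_true, Nat.blt_eq] at h6
    exact f4_sound (h6.resolve_left (by simpa using h3))
  have hm : ∀ a i, i ≤ 4 → ind (min a 5) i = ind a i := by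
    intro a i hi
    simp only [ind_eq]
    split_ifs <;> omega
  intro a b τ h1 h2
  rw [← hm a 0 (by omega), ← hm b 0 (by omega)] at h2
  rw [← hm a 0 (by omega), ← hm b 0 (by omega), ← hm a 1 (by omega), ← hm b 1 (by omega),
    ← hm a 2 (by omega), ← hm b 2 (by omega), ← hm a 3 (by omega), ← hm b 3 (by omega),
    ← hm a 4 (by omega), ← hm b 4 (by omega)]
  rcases le_total (min a 5) (min b 5) with h3 | h3
  · exact key _ _ _ h3 (min_le_right _ _) h1 h2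
  · have := key _ _ _ h3 (min_le_right _ _) h1 (by omega)
    simpa only [Nat.sub_right_comm _ (ind (min b 5) _)] using this

theorem allOK_of_six {n1 n2 n3 n4 W z : ℕ} (h : 6 ≤ W) : AllOK n1 n2 n3 n4 W z := by
  intro a b τ _ h2
  simp only [ind_eq] at h2
  unfold F4
  split_ifs at h2 <;> omega

theorem allOK_large {n1 n2 n3 n4 e c z D L t : ℕ} (h1 : 11 ≤ t) (h2 : t = z + c + e) (h3 : c ≤ e)
    (h4 : 5 * e ≤ L + 4 * n1 + 3 * n2 + 2 * n3 + n4) (h5 : n1 + n2 + n3 + n4 ≤ e) (h6 : 1 ≤ D)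
    (h7 : L + D ≤ t) : AllOK n1 n2 n3 n4 (D + z) z ∨ (1 ≤ z ∧ z ≤ 2 ∧ 4 ≤ n2) := by
  by_cases h : 1 ≤ z ∧ z ≤ 2 ∧ 4 ≤ n2
  · exact Or.inr h
  refine Or.inl fun a b τ h8 h9 => ?_
  have hx : ∀ a, ind a 0 + ind a 1 + ind a 2 + ind a 3 + ind a 4 ≤ 1 := by
    intro a
    simp only [ind_eq]
    split_ifs <;> omega
  have ha := hx a
  have hb := hx b
  generalize ind a 0 = x0, ind a 1 = x1, ind a 2 = x2, ind a 3 = x3, ind a 4 = x4 at *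
  generalize ind b 0 = y0, ind b 1 = y1, ind b 2 = y2, ind b 3 = y3, ind b 4 = y4 at *
  refine ⟨by omega, by omega, by omega, ?_⟩
  by_contra hc
  simp only [not_or, not_and_or, not_le] at hc
  obtain ⟨c1, c2, c3, c4, c5, c6, c7, c8⟩ := hc
  omega

theorem F4.cover {a1 a2 a3 a4 w o : ℕ} (h : F4 a1 a2 a3 a4 w o) (r : ℕ) (h1 : 1 ≤ r)
    (h4 : r ≤ 4) : ∃ s1 s2 s3 s4, s1 ≤ a1 ∧ s2 ≤ a2 ∧ s3 ≤ a3 ∧ s4 ≤ a4 ∧
      ((s1 + 2 * s2 + 3 * s3 + 4 * s4 < r ∧ r ≤ s1 + 2 * s2 + 3 * s3 + 4 * s4 + w) ∨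
        (r = s1 + 2 * s2 + 3 * s3 + 4 * s4 ∧ 2 ≤ s1 + s2 + s3 + s4 + o)) := by
  obtain ⟨e1, e2, e3, e4⟩ := h
  interval_cases r
  · exact ⟨0, 0, 0, 0, by omega⟩
  · rcases e2 with h | h | h
    · exact ⟨0, 0, 0, 0, by omega⟩
    · exact ⟨1, 0, 0, 0, by omega⟩
    · exact ⟨0, 1, 0, 0, by omega⟩
  · rcases e3 with h | h | h | h | h
    · exact ⟨0, 0, 0, 0, by omega⟩
    · exact ⟨1, 0, 0, 0, by omega⟩
    · exact ⟨2, 0, 0, 0, by omega⟩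
    · exact ⟨0, 1, 0, 0, by omega⟩
    · exact ⟨0, 0, 1, 0, by omega⟩
  · rcases e4 with h | h | ⟨h | h, h'⟩ | h | h | h | h | h
    · exact ⟨0, 0, 0, 0, by omega⟩
    · exact ⟨1, 0, 0, 0, by omega⟩
    · exact ⟨2, 0, 0, 0, by omega⟩
    · exact ⟨0, 1, 0, 0, by omega⟩
    · exact ⟨3, 0, 0, 0, by omega⟩
    · exact ⟨1, 1, 0, 0, by omega⟩
    · exact ⟨0, 0, 1, 0, by omega⟩
    · exact ⟨0, 2, 0, 0, by omega⟩
    · exact ⟨0, 0, 0, 1, by omega⟩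

end Vale.Agent.P048
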