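import Vale.Agent.P048.Sys
import Mathlib.Algebra.BigOperators.Group.Finset.Basic
import Mathlib.Algebra.Order.BigOperators.Group.Finset

/-! The structure of an optimal path: components and excursions. -/

namespace Vale.Agent.P048

open Finset

/-- an excursion outside the clique followed by a clique vertex -/
abbrev Seg (V : Type) : Type := List V × V

abbrev Comp (V : Type) : Type := V × List (Seg V)

variable {V : Type}

def flatE (l : List (Seg V)) : List V := l.flatMap fun s => s.1 ++ [s.2]

def segs (cs : List (Comp V)) : List (Seg V) := cs.flatMap fun c => ([], c.1) :: c.2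

def flat (cs : List (Comp V)) : List V := flatE (segs cs)

def ex (cs : List (Comp V)) : List (Seg V) := cs.flatMap fun c => c.2

def hd (s : Seg V) : V := s.1.headD s.2

theorem flatE_cons (s : Seg V) (l : List (Seg V)) : flatE (s :: l) = s.1 ++ s.2 :: flatE l := by
  simp [flatE]

theorem flatE_append (l l' : List (Seg V)) : flatE (l ++ l') = flatE l ++ flatE l' := by
  simp [flatE]

theorem segs_cons (c : Comp V) (cs : List (Comp V)) :
    segs (c :: cs) = ([], c.1) :: (c.2 ++ segs cs) := by
  simp [segs]

theorem flat_cons (c : Comp V) (cs : List (Comp V)) :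
    flat (c :: cs) = (c.1 :: flatE c.2) ++ flat cs := by
  simp [flat, segs_cons, flatE_cons, flatE_append]

theorem flatE_hd (s : Seg V) (l : List (Seg V)) : ∃ X, flatE (s :: l) = hd s :: X := by
  obtain ⟨E, q⟩ := s
  cases E with
  | nil => exact ⟨_, flatE_cons _ _⟩
  | cons a E => exact ⟨_, flatE_cons _ _⟩

theorem length_flatE (l : List (Seg V)) :
    (flatE l).length = (l.map fun s => s.1.length).sum + l.length := by
  induction l with
  | nil => rfl
  | cons s l ih =>
    simp only [flatE_cons, List.length_append, List.length_cons, ih, List.map_cons, List.sum_cons]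
    omega

theorem map_snd_sublist (l : List (Seg V)) : (l.map Prod.snd).Sublist (flatE l) := by
  induction l with
  | nil => simp
  | cons s l ih =>
    rw [flatE_cons, List.map_cons]
    exact (ih.cons_cons _).trans (List.sublist_append_right _ _)

theorem map_hd_sublist (l : List (Seg V)) : (l.map hd).Sublist (flatE l) := by
  induction l with
  | nil => simp
  | cons s l ih =>
    obtain ⟨E, q⟩ := s
    rw [flatE_cons, List.map_cons]
    cases E with
    | nil => exact ih.cons_cons _
    | cons a E =>
      exact ((ih.cons q).trans (List.sublist_append_right E _)).cons_cons a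

theorem ex_sublist (cs : List (Comp V)) : (ex cs).Sublist (segs cs) := by
  induction cs with
  | nil => simp [ex]
  | cons c cs ih =>
    rw [segs_cons]
    exact ((List.Sublist.refl c.2).append ih).cons _

theorem map_fst_sublist (cs : List (Comp V)) : (cs.map Prod.fst).Sublist (flat cs) := by
  induction cs with
  | nil => simp
  | cons c cs ih =>
    rw [flat_cons, List.map_cons, List.cons_append]
    exact (ih.trans (List.sublist_append_right _ _)).cons_cons _

theorem length_segs (cs : List (Comp V)) : (segs cs).length = cs.length + (ex cs).length := by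
  induction cs with
  | nil => rfl
  | cons c cs ih =>
    have : ex (c :: cs) = c.2 ++ ex cs := by simp [ex]
    simp only [segs_cons, this, List.length_cons, List.length_append, ih]
    omega

theorem sum_segs (f : ℕ → ℕ) (hf : f 0 = 0) (cs : List (Comp V)) :
    ((segs cs).map fun s => f s.1.length).sum = ((ex cs).map fun s => f s.1.length).sum := by
  induction cs with
  | nil => rfl
  | cons c cs ih =>
    have : ex (c :: cs) = c.2 ++ ex cs := by simp [ex]
    simp [segs_cons, this, ih, hf]

theorem mem_segs {cs : List (Comp V)} {s : Seg V} :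
    s ∈ segs cs ↔ (∃ c ∈ cs, s = ([], c.1)) ∨ s ∈ ex cs := by
  simp only [segs, ex, List.mem_flatMap, List.mem_cons]
  constructor
  · rintro ⟨c, hc, h | h⟩
    · exact Or.inl ⟨c, hc, h⟩
    · exact Or.inr ⟨c, hc, h⟩
  · rintro (⟨c, hc, h⟩ | ⟨c, hc, h⟩)
    · exact ⟨c, hc, Or.inl h⟩
    · exact ⟨c, hc, Or.inr h⟩

variable (G : SimpleGraph V)

def Link (Q : Finset V) : V → List (Seg V) → Prop
  | _, [] => True
  | q, s :: l => (q :: (s.1 ++ [s.2])).IsChain (Rq G Q) ∧ Link Q s.2 l

def SegOK (Q : Finset V) (s : Seg V) : Prop := (∀ v ∈ s.1, v ∉ Q) ∧ s.2 ∈ Q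

def CompOK (Q : Finset V) (c : Comp V) : Prop :=
  c.1 ∈ Q ∧ (∀ s ∈ c.2, SegOK Q s) ∧ Link G Q c.1 c.2

/-- no walk from `u` to `w` with between one and `ρ` inner vertices, all outside `X` -/
def Far (X : Finset V) (u w : V) (ρ : ℕ) : Prop :=
  ∀ W : List V, W ≠ [] → W.length ≤ ρ → (∀ v ∈ W, v ∉ X) → ¬ (u :: (W ++ [w])).IsChain G.Adj

variable {G}

theorem Link.chain {Q : Finset V} {q : V} {l : List (Seg V)} (h : Link G Q q l) :
    (q :: flatE l).IsChain (Rq G Q) := by
  induction l generalizing q with
  | nil => simp [flatE]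
  | cons s l ih =>
    rw [flatE_cons, ← List.cons_append, List.isChain_split]
    exact ⟨h.1, ih h.2⟩

theorem last_flatE {Q : Finset V} {l : List (Seg V)} (h : ∀ s ∈ l, SegOK Q s) :
    ∀ a ∈ (flatE l).getLast?, a ∈ Q := by
  induction l using List.reverseRecOn with
  | nil => simp [flatE]
  | append_singleton l s _ =>
    intro a ha
    rw [flatE_append, flatE_cons] at ha
    have : s.2 = a := by simpa [flatE] using ha
    exact this ▸ (h s (by simp)).2

theorem segOK_segs {Q : Finset V} {cs : List (Comp V)} (h : ∀ c ∈ cs, CompOK G Q c) :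
    ∀ s ∈ segs cs, SegOK Q s := by
  intro s hs
  simp only [segs, List.mem_flatMap, List.mem_cons] at hs
  obtain ⟨c, hc, rfl | hs⟩ := hs
  · exact ⟨by simp, (h c hc).1⟩
  · exact (h c hc).2.1 s hs

theorem sys_flat {Q : Finset V} {cs : List (Comp V)} (h : ∀ c ∈ cs, CompOK G Q c)
    (hn : (flat cs).Nodup) : Sys G Q (flat cs) := by
  have hh : ∀ cs : List (Comp V), (∀ c ∈ cs, CompOK G Q c) → ∀ a ∈ (flat cs).head?, a ∈ Q := by
    intro cs h a ha
    cases cs with
    | nil => simp [flat, segs, flatE] at ha
    | cons c cs =>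
      rw [flat_cons] at ha
      have : c.1 = a := by simpa using ha
      exact this ▸ (h c (by simp)).1
  refine ⟨hn, ?_, hh cs h, last_flatE (segOK_segs h)⟩
  clear hn
  induction cs with
  | nil => simp [flat, segs, flatE]
  | cons c cs ih =>
    have h1 := h c (by simp)
    have h2 : ∀ c ∈ cs, CompOK G Q c := fun c hc => h c (by simp [hc])
    rw [flat_cons]
    refine h1.2.2.chain.append (ih h2) fun a ha b hb => Or.inr ⟨?_, hh cs h2 b hb⟩
    refine last_flatE (l := ([], c.1) :: c.2) ?_ a (by simpa [flatE_cons] using ha)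
    intro s hs
    rcases List.mem_cons.1 hs with rfl | hs
    · exact ⟨by simp, h1.1⟩
    · exact h1.2.1 s hs

theorem parse {Q : Finset V} {P : List V} (h : Sys G Q P) :
    ∃ cs, flat cs = P ∧ ∀ c ∈ cs, CompOK G Q c ∧ ∀ s ∈ c.2, s.1 ≠ [] := by
  have key : ∀ P : List V, P.IsChain (Rq G Q) → (∀ a ∈ P.getLast?, a ∈ Q) →
      ∃ l cs, flatE l ++ flat cs = P ∧ (∀ s ∈ l, SegOK Q s ∧ s.1 ≠ []) ∧
        (∀ c ∈ cs, CompOK G Q c ∧ ∀ s ∈ c.2, s.1 ≠ []) ∧
        ∀ q, (∀ a ∈ P.head?, Rq G Q q a) → Link G Q q l := by
    intro P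
    induction P with
    | nil => exact fun _ _ => ⟨[], [], rfl, by simp, by simp, fun _ _ => trivial⟩
    | cons a P ih =>
      intro hc hl
      have hl' : ∀ b ∈ P.getLast?, b ∈ Q := by
        intro b hb
        refine hl b ?_
        cases P with
        | nil => simp at hb
        | cons x P => rwa [List.getLast?_cons_cons]
      rw [List.isChain_cons] at hc
      obtain ⟨l, cs, h1, h2, h3, h4⟩ := ih hc.2 hl'
      have h5 := h4 a hc.1
      by_cases ha : a ∈ Q
      · refine ⟨[], (a, l) :: cs, by simp [flat_cons, flatE, ← h1], by simp, ?_,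
          fun _ _ => trivial⟩
        intro c hc'
        rcases List.mem_cons.1 hc' with rfl | hc'
        · exact ⟨⟨ha, fun s hs => (h2 s hs).1, h5⟩, fun s hs => (h2 s hs).2⟩
        · exact h3 c hc'
      · cases l with
        | cons s l =>
          refine ⟨(a :: s.1, s.2) :: l, cs, by simp [flatE_cons, ← h1], ?_, h3, fun q hq => ?_⟩
          · intro x hx
            rcases List.mem_cons.1 hx with rfl | hx
            · have := (h2 s (by simp)).1
              exact ⟨⟨by simpa [ha] using this.1, this.2⟩, by simp⟩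
            · exact h2 x (by simp [hx])
          · exact ⟨List.isChain_cons_cons.2 ⟨hq a (by simp), h5.1⟩, h5.2⟩
        | nil =>
          cases cs with
          | nil =>
            have : P = [] := h1.symm
            subst this
            exact absurd (hl a (by simp)) ha
          | cons c cs =>
            have h6 := h3 c (by simp)
            have h7 : P = c.1 :: (flatE c.2 ++ flat cs) := by
              rw [← h1, flat_cons]
              rfl
            refine ⟨([a], c.1) :: c.2, cs, by simp [flatE_cons, h7], ?_,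
              fun x hx => h3 x (by simp [hx]), fun q hq => ⟨?_, h6.1.2.2⟩⟩
            · intro x hx
              rcases List.mem_cons.1 hx with rfl | hx
              · exact ⟨⟨by simpa using ha, h6.1.1⟩, by simp⟩
              · exact ⟨h6.1.2.1 x hx, h6.2 x hx⟩
            · have := hc.1 c.1 (by simp [h7])
              simpa using ⟨hq a (by simp), this⟩
  obtain ⟨l, cs, h1, h2, h3, -⟩ := key P h.ch h.la
  cases l with
  | nil => exact ⟨cs, h1, h3⟩
  | cons s l =>
    exfalso
    obtain ⟨h4, h5⟩ := h2 s (by simp)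
    obtain ⟨a, E, h6⟩ := List.exists_cons_of_ne_nil h5
    exact h4.1 a (by simp [h6]) (h.hd a (by simp [← h1, flatE_cons, h6]))

theorem exists_nodup_walk (w : V) (n : ℕ) : ∀ (W : List V) (u : V), W.length ≤ n → W ≠ [] →
    (u :: (W ++ [w])).IsChain G.Adj → ∃ W' : List V, W' ≠ [] ∧ W'.Nodup ∧ (∀ v ∈ W', v ∈ W) ∧
      W'.length ≤ W.length ∧ (u :: (W' ++ [w])).IsChain G.Adj := by
  induction n with
  | zero =>
    intro W u h1 h2
    exact absurd (List.length_eq_zero_iff.1 (by omega)) h2
  | succ n ih =>
    intro W u h1 h2 h3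
    obtain ⟨a, W, rfl⟩ := List.exists_cons_of_ne_nil h2
    rw [List.cons_append, List.isChain_cons_cons] at h3
    by_cases ha : a ∈ W
    · obtain ⟨B, C, rfl⟩ := List.append_of_mem ha
      have h4 := h3.2
      rw [List.append_assoc, List.cons_append, ← List.cons_append, List.isChain_split] at h4
      obtain ⟨W', e1, e2, e3, e4, e5⟩ := ih (a :: C) u (by simp at h1 ⊢; omega) (by simp)
        (List.isChain_cons_cons.2 ⟨h3.1, h4.2⟩)
      refine ⟨W', e1, e2, fun v hv => ?_, by simp at e4 ⊢; omega, e5⟩
      exact List.mem_cons_of_mem _ (List.mem_append_right _ (e3 v hv))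
    · by_cases hW : W = []
      · subst hW
        exact ⟨[a], by simp, by simp, by simp, le_rfl, List.isChain_cons_cons.2 h3⟩
      · obtain ⟨W', e1, e2, e3, e4, e5⟩ := ih W a (by simpa using h1) hW h3.2
        refine ⟨a :: W', by simp, List.nodup_cons.2 ⟨fun h => ha (e3 a h), e2⟩, fun v hv => ?_,
          by simpa using e4, List.isChain_cons_cons.2 ⟨h3.1, e5⟩⟩
        rcases List.mem_cons.1 hv with rfl | hv
        · simp
        · exact List.mem_cons_of_mem _ (e3 v hv)

theorem chain_rev {u w : V} {W : List V} (h : (u :: (W ++ [w])).IsChain G.Adj) :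
    (w :: (W.reverse ++ [u])).IsChain G.Adj := by
  have := List.isChain_reverse.2 (h.imp fun a b (hab : G.Adj a b) => (hab.symm : G.Adj b a))
  simpa using this

theorem Far.symm {X : Finset V} {u w : V} {ρ : ℕ} (h : Far G X u w ρ) : Far G X w u ρ :=
  fun W h1 h2 h3 h4 => h W.reverse (by simpa using h1) (by simpa using h2) (by simpa using h3)
    (chain_rev h4)

theorem Far.mono {X : Finset V} {u w : V} {ρ ρ' : ℕ} (h : Far G X u w ρ) (hρ : ρ' ≤ ρ) :
    Far G X u w ρ' := fun W h1 h2 => h W h1 (h2.trans hρ)

variable [DecidableEq V]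

theorem out_flatE {Q : Finset V} {l : List (Seg V)} (h : ∀ s ∈ l, SegOK Q s) :
    out Q (flatE l) = (l.map fun s => s.1.length).sum := by
  induction l with
  | nil => rfl
  | cons s l ih =>
    have h1 := h s (by simp)
    rw [flatE_cons, ← List.singleton_append, out_append, out_append, out_of_out h1.1,
      out_of_in (by simpa using h1.2), ih fun s hs => h s (by simp [hs])]
    simp

theorem oo_flatE {Q : Finset V} {l : List (Seg V)} (h : ∀ s ∈ l, SegOK Q s) :
    oo Q (flatE l) = (l.map fun s => s.1.length - 1).sum := by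
  induction l with
  | nil => rfl
  | cons s l ih =>
    have h1 := h s (by simp)
    rw [flatE_cons, oo_append_right _ (by simpa using h1.2), ← List.singleton_append,
      oo_append_left (by simpa using h1.2), oo_of_out h1.1, oo_of_in (by simpa using h1.2),
      ih fun s hs => h s (by simp [hs])]
    simp

theorem hd_notMem_iff {Q : Finset V} {s : Seg V} (h : SegOK Q s) : hd s ∉ Q ↔ s.1 ≠ [] := by
  obtain ⟨E, q⟩ := s
  cases E with
  | nil => simpa [hd] using h.2
  | cons a E => simpa [hd] using h.1 a (by simp)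

theorem join_segs {Q : Finset V} {l : List (Seg V)} (h : Sys G Q (flatE l))
    (hl : ∀ s ∈ l, SegOK Q s) {s s' : Seg V} (hs : s ∈ l) (hs' : s' ∈ l) (hne : s ≠ s')
    {W : List V} (hW0 : W ≠ []) (hW : W.Nodup) (hd1 : ∀ v ∈ W, v ∉ flatE l)
    (hQ : ∀ v ∈ W, v ∉ Q) (hc : (hd s :: (W ++ [hd s'])).IsChain G.Adj) :
    ∃ P', Sys G Q P' ∧ P'.length = (flatE l).length + W.length ∧
      out Q P' = out Q (flatE l) + W.length ∧
      oo Q P' + 1 = oo Q (flatE l) + W.length +
        (if s.1 ≠ [] then 1 else 0) + (if s'.1 ≠ [] then 1 else 0) := by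
  have key : ∀ (A B C : List (Seg V)) (s s' : Seg V) (W : List V), l = A ++ s :: B ++ s' :: C →
      W ≠ [] → W.Nodup → (∀ v ∈ W, v ∉ flatE l) → (∀ v ∈ W, v ∉ Q) →
      (hd s :: (W ++ [hd s'])).IsChain G.Adj →
      ∃ P', Sys G Q P' ∧ P'.length = (flatE l).length + W.length ∧
      out Q P' = out Q (flatE l) + W.length ∧
      oo Q P' + 1 = oo Q (flatE l) + W.length +
        (if s.1 ≠ [] then 1 else 0) + (if s'.1 ≠ [] then 1 else 0) := by
    intro A B C s s' W e hW0 hW hd1 hQ hc
    obtain ⟨X, hX⟩ := flatE_hd s B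
    obtain ⟨Y, hY⟩ := flatE_hd s' C
    have e1 : flatE l = flatE A ++ (hd s :: X) ++ (hd s' :: Y) := by
      rw [e, flatE_append, flatE_append, hX, hY]
    have h1 : SegOK Q s := hl s (by simp [e])
    have h2 : SegOK Q s' := hl s' (by simp [e])
    simp only [← hd_notMem_iff h1, ← hd_notMem_iff h2]
    rw [e1] at h hd1 ⊢
    refine h.join (last_flatE fun x hx => hl x (by simp [e, hx])) ?_ hW0 hW hd1 hQ hc
    rw [← hX]
    refine last_flatE fun x hx => hl x ?_
    rw [e]
    exact List.mem_append_left _ (List.mem_append_right _ hx)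
  obtain ⟨A, R, e⟩ := List.append_of_mem hs
  rw [e, List.mem_append, List.mem_cons] at hs'
  rcases hs' with h1 | h1 | h1
  · obtain ⟨A', B, e'⟩ := List.append_of_mem h1
    obtain ⟨P', h2, h3, h4, h5⟩ := key A' B R s' s W.reverse (by rw [e, e']) (by simpa using hW0)
      (List.nodup_reverse.2 hW) (by simpa using hd1) (by simpa using hQ) (chain_rev hc)
    rw [List.length_reverse] at h3 h4 h5
    exact ⟨P', h2, h3, h4, by omega⟩
  · exact absurd h1.symm hne
  · obtain ⟨B, C, e'⟩ := List.append_of_mem h1
    exact key A B C s s' W (by simp [e, e']) hW0 hW hd1 hQ hc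

end Vale.Agent.P048
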