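import Vale.Agent.P048.LongCyc
import Vale.Agent.P048.Str

/-! Independent vertices near a given vertex. -/

namespace Vale.Agent.P048

open Finset

variable {V : Type} [Fintype V] [DecidableEq V] {G : SimpleGraph V} [DecidableRel G.Adj]
  {k t : ℕ}

theorem card_out (h : Bad G k) (X : Finset V) (u : V) :
    k ≤ (X.filter (G.Adj u)).card + (univ.filter fun y => y ∉ X ∧ G.Adj u y).card := by
  have h1 := h.exp {u} (by simp [Ind]) (by simp)
  have h2 : nb G {u} ⊆ insert u (X.filter (G.Adj u) ∪ univ.filter fun y => y ∉ X ∧ G.Adj u y) := by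
    intro v hv
    rcases mem_nb_one.1 hv with h | h
    · simp [h]
    · by_cases hx : v ∈ X <;> simp [h, hx]
  have h3 := (card_le_card h2).trans ((card_insert_le _ _).trans
    (Nat.add_le_add_right (card_union_le _ _) 1))
  rw [card_singleton] at h1
  omega

theorem ball_one (h : Bad G k) (X : Finset V) (u : V) (hb : (X.filter (G.Adj u)).card + 1 ≤ k) :
    ∃ x, x ∉ X ∧ G.Adj u x := by
  have h1 := card_out h X u
  obtain ⟨x, hx⟩ := card_pos.1
    (show 0 < (univ.filter fun y => y ∉ X ∧ G.Adj u y).card by omega)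
  exact ⟨x, (mem_filter.1 hx).2⟩

omit [Fintype V] [DecidableRel G.Adj] in
theorem ind_pair {a b : V} (h : ¬ G.Adj a b) : Ind G {a, b} := by
  intro x hx y hy
  simp only [mem_insert, mem_singleton] at hx hy
  rcases hx with rfl | rfl <;> rcases hy with rfl | rfl
  · exact G.irrefl
  · exact h
  · exact fun h1 => h h1.symm
  · exact G.irrefl

theorem ball_pair (h : Bad G k) (ht : ∀ K, Clq G K → K.card ≤ t) (X : Finset V) (u : V)
    (K : Finset V) (hKX : K ⊆ X) (hKu : ∀ y ∈ K, G.Adj u y)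
    (hb : (X.filter (G.Adj u)).card + t ≤ k + K.card) :
    ∃ a b, a ≠ b ∧ ¬ G.Adj a b ∧ (a ∈ K ∨ (a ∉ X ∧ G.Adj u a)) ∧
      (b ∈ K ∨ (b ∉ X ∧ G.Adj u b)) := by
  by_contra hc
  have h1 := card_out h X u
  set R := univ.filter fun y => y ∉ X ∧ G.Adj u y with hR
  have h2 : ∀ y ∈ K ∪ R, y ∈ K ∨ (y ∉ X ∧ G.Adj u y) := fun y hy =>
    (mem_union.1 hy).imp_right fun h => by simpa [hR] using h
  have h3 : ∀ y ∈ K ∪ R, G.Adj u y := fun y hy => (h2 y hy).elim (hKu y) fun h => h.2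
  have h4 : Clq G (insert u (K ∪ R)) := by
    intro a ha b hb hab
    rcases mem_insert.1 ha with ha | ha <;> rcases mem_insert.1 hb with hb | hb
    · exact absurd (ha.trans hb.symm) hab
    · exact ha ▸ h3 b hb
    · exact hb ▸ (h3 a ha).symm
    · by_contra h5
      exact hc ⟨a, b, hab, h5, h2 a ha, h2 b hb⟩
  have h5 := ht _ h4
  rw [card_insert_of_notMem fun h => G.irrefl (h3 u h), card_union_of_disjoint
    (disjoint_left.2 fun y hy hy' => (mem_filter.1 hy').2.1 (hKX hy))] at h5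
  omega

theorem ball_triple (h : Bad G k) (hk : 4 ≤ k) (ht : ∀ K, Clq G K → K.card ≤ t) (X : Finset V)
    {a b : V} (hab : a ≠ b) (hn : ¬ G.Adj a b) (K : Finset V)
    (hb : (X.filter fun v => (G.Adj a v ∨ G.Adj b v) ∧ v ∉ K).card + max k (2 * t) ≤ 2 * k) :
    ∃ J, Ind G J ∧ J.card = 3 ∧
      ∀ y ∈ J, y = a ∨ y = b ∨ y ∈ K ∨ (y ∉ X ∧ (G.Adj a y ∨ G.Adj b y)) := by
  have h1 := h.exp {a, b} (ind_pair hn) (by simp)
  rw [card_pair hab] at h1
  have h2 := le_card_sdiff (X.filter fun v => (G.Adj a v ∨ G.Adj b v) ∧ v ∉ K) (nb G {a, b})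
  have h3 := le_max_left k (2 * t)
  have h4 := le_max_right k (2 * t)
  obtain ⟨J, j1, j2, j3⟩ := exists_triple hk h.nocyc ht
    (nb G {a, b} \ X.filter fun v => (G.Adj a v ∨ G.Adj b v) ∧ v ∉ K) (by omega) (by omega)
  refine ⟨J, j2, j3, fun y hy => ?_⟩
  obtain ⟨h5, h6⟩ := mem_sdiff.1 (j1 hy)
  rw [mem_nb_two] at h5
  rw [mem_filter] at h6
  tauto

theorem ball_split (h : Bad G k) (X : Finset V) (u : V) (d : ℕ)
    (hb : (X.filter (G.Adj u)).card + d ≤ k) :
    (∃ a b, a ≠ b ∧ ¬ G.Adj a b ∧ (a ∉ X ∧ G.Adj u a) ∧ (b ∉ X ∧ G.Adj u b)) ∨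
      ∃ K, Clq G K ∧ K.card = d ∧ ∀ y ∈ K, y ∉ X ∧ G.Adj u y := by
  have h1 := card_out h X u
  obtain ⟨K, h2, h3⟩ := exists_subset_card_eq
    (show d ≤ (univ.filter fun y => y ∉ X ∧ G.Adj u y).card by omega)
  have h4 : ∀ y ∈ K, y ∉ X ∧ G.Adj u y := fun y hy => (mem_filter.1 (h2 hy)).2
  by_cases h5 : Clq G K
  · exact Or.inr ⟨K, h5, h3, h4⟩
  · left
    by_contra hc
    exact h5 fun a ha b hb hab => by
      by_contra h6
      exact hc ⟨a, b, hab, h6, h4 a ha, h4 b hb⟩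

omit [Fintype V] [DecidableRel G.Adj] in
theorem items_list (l : List (ℕ × (V → Prop)))
    (h1 : ∀ x ∈ l, ∃ J, Ind G J ∧ J.card = x.1 ∧ ∀ y ∈ J, x.2 y)
    (h2 : l.Pairwise fun x x' => ∀ y y', x.2 y → x'.2 y' → y ≠ y' ∧ ¬ G.Adj y y') :
    ∃ J, Ind G J ∧ J.card = (l.map Prod.fst).sum ∧ ∀ y ∈ J, ∃ x ∈ l, x.2 y := by
  induction l with
  | nil => exact ⟨∅, by simp [Ind], rfl, by simp⟩
  | cons x l ih =>
    rw [List.pairwise_cons] at h2
    obtain ⟨J, j1, j2, j3⟩ := h1 x (by simp)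
    obtain ⟨J', k1, k2, k3⟩ := ih (fun y hy => h1 y (by simp [hy])) h2.2
    have h3 : ∀ y ∈ J, ∀ y' ∈ J', y ≠ y' ∧ ¬ G.Adj y y' := by
      intro y hy y' hy'
      obtain ⟨x', h4, h5⟩ := k3 y' hy'
      exact h2.1 x' h4 y y' (j3 y hy) h5
    refine ⟨J ∪ J', fun a ha b hb => ?_, ?_, fun y hy => ?_⟩
    · rcases mem_union.1 ha with ha | ha <;> rcases mem_union.1 hb with hb | hb
      · exact j1 a ha b hb
      · exact (h3 a ha b hb).2
      · exact fun h => (h3 b hb a ha).2 h.symm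
      · exact k1 a ha b hb
    · rw [card_union_of_disjoint (disjoint_left.2 fun y hy hy' => (h3 y hy y hy').1 rfl), j2, k2]
      simp
    · rcases mem_union.1 hy with hy | hy
      · exact ⟨x, by simp, j3 y hy⟩
      · obtain ⟨x', h4, h5⟩ := k3 y hy
        exact ⟨x', by simp [h4], h5⟩

/-- reachable through at most `i` vertices outside `X` -/
def Near (G : SimpleGraph V) (X : Finset V) (u : V) (i : ℕ) (y : V) : Prop :=
  ∃ W : List V, W.length < i ∧ (∀ v ∈ W, v ∉ X) ∧ y ∉ X ∧ (u :: (W ++ [y])).IsChain G.Adj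

section Near

omit [Fintype V] [DecidableEq V] [DecidableRel G.Adj]

variable {X : Finset V} {u w y z : V} {i j : ℕ}

theorem Near.one (h1 : y ∉ X) (h2 : G.Adj u y) : Near G X u 1 y :=
  ⟨[], by simp, by simp, h1, by simpa using h2⟩

theorem Near.mono (h : Near G X u i y) (hij : i ≤ j) : Near G X u j y := by
  obtain ⟨W, h1, h2⟩ := h
  exact ⟨W, by omega, h2⟩

theorem Near.notMem (h : Near G X u i y) : y ∉ X := by
  obtain ⟨W, -, -, h1, -⟩ := h
  exact h1

theorem chain_snoc {W : List V} (h : (u :: (W ++ [y])).IsChain G.Adj) (h2 : G.Adj y z) :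
    (u :: ((W ++ [y]) ++ [z])).IsChain G.Adj := by
  rw [List.append_assoc, List.singleton_append, ← List.cons_append, List.isChain_split]
  exact ⟨h, by simpa using h2⟩

theorem Near.step (h : Near G X u i y) (h1 : z ∉ X) (h2 : G.Adj y z) : Near G X u (i + 1) z := by
  obtain ⟨W, h3, h4, h5, h6⟩ := h
  refine ⟨W ++ [y], by simpa using h3, fun v hv => ?_, h1, chain_snoc h6 h2⟩
  rcases List.mem_append.1 hv with hv | hv
  · exact h4 v hv
  · exact List.mem_singleton.1 hv ▸ h5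

theorem Near.not_adj (h : Near G X u i y) (hf : Far G X u w i) : ¬ G.Adj y w := by
  obtain ⟨W, h3, h4, h5, h6⟩ := h
  intro h2
  refine hf (W ++ [y]) (by simp) (by simp; omega) (fun v hv => ?_) (chain_snoc h6 h2)
  rcases List.mem_append.1 hv with hv | hv
  · exact h4 v hv
  · exact List.mem_singleton.1 hv ▸ h5

theorem Near.ne (h : Near G X u i y) (h' : Near G X w j y) (hf : Far G X u w (i + j - 1)) :
    False := by
  obtain ⟨W, h3, h4, h5, h6⟩ := h
  obtain ⟨W', k3, k4, -, k6⟩ := h'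
  refine hf (W ++ y :: W'.reverse) (by simp) (by simp; omega) (fun v hv => ?_) ?_
  · simp only [List.mem_append, List.mem_cons, List.mem_reverse] at hv
    rcases hv with hv | hv | hv
    · exact h4 v hv
    · exact hv ▸ h5
    · exact k4 v hv
  · rw [List.append_assoc, List.cons_append, ← List.cons_append, List.isChain_split]
    exact ⟨h6, chain_rev k6⟩

theorem Near.cross (h : Near G X u i y) (h' : Near G X w j z) (hf : Far G X u w (i + j)) :
    y ≠ z ∧ ¬ G.Adj y z :=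
  ⟨fun e => h.ne (e ▸ h') (hf.mono (by omega)),
    fun e => (h.step h'.notMem e).ne h' (hf.mono (by omega))⟩

end Near

end Vale.Agent.P048
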