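import Mathlib.Data.Nat.Pairing
import Mathlib.Data.List.Nodup

/-! Bit masks used by the certificate checker. -/

namespace Vale.Agent.P048

def tb (m i : ℕ) : Bool := Nat.beq (Nat.mod (Nat.shiftRight m i) 2) 1

def s1 (m i : ℕ) : ℕ := Nat.lor m (Nat.shiftLeft 1 i)

theorem tb_eq (m i : ℕ) : tb m i = m.testBit i := by
  rw [Nat.testBit_eq_decide_div_mod_eq, ← Nat.shiftRight_eq_div_pow, Bool.eq_iff_iff]
  simp only [tb, Nat.beq_eq, decide_eq_true_eq]
  rfl

theorem tb_s1 {m i j : ℕ} : tb (s1 m i) j = true ↔ tb m j = true ∨ j = i := by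
  have : s1 m i = m ||| 2 ^ i := by rw [← Nat.one_shiftLeft]; rfl
  rw [tb_eq, tb_eq, this, Nat.testBit_or, Nat.testBit_two_pow]
  simp only [Bool.or_eq_true, decide_eq_true_eq, @eq_comm _ i j]

theorem tb_zero (j : ℕ) : tb 0 j = false := by simp [tb_eq]

def pr (a b : ℕ) : ℕ :=
  cond (Nat.blt a b) (Nat.add (Nat.mul b b) a) (Nat.add (Nat.add (Nat.mul a a) a) b)

theorem pr_eq (a b : ℕ) : pr a b = Nat.pair a b := by
  unfold pr Nat.pair
  by_cases h : a < b
  · rw [if_pos h, Nat.blt_eq.mpr h]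
    rfl
  · rw [if_neg h, Bool.eq_false_iff.2 fun e => h (Nat.blt_eq.mp e)]
    rfl

def bit (m a b : ℕ) : Bool := tb m (pr a b)

def sb (m a b : ℕ) : ℕ := s1 (s1 m (pr a b)) (pr b a)

theorem bit_zero (a b : ℕ) : bit 0 a b = false := tb_zero _

theorem bit_sb {R : ℕ → ℕ → Prop} (hs : ∀ i j, R i j → R j i) {m a b : ℕ} (h1 : R a b)
    (h2 : ∀ i j, bit m i j = true → R i j) : ∀ i j, bit (sb m a b) i j = true → R i j := by
  intro i j h
  simp only [bit, sb, tb_s1, pr_eq, Nat.pair_eq_pair] at h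
  rcases h with (h | ⟨rfl, rfl⟩) | ⟨rfl, rfl⟩
  · exact h2 i j (by rwa [bit, pr_eq])
  · exact h1
  · exact hs _ _ h1

def setAll : List (ℕ × ℕ) → ℕ → ℕ
  | [], m => m
  | p :: l, m => sb (setAll l m) p.1 p.2

theorem bit_setAll {R : ℕ → ℕ → Prop} (hs : ∀ i j, R i j → R j i) {m : ℕ} {l : List (ℕ × ℕ)}
    (h1 : ∀ p ∈ l, R p.1 p.2) (h2 : ∀ i j, bit m i j = true → R i j) :
    ∀ i j, bit (setAll l m) i j = true → R i j := by
  induction l with
  | nil => exact h2
  | cons p l ih => exact bit_sb hs (h1 p (by simp)) (ih fun x hx => h1 x (by simp [hx]))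

def ndm : ℕ → List ℕ → Bool
  | _, [] => true
  | s, a :: l => !tb s a && ndm (s1 s a) l

theorem ndm_sound {s : ℕ} {l : List ℕ} (h : ndm s l = true) :
    l.Nodup ∧ ∀ a ∈ l, ¬ tb s a = true := by
  induction l generalizing s with
  | nil => simp
  | cons a l ih =>
    simp only [ndm, Bool.and_eq_true, Bool.not_eq_eq_eq_not, Bool.not_true] at h
    obtain ⟨h1, h2⟩ := ih h.2
    simp only [tb_s1, not_or] at h2
    refine ⟨List.nodup_cons.2 ⟨fun e => (h2 a e).2 rfl, h1⟩, fun b hb => ?_⟩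
    rcases List.mem_cons.1 hb with rfl | hb
    · simp [h.1]
    · exact (h2 b hb).1

def pwB {α : Type} (r : α → α → Bool) : List α → Bool
  | [] => true
  | a :: l => l.all (r a) && pwB r l

theorem pwB_sound {α : Type} {r : α → α → Bool} {l : List α} (h : pwB r l = true) :
    l.Pairwise fun a b => r a b = true := by
  induction l with
  | nil => simp
  | cons a l ih =>
    simp only [pwB, Bool.and_eq_true, List.all_eq_true] at h
    exact List.pairwise_cons.2 ⟨h.1, ih h.2⟩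

def msk (f : ℕ → Bool) : ℕ → ℕ
  | 0 => 0
  | i + 1 => cond (f i) (s1 (msk f i) i) (msk f i)

theorem tb_msk {f : ℕ → Bool} {n i : ℕ} : tb (msk f n) i = true ↔ i < n ∧ f i = true := by
  induction n with
  | zero => simp [msk, tb_zero]
  | succ n ih =>
    rw [msk]
    by_cases e : i = n
    · subst e
      cases f i <;> simp [tb_s1, ih]
    · have : i < n + 1 ↔ i < n := by omega
      cases f n <;> simp [tb_s1, ih, e, this]

/-- digits in base 64 -/
def dg (x : ℕ) : ℕ → List ℕ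
  | 0 => []
  | i + 1 => Nat.land (Nat.shiftRight x (Nat.mul 6 i)) 63 :: dg x i

def uu (x : ℕ) : ℕ := Nat.land x 63

def ww (x : ℕ) : ℕ := Nat.land (Nat.shiftRight x 6) 63

def uw (x : ℕ) : ℕ × ℕ := (uu x, ww x)

def rs (x : ℕ) : ℕ := Nat.shiftRight x 12

end Vale.Agent.P048
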