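import Vale.Agent.P048.Model

/-! The certificate checker and its soundness. -/

namespace Vale.Agent.P048

open Finset

inductive DC : Type
  | leaf : DC
  | non : List ℕ → DC → DC
  | br : ℕ → ℕ → DC → DC → DC

inductive Item : Type
  | S : ℕ → Item
  | N : ℕ → DC → Item
  | P : ℕ → List ℕ → DC → Item
  | T : ℕ → ℕ → List ℕ → DC → Item

inductive Cert : Type
  | close : ℕ → Cert
  | items : List ℕ → List ℕ → List Item → Cert
  | non : List ℕ → Cert → Cert
  | br : ℕ → ℕ → Cert → Cert → Cert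
  | ext : ℕ → DC → Cert → Cert
  | pair : ℕ → ℕ → DC → Cert → Cert → Cert

section Defs

variable (k t L O q : ℕ)

def okN (n E x : ℕ) : Bool :=
  Nat.blt (uu x) n && Nat.blt (ww x) n && clo k t L O q n (sb E (uu x) (ww x)) (rs x)

def okF1 (n E x : ℕ) : Bool :=
  Nat.blt (uu x) n && Nat.blt (ww x) n &&
    clo k t L O q (n + 1) (sb (sb E (uu x) n) (ww x) n) (rs x)

def okF2 (n E x : ℕ) : Bool :=
  Nat.blt (uu x) n && Nat.blt (ww x) n &&
    clo k t L O q (n + 2) (sb (sb (sb E (uu x) n) n (n + 1)) (ww x) (n + 1)) (rs x)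

def dck (n : ℕ) (lf : ℕ → Bool) : DC → ℕ → ℕ → Bool
  | .leaf, _, N => lf N
  | .non l d, E, N => l.all (okN k t L O q n E) && dck n lf d E (setAll (l.map uw) N)
  | .br u w d1 d2, E, N => Nat.blt u n && Nat.blt w n && dck n lf d1 (sb E u w) N &&
      dck n lf d2 E (sb N u w)

def poss (a b : ℕ) (K : List ℕ) (N j : ℕ) : Bool :=
  ((!bit N a j && !Nat.beq a j) || (!bit N b j && !Nat.beq b j)) && !K.any (Nat.beq j)

def cnt (a b : ℕ) (K : List ℕ) (N : ℕ) : ℕ → ℕ
  | 0 => 0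
  | j + 1 => cond (poss a b K N j) (Nat.succ (cnt a b K N j)) (cnt a b K N j)

/-- certified bound: degree plus `x` is at most `y` -/
def dbd (n E N a b : ℕ) (K : List ℕ) (x y : ℕ) (d : DC) : Bool :=
  dck k t L O q n (fun M => Nat.ble (cnt a b K M n + x) y) d E N

def Item.val : Item → ℕ
  | .S _ => 1
  | .N _ _ => 1
  | .P _ _ _ => 2
  | .T _ _ _ _ => 3

def Item.slf : Item → List ℕ
  | .S u => [u]
  | .N _ _ => []
  | .P _ K _ => K
  | .T a b K _ => a :: b :: K

def Item.cen : Item → List ℕ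
  | .S _ => []
  | .N u _ => [u]
  | .P u _ _ => [u]
  | .T a b _ _ => [a, b]

def Item.ok (n E N : ℕ) : Item → Bool
  | .S _ => true
  | .N u d => dbd k t L O q n E N u u [] 1 k d
  | .P u K d => K.all (bit E u) && ndm 0 K && dbd k t L O q n E N u u [] t (k + K.length) d
  | .T a b K d => Nat.ble 4 k && !Nat.beq a b && bit N a b &&
      dbd k t L O q n E N a b K (max k (2 * t)) (2 * k) d

def compat (N F1 F2 : ℕ) (x y : Item) : Bool :=
  (x.slf.all fun a => (y.slf.all fun b => !Nat.beq a b && bit N a b) && y.cen.all (bit F1 a)) &&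
    x.cen.all fun a => y.slf.all (bit F1 a) && y.cen.all fun b => bit F1 a b && bit F2 a b

def kpairs (u n d : ℕ) : List (ℕ × ℕ) :=
  (List.range d).flatMap fun j => (u, n + j) :: (List.range j).map fun i => (n + i, n + j)

def chk : Cert → ℕ → ℕ → ℕ → Bool
  | .close c, n, E, _ => clo k t L O q n E c
  | .items f1 f2 l, n, E, N => f1.all (okF1 k t L O q n E) && f2.all (okF2 k t L O q n E) &&
      l.all (fun x => x.slf.all (fun i => Nat.blt i n) && x.ok k t L O q n E N) &&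
      pwB (compat N (setAll (f1.map uw) 0) (setAll (f2.map uw) 0)) l &&
      Nat.blt k (l.map Item.val).sum
  | .non l c, n, E, N => l.all (okN k t L O q n E) && chk c n E (setAll (l.map uw) N)
  | .br u w c1 c2, n, E, N => Nat.blt u n && Nat.blt w n && chk c1 n (sb E u w) N &&
      chk c2 n E (sb N u w)
  | .ext u d c, n, E, N => Nat.blt u n && dbd k t L O q n E N u u [] 1 k d &&
      chk c (n + 1) (sb E u n) N
  | .pair u m d c1 c2, n, E, N => Nat.blt u n && dbd k t L O q n E N u u [] m k d &&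
      chk c1 (n + 2) (sb (sb E u n) u (n + 1)) (sb N n (n + 1)) &&
      chk c2 (n + m) (setAll (kpairs u n m) E) N

end Defs

variable {V : Type} [DecidableEq V] [Fintype V] {G : SimpleGraph V} [DecidableRel G.Adj]
  {Q : Finset V} {q n E N k t L O : ℕ} {φ : ℕ → V}

theorem Mod.nons (h : Mod G Q q φ n E N) (hc : Ctx G k t L O Q) {l : List ℕ}
    (hl : l.all (okN k t L O q n E) = true) : Mod G Q q φ n E (setAll (l.map uw) N) := by
  refine h.allN fun p hp => ?_
  obtain ⟨x, hx, rfl⟩ := List.mem_map.1 hp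
  have := List.all_eq_true.1 hl x hx
  simp only [okN, Bool.and_eq_true, Nat.blt_eq] at this
  exact ⟨this.1.1, this.1.2, fun e => (h.addE this.1.1 this.1.2 e).close hc this.2⟩

theorem dck_sound (hc : Ctx G k t L O Q) {lf : ℕ → Bool} {P : Prop}
    (hP : ∀ E N, Mod G Q q φ n E N → lf N = true → P) (d : DC) {E N : ℕ}
    (h : Mod G Q q φ n E N) (hd : dck k t L O q n lf d E N = true) : P := by
  induction d generalizing E N with
  | leaf => exact hP E N h hd
  | non l d ih =>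
    simp only [dck, Bool.and_eq_true] at hd
    exact ih (h.nons hc hd.1) hd.2
  | br u w d1 d2 ih1 ih2 =>
    simp only [dck, Bool.and_eq_true, Nat.blt_eq] at hd
    obtain ⟨⟨⟨h1, h2⟩, h3⟩, h4⟩ := hd
    by_cases e : G.Adj (φ u) (φ w)
    · exact ih1 (h.addE h1 h2 e) h3
    · exact ih2 (h.addN h1 h2 e) h4

theorem cnt_eq (a b : ℕ) (K : List ℕ) (N n : ℕ) :
    cnt a b K N n = ((range n).filter fun j => poss a b K N j = true).card := by
  induction n with
  | zero => rfl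
  | succ n ih =>
    rw [cnt, range_add_one, filter_insert, ih]
    cases poss a b K N n
    · simp
    · simp

theorem Mod.deg (h : Mod G Q q φ n E N) (hc : Ctx G k t L O Q) {a b x y : ℕ} {K : List ℕ}
    {d : DC} (hd : dbd k t L O q n E N a b K x y d = true) :
    ((XX φ n).filter fun v => (G.Adj (φ a) v ∨ G.Adj (φ b) v) ∧ v ∉ (K.map φ).toFinset).card + x
      ≤ y := by
  refine dck_sound hc (fun E N h1 h2 => ?_) d h hd
  rw [Nat.ble_eq, cnt_eq] at h2
  refine le_trans (Nat.add_le_add_right (le_trans (card_le_card fun v hv => ?_)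
    (card_image_le (f := φ))) x) h2
  obtain ⟨h3, h4, h5⟩ := mem_filter.1 hv
  obtain ⟨j, h6, rfl⟩ := mem_XX.1 h3
  refine mem_image_of_mem φ (mem_filter.2 ⟨mem_range.2 h6, ?_⟩)
  have h7 : ∀ c, G.Adj (φ c) (φ j) → (!bit N c j && !Nat.beq c j) = true := by
    intro c e
    simp only [Bool.and_eq_true, Bool.not_eq_true', ← Bool.not_eq_true, Nat.beq_eq]
    exact ⟨fun e' => (h1.non _ _ e').2.2 e, fun e' => e.ne (by rw [e'])⟩
  rw [poss, Bool.and_eq_true, Bool.or_eq_true]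
  refine ⟨h4.imp (h7 a) (h7 b), ?_⟩
  simp only [Bool.not_eq_true', ← Bool.not_eq_true, List.any_eq_true, Nat.beq_eq, exists_eq_right']
  exact fun e => h5 (List.mem_toFinset.2 (List.mem_map_of_mem e))

theorem Mod.deg1 (h : Mod G Q q φ n E N) (hc : Ctx G k t L O Q) {a x y : ℕ}
    {d : DC} (hd : dbd k t L O q n E N a a [] x y d = true) :
    ((XX φ n).filter (G.Adj (φ a))).card + x ≤ y := by
  simpa using h.deg hc hd

/-- the vertices an item may use -/
def Item.p (G : SimpleGraph V) (φ : ℕ → V) (n : ℕ) (x : Item) (y : V) : Prop :=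
  (∃ i ∈ x.slf, y = φ i) ∨ (y ∉ XX φ n ∧ ∃ c ∈ x.cen, G.Adj (φ c) y)

theorem Mod.item (h : Mod G Q q φ n E N) (hc : Ctx G k t L O Q) {x : Item}
    (hx : x.ok k t L O q n E N = true) :
    ∃ J, Ind G J ∧ J.card = x.val ∧ ∀ y ∈ J, x.p G φ n y := by
  cases x with
  | S u => exact ⟨{φ u}, by simp [Ind], rfl, by simp [Item.p, Item.slf]⟩
  | N u d =>
    obtain ⟨x, h1, h2⟩ := ball_one hc.bad _ _ (h.deg1 hc hx)
    exact ⟨{x}, by simp [Ind], rfl, by simp [Item.p, Item.cen, h1, h2]⟩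
  | P u K d =>
    simp only [Item.ok, Bool.and_eq_true, List.all_eq_true] at hx
    obtain ⟨⟨h1, h2⟩, h3⟩ := hx
    have h4 := List.toFinset_card_of_nodup
      (h.nodup (ndm_sound h2).1 fun i hi => (h.adj _ _ (h1 i hi)).2.1)
    rw [List.length_map] at h4
    obtain ⟨a, b, e1, e2, e3, e4⟩ := ball_pair hc.bad hc.opt.clq (XX φ n) (φ u)
      (K.map φ).toFinset (fun v hv => by
        obtain ⟨i, hi, rfl⟩ := List.mem_map.1 (List.mem_toFinset.1 hv)
        exact XX_mem (h.adj _ _ (h1 i hi)).2.1) (fun v hv => by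
        obtain ⟨i, hi, rfl⟩ := List.mem_map.1 (List.mem_toFinset.1 hv)
        exact (h.adj _ _ (h1 i hi)).2.2) (h4 ▸ h.deg1 hc h3)
    refine ⟨{a, b}, ind_pair e2, card_pair e1, ?_⟩
    simp only [List.mem_toFinset, List.mem_map, @eq_comm _ (φ _)] at e3 e4
    simpa [Item.p, Item.slf, Item.cen] using ⟨e3, e4⟩
  | T a b K d =>
    simp only [Item.ok, Bool.and_eq_true, Nat.ble_eq, Bool.not_eq_true', ← Bool.not_eq_true,
      Nat.beq_eq] at hx
    obtain ⟨⟨⟨h1, h2⟩, h3⟩, h4⟩ := hx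
    obtain ⟨h5, h6, h7⟩ := h.non _ _ h3
    obtain ⟨J, j1, j2, j3⟩ := ball_triple hc.bad h1 hc.opt.clq (XX φ n)
      (fun e => h2 (h.inj a h5 b h6 e)) h7 _ (h.deg hc h4)
    refine ⟨J, j1, j2, fun y hy => ?_⟩
    have := j3 y hy
    simp only [List.mem_toFinset, List.mem_map, @eq_comm _ (φ _)] at this
    simpa [Item.p, Item.slf, Item.cen, or_assoc] using this

theorem Mod.far1 (h : Mod G Q q φ n E N) (hc : Ctx G k t L O Q) {l : List ℕ}
    (hl : l.all (okF1 k t L O q n E) = true) : ∀ i j, bit (setAll (l.map uw) 0) i j = true →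
      ∀ x ∉ XX φ n, G.Adj (φ i) x → G.Adj (φ j) x → False := by
  refine bit_setAll (fun i j e x h1 h2 h3 => e x h1 h3 h2) (fun p hp x h1 h2 h3 => ?_)
    (by simp [bit_zero])
  obtain ⟨c, hx, rfl⟩ := List.mem_map.1 hp
  have := List.all_eq_true.1 hl c hx
  simp only [okF1, Bool.and_eq_true, Nat.blt_eq] at this
  obtain ⟨⟨e1, e2⟩, e3⟩ := this
  obtain ⟨ψ, m, m1, m2⟩ := h.ext1 h1
  exact ((m.addE (by omega) (by omega) (by rw [m1 _ e1, m2]; exact h2)).addE (by omega) (by omega)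
    (by rw [m1 _ e2, m2]; exact h3)).close hc e3

theorem Mod.far2 (h : Mod G Q q φ n E N) (hc : Ctx G k t L O Q) {l : List ℕ}
    (hl : l.all (okF2 k t L O q n E) = true) : ∀ i j, bit (setAll (l.map uw) 0) i j = true →
      ∀ x ∉ XX φ n, ∀ y ∉ XX φ n, G.Adj (φ i) x → G.Adj x y → G.Adj (φ j) y → False := by
  refine bit_setAll (fun i j e x h1 y h2 h3 h4 h5 => e y h2 x h1 h5 h4.symm h3)
    (fun p hp x h1 y h2 h3 h4 h5 => ?_) (by simp [bit_zero])
  obtain ⟨c, hx, rfl⟩ := List.mem_map.1 hp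
  have := List.all_eq_true.1 hl c hx
  simp only [okF2, Bool.and_eq_true, Nat.blt_eq] at this
  obtain ⟨⟨e1, e2⟩, e3⟩ := this
  obtain ⟨ψ, m, m1, m2, m3⟩ := h.ext2 h1 h2 h4.ne
  exact (((m.addE (by omega) (by omega) (by rw [m1 _ e1, m2]; exact h3)).addE (by omega)
    (by omega) (by rw [m2, m3]; exact h4)).addE (by omega) (by omega)
    (by rw [m1 _ e2, m3]; exact h5)).close hc e3

theorem chk_sound (hc : Ctx G k t L O Q) (c : Cert) {φ : ℕ → V} {n E N : ℕ}
    (h : Mod G Q q φ n E N) (hd : chk k t L O q c n E N = true) : False := by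
  induction c generalizing φ n E N with
  | close c => exact h.close hc hd
  | items f1 f2 l =>
    simp only [chk, Bool.and_eq_true, Nat.blt_eq] at hd
    obtain ⟨⟨⟨⟨h1, h2⟩, h3⟩, h4⟩, h5⟩ := hd
    have g1 := h.far1 hc h1
    have g2 := h.far2 hc h2
    simp only [List.all_eq_true, Bool.and_eq_true, Nat.blt_eq] at h3
    obtain ⟨J, j1, j2, -⟩ := items_list (G := G) (l.map fun x => (x.val, x.p G φ n)) (by
      intro x hx
      obtain ⟨y, hy, rfl⟩ := List.mem_map.1 hx
      exact h.item hc (h3 y hy).2) (by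
      rw [List.pairwise_map]
      refine (pwB_sound h4).imp_of_mem fun {x x'} hx hx' e y y' p1 p2 => ?_
      simp only [compat, List.all_eq_true, Bool.and_eq_true, Bool.not_eq_true',
        ← Bool.not_eq_true, Nat.beq_eq] at e
      rcases p1 with ⟨a, a1, rfl⟩ | ⟨a0, a, a1, a2⟩ <;>
        rcases p2 with ⟨b, b1, rfl⟩ | ⟨b0, b, b1, b2⟩
      · obtain ⟨e1, e2⟩ := (e.1 a a1).1 b b1
        obtain ⟨e3, e4, e5⟩ := h.non _ _ e2
        exact ⟨fun e6 => e1 (h.inj _ e3 _ e4 e6), e5⟩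
      · exact ⟨fun e1 => b0 (e1 ▸ XX_mem ((h3 x hx).1 a a1)),
          fun e1 => g1 _ _ ((e.1 a a1).2 b b1) y' b0 e1 b2⟩
      · exact ⟨fun e1 => a0 (e1 ▸ XX_mem ((h3 x' hx').1 b b1)),
          fun e1 => g1 _ _ ((e.2 a a1).1 b b1) y a0 a2 e1.symm⟩
      · exact ⟨fun e1 => g1 _ _ ((e.2 a a1).2 b b1).1 y a0 a2 (e1 ▸ b2),
          fun e1 => g2 _ _ ((e.2 a a1).2 b b1).2 y a0 y' b0 a2 e1 b2⟩)
    have := hc.bad.ind J j1
    simp only [List.map_map, Function.comp_def] at j2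
    have h6 : (l.map fun x => x.val).sum = (l.map Item.val).sum := rfl
    omega
  | non l c ih =>
    simp only [chk, Bool.and_eq_true] at hd
    exact ih (h.nons hc hd.1) hd.2
  | br u w c1 c2 ih1 ih2 =>
    simp only [chk, Bool.and_eq_true, Nat.blt_eq] at hd
    obtain ⟨⟨⟨h1, h2⟩, h3⟩, h4⟩ := hd
    by_cases e : G.Adj (φ u) (φ w)
    · exact ih1 (h.addE h1 h2 e) h3
    · exact ih2 (h.addN h1 h2 e) h4
  | ext u d c ih =>
    simp only [chk, Bool.and_eq_true, Nat.blt_eq] at hd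
    obtain ⟨⟨h1, h2⟩, h3⟩ := hd
    obtain ⟨x, x1, x2⟩ := ball_one hc.bad _ _ (h.deg1 hc h2)
    obtain ⟨ψ, m, m1, m2⟩ := h.ext1 x1
    exact ih (m.addE (by omega) (by omega) (by rw [m1 _ h1, m2]; exact x2)) h3
  | pair u m d c1 c2 ih1 ih2 =>
    simp only [chk, Bool.and_eq_true, Nat.blt_eq] at hd
    obtain ⟨⟨⟨h1, h2⟩, h3⟩, h4⟩ := hd
    rcases ball_split hc.bad _ _ _ (h.deg1 hc h2) with ⟨a, b, e1, e2, e3, e4⟩ | ⟨K, k1, k2, k3⟩
    · obtain ⟨ψ, m, m1, m2, m3⟩ := h.ext2 e3.1 e4.1 e1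
      exact ih1 (((m.addE (by omega) (by omega) (by rw [m1 _ h1, m2]; exact e3.2)).addE
        (by omega) (by omega) (by rw [m1 _ h1, m3]; exact e4.2)).addN (by omega) (by omega)
        (by rw [m2, m3]; exact e2)) h3
    · obtain ⟨ψ, m0, m1, m2⟩ := h.extend K.toList K.nodup_toList
        fun v hv => (k3 v (mem_toList.1 hv)).1
      have hl : K.toList.length = m := by rw [length_toList, k2]
      have hm : ∀ j < m, ψ (n + j) ∈ K := fun j hj => by
        rw [m2 j (by omega)]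
        exact mem_toList.1 (List.getElem_mem _)
      rw [hl] at m0
      refine ih2 (m0.allE fun p hp => ?_) h4
      simp only [kpairs, List.mem_flatMap, List.mem_range, List.mem_cons, List.mem_map] at hp
      obtain ⟨j, hj, rfl | ⟨i, hi, rfl⟩⟩ := hp
      · exact ⟨by omega, by omega, by rw [m1 _ h1]; exact (k3 _ (hm j hj)).2⟩
      · refine ⟨by omega, by omega, k1 _ (hm i (by omega)) _ (hm j hj) fun e => ?_⟩
        have := m0.inj _ (by omega) _ (by omega) e
        omega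

end Vale.Agent.P048
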