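import Vale.Agent.P048.Defs

namespace Vale.Agent.P048

open Finset

variable {V : Type} [Fintype V] [DecidableEq V] {G : SimpleGraph V} [DecidableRel G.Adj]

namespace Colour

theorem window (P : ℤ → Prop) {d : ℤ} (hd : 0 < d) (hP : ∀ x, P (x + d) ↔ P x) (lo : ℤ)
    (h : ∀ x, lo ≤ x → x < lo + d → P x) (x : ℤ) : P x := by
  have key : ∀ q x : ℤ, P (x + d * q) ↔ P x := by
    intro q
    induction q using Int.induction_on with
    | zero => simp
    | succ q ih => intro x; rw [show x + d * (q + 1) = x + d * q + d by ring, hP, ih]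
    | pred q ih => intro x; rw [← hP, show x + d * (-q - 1) + d = x + d * (-q) by ring, ih]
  have h1 := Int.emod_add_mul_ediv (x - lo) d
  have h2 := Int.emod_nonneg (x - lo) hd.ne'
  have h3 := Int.emod_lt_of_pos (x - lo) hd
  rw [show x = lo + (x - lo) % d + d * ((x - lo) / d) by omega, key]
  exact h _ (by omega) (by omega)

theorem eq_zero {m x : ℤ} (h : m ∣ x) (h1 : -m < x) (h2 : x < m) : x = 0 :=
  Int.eq_zero_of_abs_lt_dvd h (abs_lt.2 ⟨h1, h2⟩)

omit [Fintype V] [DecidableEq V] [DecidableRel G.Adj] in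
theorem exists_cyc {l : List V} (hl : l.Nodup ∧ l.IsChain G.Adj ∧
    ∀ a ∈ l.getLast?, ∀ b ∈ l.head?, G.Adj a b) (h0 : 0 < l.length) :
    ∃ c : ℤ → V, (∀ i, G.Adj (c i) (c (i + 1))) ∧ (∀ i j, c i = c j ↔ (l.length : ℤ) ∣ i - j) ∧
      (∀ i, c i ∈ l) ∧ (∀ v ∈ l, ∃ r : ℤ, 0 ≤ r ∧ r < l.length ∧ v = c r) ∧ c 0 ∈ l.head? := by
  have hm : (0 : ℤ) < l.length := by exact_mod_cast h0
  have b0 : ∀ i : ℤ, 0 ≤ i % (l.length : ℤ) := fun i => Int.emod_nonneg i hm.ne'
  have b1 : ∀ i : ℤ, i % (l.length : ℤ) < l.length := fun i => Int.emod_lt_of_pos i hm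
  have b2 : ∀ i : ℤ, (i % (l.length : ℤ)).toNat < l.length := fun i => by
    have := b0 i; have := b1 i; omega
  have hh : l[0] ∈ l.head? := by
    rw [List.head?_eq_getElem?, List.getElem?_eq_getElem h0]; rfl
  refine ⟨fun i => l[(i % (l.length : ℤ)).toNat]'(b2 i), fun i => ?_, fun i j => ?_,
    fun i => List.getElem_mem _, fun v hv => ?_, ?_⟩
  · have e := Int.emod_add_mul_ediv i l.length
    have c0 := b0 i
    have c1 := b1 i
    by_cases h : i % (l.length : ℤ) + 1 < l.length
    · have e1 : (i + 1) % (l.length : ℤ) = i % (l.length : ℤ) + 1 := by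
        rw [show i + 1 = i % (l.length : ℤ) + 1 + l.length * (i / l.length) by omega,
          Int.add_mul_emod_self_left, Int.emod_eq_of_lt (by omega) h]
      have e2 : ((i + 1) % (l.length : ℤ)).toNat = (i % (l.length : ℤ)).toNat + 1 := by omega
      simp only [e2]
      exact List.isChain_iff_getElem.1 hl.2.1 _ (by omega)
    · have e1 : (i + 1) % (l.length : ℤ) = 0 := by
        rw [show i + 1 = l.length * (i / l.length + 1) by rw [mul_add]; omega,
          Int.mul_emod_right]
      have e2 : ((i + 1) % (l.length : ℤ)).toNat = 0 := by omega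
      have e3 : (i % (l.length : ℤ)).toNat = l.length - 1 := by omega
      simp only [e2, e3]
      refine hl.2.2 _ ?_ _ hh
      rw [List.getLast?_eq_getElem?, List.getElem?_eq_getElem (by omega)]; rfl
  · rw [hl.1.getElem_inj_iff, Int.dvd_iff_emod_eq_zero, ← Int.emod_eq_emod_iff_emod_sub_eq_zero]
    have := b0 i; have := b0 j
    omega
  · obtain ⟨r, hr, rfl⟩ := List.getElem_of_mem hv
    refine ⟨r, by omega, by omega, ?_⟩
    have e : ((r : ℤ) % (l.length : ℤ)).toNat = r := by
      rw [Int.emod_eq_of_lt (by omega) (by omega)]; rfl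
    simp only [e]
  · simpa using hh

/-- the data of the problem -/
structure Dat (G : SimpleGraph V) (W : Finset V) (n : ℕ) (m : ℤ) (c : ℤ → V) (f : V → Bool) :
    Prop where
  hn : 1 ≤ n
  hm : (n : ℤ) < m
  adj : ∀ i, G.Adj (c i) (c (i + 1))
  inj : ∀ i j, c i = c j ↔ m ∣ i - j
  mem : ∀ i, c i ∈ W
  hf : ∀ g : ℕ → V, (∀ i ≤ n, g i ∈ W) → (∀ i < n, G.Adj (g i) (g (i + 1))) →
      (∀ i ≤ n, ∀ j ≤ n, g i = g j → i = j) → f (g 0) = f (g n)

/-- a path that runs into the cycle and then follows it -/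
structure Ray (G : SimpleGraph V) (W : Finset V) (c : ℤ → V) (z : ℕ → V) (k : ℕ) (a : ℤ) :
    Prop where
  mem : ∀ j, z j ∈ W
  adj : ∀ j, G.Adj (z j) (z (j + 1))
  cyc : ∀ j, k ≤ j → z j = c (a + j)
  inj : ∀ i < k, ∀ j, z i = z j → i = j

omit [Fintype V] [DecidableEq V] [DecidableRel G.Adj]

variable {W : Finset V} {n : ℕ} {m : ℤ} {c : ℤ → V} {f : V → Bool}

theorem Ray.tail {z : ℕ → V} {k : ℕ} {a : ℤ} (h : Ray G W c z k a) (t : ℕ) :
    Ray G W c (fun j => z (j + t)) (k - t) (a + t) := by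
  refine ⟨fun j => h.mem _, fun j => ?_, fun j hj => ?_, fun i hi j e => ?_⟩
  · rw [show j + 1 + t = j + t + 1 by omega]; exact h.adj _
  · rw [h.cyc _ (by omega)]; push_cast; congr 1; ring
  · have := h.inj _ (by omega) _ e; omega

theorem Ray.cons {z : ℕ → V} {k : ℕ} {a : ℤ} (h : Ray G W c z k a) {y : V} (hy : y ∈ W)
    (ha : G.Adj y (z 0)) (hne : ∀ j, y ≠ z j) :
    Ray G W c (fun j => Nat.casesOn j y z) (k + 1) (a - 1) := by
  refine ⟨fun j => ?_, fun j => ?_, fun j hj => ?_, fun i hi j e => ?_⟩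
  · cases j
    · exact hy
    · exact h.mem _
  · cases j
    · exact ha
    · exact h.adj _
  · obtain ⟨j, rfl⟩ : ∃ j', j = j' + 1 := ⟨j - 1, by omega⟩
    show z j = _
    rw [h.cyc _ (by omega)]; push_cast; congr 1; ring
  · cases i <;> cases j
    · rfl
    · exact (hne _ e).elim
    · exact (hne _ e.symm).elim
    · exact congrArg _ (h.inj _ (by omega) _ e)

namespace Dat

variable (D : Dat G W n m c f)
include D

theorem ray_step {z : ℕ → V} {k : ℕ} {a : ℤ} (h : Ray G W c z k a) (t : ℕ) :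
    f (z t) = f (z (t + n)) := by
  have := D.hf (fun j => z (t + j)) (fun _ _ => h.mem _) (fun _ _ => h.adj _) fun i hi j hj e => ?_
  · exact this
  · by_cases h1 : t + i < k
    · have := h.inj _ h1 _ e; omega
    by_cases h2 : t + j < k
    · have := h.inj _ h2 _ e.symm; omega
    simp only [h.cyc _ (not_lt.1 h1), h.cyc _ (not_lt.1 h2), D.inj] at e
    have h3 := D.hm
    have := eq_zero e (by push_cast; omega) (by push_cast; omega)
    push_cast at this; omega

theorem ray_zero (a : ℤ) : Ray G W c (fun j => c (a + j)) 0 a :=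
  ⟨fun _ => D.mem _, fun j => by push_cast; rw [← add_assoc]; exact D.adj _, fun _ _ => rfl,
    fun _ hi => (Nat.not_lt_zero _ hi).elim⟩

theorem per_n (x : ℤ) : f (c (x + n)) = f (c x) := by
  simpa using (D.ray_step (D.ray_zero x) 0).symm

theorem per_m (x : ℤ) : c (x + m) = c x := (D.inj _ _).2 (by simp)

theorem ray_pair {z : ℕ → V} {k : ℕ} {a : ℤ} (h : Ray G W c z k a) :
    ∃ x, f (z 0) = f (c x) ∧ f (z 1) = f (c (x + 1)) := by
  have key : ∀ N t, f (z t) = f (z (t + N * n)) := by
    intro N t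
    induction N with
    | zero => simp
    | succ N ih => rw [ih, D.ray_step h, add_mul, one_mul, add_assoc]
  have h1 : k ≤ k * n := Nat.le_mul_of_pos_right _ D.hn
  refine ⟨a + (k * n : ℕ), ?_, ?_⟩
  · rw [key k, h.cyc _ (by omega), zero_add]
  · rw [key k, h.cyc _ (by omega)]; push_cast; congr 2; ring

theorem adj' (x s : ℤ) (hs : s = 1 ∨ s = -1) : G.Adj (c x) (c (x + s)) := by
  rcases hs with rfl | rfl
  · exact D.adj x
  · have := (D.adj (x + -1)).symm
    rwa [show x + -1 + 1 = x by ring] at this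

/-- a path through a chord -/
theorem chord {a b s t i : ℤ} (hs : s = 1 ∨ s = -1) (ht : t = 1 ∨ t = -1) (h0 : 0 ≤ i)
    (hi : i < n) (hab : G.Adj (c a) (c b))
    (hd : ∀ u v : ℤ, 0 ≤ u → u ≤ i → 0 ≤ v → v ≤ n - i - 1 → ¬ m ∣ a + s * u - (b + t * v)) :
    f (c (a + s * i)) = f (c (b + t * (n - i - 1))) := by
  have hm := D.hm
  have := D.hf (fun k => c (if (k : ℤ) ≤ i then a + s * (i - k) else b + t * (k - i - 1)))
    (fun _ _ => D.mem _) (fun k hk => ?_) fun k hk k' hk' e => ?_
  · simpa [h0, not_le.2 hi] using this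
  · push_cast
    split_ifs with h1 h2 h2
    · rw [show a + s * (i - (k + 1)) = a + s * (i - k) + -s by ring]
      exact D.adj' _ _ (by omega)
    · rw [show (k : ℤ) = i by omega]
      simpa using hab
    · omega
    · rw [show b + t * (k + 1 - i - 1) = b + t * (k - i - 1) + t by ring]
      exact D.adj' _ _ ht
  · rw [D.inj] at e
    split_ifs at e with h1 h2 h2
    · rcases hs with rfl | rfl <;> have := eq_zero e (by omega) (by omega) <;> omega
    · exact (hd _ _ (by omega) (by omega) (by omega) (by omega) e).elim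
    · rw [← Int.dvd_neg, neg_sub] at e
      exact (hd _ _ (by omega) (by omega) (by omega) (by omega) e).elim
    · rcases ht with rfl | rfl <;> have := eq_zero e (by omega) (by omega) <;> omega

theorem T1 {a r : ℤ} (hab : G.Adj (c a) (c (a + r))) (h1 : 1 ≤ r) (h2 : r + n - 1 < m) (x : ℤ) :
    f (c (x + (r - 1))) = f (c x) := by
  have hn := D.hn
  refine window (fun x => f (c (x + (r - 1))) = f (c x)) (d := n) (by omega) (fun x => ?_)
    (a - n + 1) (fun x h3 h4 => ?_) x
  · rw [add_right_comm, D.per_n, D.per_n]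
  · have := D.chord (i := a - x) (Or.inr rfl) (Or.inl rfl) (by omega) (by omega) hab
      fun u v _ _ _ _ e => by have := eq_zero e (by omega) (by omega); omega
    rw [show a + -1 * (a - x) = x by ring,
      show a + r + 1 * (n - (a - x) - 1) = x + (r - 1) + n by ring, D.per_n] at this
    exact this.symm

theorem T3 {a r i : ℤ} (hab : G.Adj (c a) (c (a + r))) (h0 : 0 ≤ i) (h1 : r + n - m ≤ i)
    (h2 : i < r) (h3 : i < n) : f (c (a + i)) = f (c (a + r - 1 - i)) := by
  have := D.chord (i := i) (Or.inl rfl) (Or.inl rfl) h0 h3 hab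
    fun u v _ _ _ _ e => by have := eq_zero e (by omega) (by omega); omega
  rwa [one_mul, show a + r + 1 * (n - i - 1) = a + r - 1 - i + n by ring, D.per_n] at this

theorem T4 {a r i : ℤ} (hab : G.Adj (c a) (c (a + r))) (h0 : 0 ≤ i) (h1 : n - r ≤ i)
    (h2 : i < m - r) (h3 : i < n) : f (c (a - i)) = f (c (a + r + 1 + i)) := by
  have := D.chord (i := i) (Or.inr rfl) (Or.inr rfl) h0 h3 hab
    fun u v _ _ _ _ e => by have := eq_zero e (by omega) (by omega); omega
  rwa [← D.per_n (_ + -1 * (n - i - 1)), show a + -1 * i = a - i by ring,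
    show a + r + -1 * (n - i - 1) + n = a + r + 1 + i by ring] at this

theorem per_two {r : ℤ} (hab : G.Adj (c 0) (c r)) (h1 : 2 ≤ r) (h2 : r ≤ m - 2) (x : ℤ) :
    f (c (x + 2)) = f (c x) := by
  classical
  have hn := D.hn
  have hm := D.hm
  have ex : ∃ d : ℕ, 0 < d ∧ ∀ x, f (c (x + d)) = f (c x) := ⟨n, hn, D.per_n⟩
  obtain ⟨hd0, hd⟩ := Nat.find_spec ex
  have hmin : ∀ p : ℤ, 0 < p → (∀ x, f (c (x + p)) = f (c x)) → (Nat.find ex : ℤ) ≤ p := by
    intro p hp h
    have := Nat.find_min' ex (m := p.toNat) ⟨by omega, by rwa [Int.toNat_of_nonneg hp.le]⟩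
    omega
  generalize Nat.find ex = d at hd0 hd hmin
  have d1 := hmin n (by omega) D.per_n
  have d2 := hmin (m - n) (by omega) fun x => by
    rw [← D.per_n, show x + (m - n) + n = x + m by ring, D.per_m]
  have hab' : G.Adj (c 0) (c (0 + r)) := by rwa [zero_add]
  have d3 : (d : ℤ) ≤ r := by
    by_contra h
    have := hmin (r - 1) (by omega) (D.T1 hab' (by omega) (by omega))
    omega
  have d4 : (d : ℤ) ≤ m - r := by
    by_contra h
    have h3 : G.Adj (c r) (c (r + (m - r))) := by
      rw [show r + (m - r) = 0 + m by ring, D.per_m]; exact hab.symm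
    have := hmin (m - r - 1) (by omega) (D.T1 h3 (by omega) (by omega))
    omega
  have hP : ∀ k x : ℤ, f (c (x + d)) = f (c (k - (x + d))) ↔ f (c x) = f (c (k - x)) := by
    intro k x
    rw [hd, ← hd (k - (x + d)), show k - (x + d) + d = k - x by ring]
  have e1 := window (fun x => f (c x) = f (c (r - 1 - x))) (d := d) (by omega) (hP _)
    (max 0 (r + n - m)) (fun x h3 h4 => by
      simpa using D.T3 (i := x) hab' (by omega) (by omega) (by omega) (by omega))
  have e2 := window (fun x => f (c x) = f (c (r + 1 - x))) (d := d) (by omega) (hP _)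
    (1 - d - max 0 (n - r)) (fun x h3 h4 => by
      have := D.T4 (i := -x) hab' (by omega) (by omega) (by omega) (by omega)
      simpa [sub_eq_add_neg] using this)
  have e3 := (e2 (r - 1 - x)).symm.trans (e1 (r - 1 - x))
  rwa [show r + 1 - (r - 1 - x) = x + 2 by ring, show r - 1 - (r - 1 - x) = x by ring] at e3

omit D in
theorem parity (h2 : ∀ x, f (c (x + 2)) = f (c x)) (x : ℤ) : f (c x) = f (c (x % 2)) := by
  refine window (fun x => f (c x) = f (c (x % 2))) (d := 2) (by omega) (fun x => ?_) 0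
    (fun x h3 h4 => ?_) x
  · rw [h2, Int.add_emod_right]
  · rw [Int.emod_eq_of_lt h3 (by omega)]

omit D in
theorem parity_iff (h2 : ∀ x, f (c (x + 2)) = f (c x)) {x y : ℤ} (h : x % 2 ≠ y % 2) :
    f (c x) = f (c y) ↔ f (c 0) = f (c 1) := by
  rw [parity h2 x, parity h2 y]
  rcases Int.emod_two_eq_zero_or_one x with h3 | h3 <;>
    rcases Int.emod_two_eq_zero_or_one y with h4 | h4
  · omega
  · rw [h3, h4]
  · rw [h3, h4, eq_comm]
  · omega

theorem chord_iff (h2 : ∀ x, f (c (x + 2)) = f (c x)) {a b : ℤ} (hab : G.Adj (c a) (c b)) :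
    f (c a) = f (c b) ↔ f (c 0) = f (c 1) := by
  by_cases hp : a % 2 = b % 2
  · refine iff_of_true (by rw [parity h2 a, parity h2 b, hp]) ?_
    by_contra he
    have hn := D.hn
    have hm := D.hm
    have hm0 : 0 < m := by omega
    have e := Int.emod_add_mul_ediv (b - a) m
    have r0 := Int.emod_nonneg (b - a) hm0.ne'
    have r1 := Int.emod_lt_of_pos (b - a) hm0
    have hb : c b = c (a + (b - a) % m) := (D.inj _ _).2 ⟨(b - a) / m, by omega⟩
    have hb' : b % 2 = (a + (b - a) % m) % 2 := by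
      by_contra h
      exact he ((parity_iff h2 h).1 (by rw [hb]))
    generalize (b - a) % m = r at *
    rw [hb] at hab
    have r2 : r ≠ 0 := by
      rintro rfl
      exact hab.ne (by rw [add_zero])
    have := D.T3 (i := max 0 (r + n - m)) hab (by omega) (by omega) (by omega) (by omega)
    exact he ((parity_iff h2 (by omega)).1 this)
  · exact parity_iff h2 hp

theorem edge_iff (h2 : ∀ x, f (c (x + 2)) = f (c x))
    (hconn : ∀ S ⊆ W, S.Nonempty → (∀ a ∈ S, ∀ b ∈ W, G.Adj a b → b ∈ S) → S = W)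
    {y y1 : V} (hy : y ∈ W) (hy1 : y1 ∈ W) (h : G.Adj y y1) :
    f y = f y1 ↔ f (c 0) = f (c 1) := by
  classical
  have pair : ∀ {z k a}, Ray G W c z k a → (f (z 0) = f (z 1) ↔ f (c 0) = f (c 1)) := by
    intro z k a hz
    obtain ⟨x, e1, e2⟩ := D.ray_pair hz
    rw [e1, e2]
    exact parity_iff h2 (by omega)
  have all := hconn (W.filter fun y => ∃ z k a, Ray G W c z k a ∧ z 0 = y) (filter_subset _ _)
    ⟨c 0, mem_filter.2 ⟨D.mem _, _, _, _, D.ray_zero 0, by simp⟩⟩ fun a ha b hb hab => by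
      obtain ⟨-, z, k, a', hz, rfl⟩ := mem_filter.1 ha
      refine mem_filter.2 ⟨hb, ?_⟩
      by_cases h3 : ∀ j, b ≠ z j
      · exact ⟨_, _, _, hz.cons hb hab.symm h3, rfl⟩
      · push Not at h3
        obtain ⟨j, rfl⟩ := h3
        exact ⟨_, _, _, hz.tail j, by simp⟩
  rw [← all] at hy1
  obtain ⟨hy1, z, k, a, hz, rfl⟩ := mem_filter.1 hy1
  by_cases h3 : ∀ j, y ≠ z j
  · exact pair (hz.cons hy h h3)
  · push Not at h3
    obtain ⟨j, rfl⟩ := h3
    rcases Nat.eq_zero_or_pos k with rfl | hk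
    · rw [hz.cyc j (Nat.zero_le _), hz.cyc 0 le_rfl] at h ⊢
      exact D.chord_iff h2 h
    · have hj : j ≠ 0 := by
        rintro rfl
        exact h.ne rfl
      have := pair ((hz.tail j).cons hy1 (by simpa using h.symm) fun i e => by
        have := hz.inj 0 hk _ e; omega)
      rw [eq_comm, ← this]
      simp

end Dat

end Colour

/-- If all paths with `n` edges inside a connected expanding set `W` that contains a long cycle
have ends of the same colour, then the colouring is constant on `W`. -/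
theorem colour_const (W : Finset V) (n : ℕ) (hn : 1 ≤ n)
    (hexp : ∀ I ⊆ W, Ind G I → I.Nonempty → 2 * I.card + 1 ≤ (W ∩ nb G I).card)
    (hconn : ∀ S ⊆ W, S.Nonempty → (∀ a ∈ S, ∀ b ∈ W, G.Adj a b → b ∈ S) → S = W)
    (l : List V) (hl : Cyc G l) (hlW : ∀ v ∈ l, v ∈ W) (hnl : n < l.length)
    (hch : n ≤ 2 ∨ ∀ s ∈ l.head?, 4 ≤ (l.toFinset ∩ nb G {s}).card)
    (f : V → Bool)
    (hf : ∀ g : ℕ → V, (∀ i ≤ n, g i ∈ W) → (∀ i < n, G.Adj (g i) (g (i + 1))) →
      (∀ i ≤ n, ∀ j ≤ n, g i = g j → i = j) → f (g 0) = f (g n)) :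
    ∀ a ∈ W, ∀ b ∈ W, f a = f b := by
  obtain ⟨c, c1, c2, c3, c4, c5⟩ := Colour.exists_cyc hl (by omega)
  have D : Colour.Dat G W n l.length c f :=
    ⟨hn, by exact_mod_cast hnl, c1, c2, fun i => hlW _ (c3 i), hf⟩
  have h2 : ∀ x, f (c (x + 2)) = f (c x) := by
    rcases hch with h | h
    · intro x
      have h1 := D.per_n
      obtain rfl | rfl : n = 1 ∨ n = 2 := by omega
      · rw [show x + 2 = x + (1 : ℕ) + (1 : ℕ) by push_cast; ring, h1, h1]
      · exact h1 x
    · obtain ⟨v, hv, hv'⟩ := exists_mem_notMem_of_card_lt_card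
        (s := {c 0, c 1, c (l.length - 1)}) (card_le_three.trans_lt (h _ c5))
      rw [mem_inter, List.mem_toFinset, mem_nb_one] at hv
      obtain ⟨r, r0, r1, rfl⟩ := c4 v hv.1
      simp only [mem_insert, mem_singleton, not_or] at hv'
      have r2 : r ≠ 0 := fun e => hv'.1 (by rw [e])
      have r3 : r ≠ 1 := fun e => hv'.2.1 (by rw [e])
      have r4 : r ≠ l.length - 1 := fun e => hv'.2.2 (by rw [e])
      exact D.per_two (hv.2.resolve_left hv'.1) (by omega) (by omega)
  have hE := fun y y1 => D.edge_iff (y := y) (y1 := y1) h2 hconn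
  by_cases he : f (c 0) = f (c 1)
  · have all := hconn (W.filter fun y => f y = f (c 0)) (filter_subset _ _)
      ⟨c 0, mem_filter.2 ⟨D.mem _, rfl⟩⟩ fun a ha b hb hab => by
        obtain ⟨h3, h4⟩ := mem_filter.1 ha
        exact mem_filter.2 ⟨hb, ((hE a b h3 hb hab).2 he).symm.trans h4⟩
    intro a ha b hb
    rw [← all] at ha hb
    exact (mem_filter.1 ha).2.trans (mem_filter.1 hb).2.symm
  · exfalso
    have key : ∀ t : Bool, 2 * (W.filter fun y => f y = t).card + 1 ≤ W.card ∨
        (W.filter fun y => f y = t).card = 0 := fun t => by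
      rcases (W.filter fun y => f y = t).eq_empty_or_nonempty with h | h
      · exact Or.inr (by rw [h, card_empty])
      · refine Or.inl ((hexp _ (filter_subset _ _) (fun a ha b hb hab => ?_) h).trans
          (card_le_card inter_subset_left))
        obtain ⟨h3, h4⟩ := mem_filter.1 ha
        obtain ⟨h5, h6⟩ := mem_filter.1 hb
        exact he ((hE a b h3 h5 hab).1 (h4.trans h6.symm))
    have h3 := card_filter_add_card_filter_not (s := W) fun y => f y = true
    simp only [Bool.not_eq_true] at h3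
    have h4 := card_pos.2 ⟨_, D.mem 0⟩
    have h5 := key true
    have h6 := key false
    omega

end Vale.Agent.P048
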