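import Vale.Agent.P048.LongCyc
import Vale.Agent.P048.Colour

namespace Vale.Agent.P048

open Finset

variable {V : Type} [Fintype V] [DecidableEq V] {G : SimpleGraph V} [DecidableRel G.Adj]

namespace Clique

theorem subset_nb (I : Finset V) : I ⊆ nb G I := fun _ hx => mem_nb.2 (Or.inl hx)

theorem nb_mono {I J : Finset V} (h : I ⊆ J) : nb G I ⊆ nb G J := by
  intro x hx
  rcases mem_nb.1 hx with hx | ⟨i, hi, hix⟩
  · exact mem_nb.2 (Or.inl (h hx))
  · exact mem_nb.2 (Or.inr ⟨i, h hi, hix⟩)

omit [Fintype V] [DecidableRel G.Adj] in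
theorem ind_union {I J : Finset V} (hI : Ind G I) (hJ : Ind G J)
    (h : ∀ a ∈ I, ∀ b ∈ J, ¬ G.Adj a b) : Ind G (I ∪ J) := by
  intro a ha b hb hab
  rcases mem_union.1 ha with ha | ha <;> rcases mem_union.1 hb with hb | hb
  · exact hI a ha b hb hab
  · exact h a ha b hb hab
  · exact h b hb a ha hab.symm
  · exact hJ a ha b hb hab

omit [Fintype V] [DecidableEq V] [DecidableRel G.Adj] in
theorem ind_single (x : V) : Ind G {x} := by
  intro a ha b hb hab
  rw [mem_singleton] at ha hb
  subst ha; subst hb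
  exact hab.ne rfl

omit [Fintype V] [DecidableRel G.Adj] in
theorem ind_pair {x y : V} (h : ¬ G.Adj x y) : Ind G {x, y} := by
  intro a ha b hb hab
  simp only [mem_insert, mem_singleton] at ha hb
  rcases ha with rfl | rfl <;> rcases hb with rfl | rfl
  · exact hab.ne rfl
  · exact h hab
  · exact h hab.symm
  · exact hab.ne rfl

omit [Fintype V] [DecidableEq V] [DecidableRel G.Adj] in
/-- a cycle given by a function on an initial segment -/
theorem cyc_of_fun (c : ℕ → V) (N : ℕ) (hinj : ∀ a ≤ N, ∀ b ≤ N, c a = c b → a = b)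
    (hadj : ∀ t < N, G.Adj (c t) (c (t + 1))) (hlast : G.Adj (c N) (c 0)) :
    Cyc G ((List.range (N + 1)).map c) := by
  refine ⟨?_, ?_, ?_⟩
  · refine List.Nodup.map_on ?_ List.nodup_range
    intro a ha b hb hab
    rw [List.mem_range] at ha hb
    exact hinj a (by omega) b (by omega) hab
  · rw [List.isChain_map, List.isChain_range_succ]
    exact hadj
  · intro a ha b hb
    rw [List.range_succ, List.map_append] at ha
    rw [List.range_succ_eq_map] at hb
    simp at ha hb
    rw [← ha, ← hb]
    exact hlast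

omit [Fintype V] [DecidableEq V] [DecidableRel G.Adj] in
/-- a vertex joined to all vertices of a long cycle -/
theorem apex {k : ℕ} (hk : 1 ≤ k) (hc : ∀ l : List V, Cyc G l → l.length ≠ k + 1) (u : V)
    (l : List V) (hl : Cyc G l) (hlen : k ≤ l.length) (hu : ∀ x ∈ l, G.Adj u x) : False := by
  refine hc (u :: l.take k) ⟨?_, ?_, ?_⟩ ?_
  · rw [List.nodup_cons]
    refine ⟨fun h => (hu u (List.mem_of_mem_take h)).ne rfl, ?_⟩
    exact hl.1.sublist (List.take_sublist _ _)
  · rw [List.isChain_cons]
    refine ⟨fun y hy => hu y (List.mem_of_mem_take (List.mem_of_mem_head? hy)), ?_⟩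
    exact hl.2.1.take k
  · intro a ha b hb
    have hb' : u = b := by simpa using hb
    subst hb'
    have hne : l.take k ≠ [] := by
      intro h
      have := congrArg List.length h
      rw [List.length_take] at this
      simp only [List.length_nil] at this
      omega
    rw [List.getLast?_cons_of_ne_nil hne] at ha
    exact (hu a (List.mem_of_mem_take (List.mem_of_mem_getLast? ha))).symm
  · rw [List.length_cons, List.length_take]
    omega

omit [Fintype V] in
theorem sdiff_ss {A B : Finset V} (h : (A ∩ B).Nonempty) : A \ B ⊂ A := by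
  obtain ⟨x, hx⟩ := h
  obtain ⟨h1, h2⟩ := mem_inter.1 hx
  exact Finset.ssubset_iff_subset_ne.2 ⟨sdiff_subset, fun he => by
    rw [← he] at h1
    exact (mem_sdiff.1 h1).2 h2⟩

/-- greedy choice of an independent set, first form -/
theorem greedyA (s : ℕ) (U : Finset V)
    (H : ∀ W ⊆ U, W.Nonempty →
      (∀ I ⊆ W, Ind G I → I.Nonempty → s * I.card + 1 ≤ (W ∩ nb G I).card) →
      (∀ S ⊆ W, S.Nonempty → (∀ a ∈ S, ∀ b ∈ W, G.Adj a b → b ∈ S) → S = W) → False) :
    ∀ W ⊆ U, ∃ I ⊆ W, Ind G I ∧ W.card ≤ s * I.card := by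
  intro W
  induction W using Finset.strongInduction with
  | H W ih =>
    intro hWU
    by_contra hcon
    have hfail : ∀ I ⊆ W, Ind G I → s * I.card < W.card := by
      intro I hI hind
      by_contra hlt
      exact hcon ⟨I, hI, hind, by omega⟩
    have hne : W.Nonempty := by
      have := hfail ∅ (empty_subset _) (fun a ha => absurd ha (notMem_empty a))
      exact card_pos.1 (by omega)
    refine H W hWU hne ?_ ?_
    · intro I hI hind hIne
      have hss : W \ nb G I ⊂ W := by
        refine sdiff_ss ?_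
        obtain ⟨x, hx⟩ := hIne
        exact ⟨x, mem_inter.2 ⟨hI hx, subset_nb I hx⟩⟩
      obtain ⟨J, hJ, hJind, hJc⟩ := ih _ hss (hss.subset.trans hWU)
      have hdisj : Disjoint I J := by
        rw [disjoint_left]
        intro x hx hxJ
        exact (mem_sdiff.1 (hJ hxJ)).2 (subset_nb I hx)
      have hU := hfail (I ∪ J) (union_subset hI (hJ.trans sdiff_subset))
        (ind_union hind hJind fun a ha b hb hab =>
          (mem_sdiff.1 (hJ hb)).2 (mem_nb.2 (Or.inr ⟨a, ha, hab⟩)))
      rw [card_union_of_disjoint hdisj, mul_add] at hU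
      have := card_sdiff_add_card_inter W (nb G I)
      omega
    · intro S hS hSne hcl
      by_contra hSW
      have h1 : S ⊂ W := Finset.ssubset_iff_subset_ne.2 ⟨hS, hSW⟩
      have h2 : W \ S ⊂ W := by
        refine sdiff_ss ?_
        obtain ⟨x, hx⟩ := hSne
        exact ⟨x, mem_inter.2 ⟨hS hx, hx⟩⟩
      obtain ⟨I, hI, hIind, hIc⟩ := ih _ h1 (h1.subset.trans hWU)
      obtain ⟨J, hJ, hJind, hJc⟩ := ih _ h2 (h2.subset.trans hWU)
      have hdisj : Disjoint I J := by
        rw [disjoint_left]
        intro x hx hxJ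
        exact (mem_sdiff.1 (hJ hxJ)).2 (hI hx)
      have hU := hfail (I ∪ J) (union_subset (hI.trans hS) (hJ.trans sdiff_subset))
        (ind_union hIind hJind fun a ha b hb hab =>
          (mem_sdiff.1 (hJ hb)).2 (hcl a (hI ha) b (mem_sdiff.1 (hJ hb)).1 hab))
      rw [card_union_of_disjoint hdisj, mul_add] at hU
      have := card_sdiff_add_card_eq_card hS
      omega

/-- greedy choice of an independent set, second form -/
theorem greedyB (s : ℕ) (U : Finset V)
    (H : ∀ W ⊆ U, W.Nonempty →
      (∀ I ⊆ W, Ind G I → I.Nonempty → s * I.card ≤ (W ∩ nb G I).card) → False) :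
    ∀ W ⊆ U, W.Nonempty → ∃ I ⊆ W, Ind G I ∧ W.card + 1 ≤ s * I.card := by
  intro W
  induction W using Finset.strongInduction with
  | H W ih =>
    intro hWU hne
    by_contra hcon
    have hfail : ∀ I ⊆ W, Ind G I → s * I.card ≤ W.card := by
      intro I hI hind
      by_contra hlt
      exact hcon ⟨I, hI, hind, by omega⟩
    refine H W hWU hne ?_
    intro I hI hind hIne
    have hcard := card_sdiff_add_card_inter W (nb G I)
    rcases (W \ nb G I).eq_empty_or_nonempty with he | hne'
    · have := hfail I hI hind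
      rw [he, card_empty] at hcard
      omega
    · have hss : W \ nb G I ⊂ W := by
        refine sdiff_ss ?_
        obtain ⟨x, hx⟩ := hIne
        exact ⟨x, mem_inter.2 ⟨hI hx, subset_nb I hx⟩⟩
      obtain ⟨J, hJ, hJind, hJc⟩ := ih _ hss (hss.subset.trans hWU) hne'
      have hdisj : Disjoint I J := by
        rw [disjoint_left]
        intro x hx hxJ
        exact (mem_sdiff.1 (hJ hxJ)).2 (subset_nb I hx)
      have hU := hfail (I ∪ J) (union_subset hI (hJ.trans sdiff_subset))
        (ind_union hind hJind fun a ha b hb hab =>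
          (mem_sdiff.1 (hJ hb)).2 (mem_nb.2 (Or.inr ⟨a, ha, hab⟩)))
      rw [card_union_of_disjoint hdisj, mul_add] at hU
      omega

/-- balls around `v` -/
def ball (G : SimpleGraph V) [DecidableRel G.Adj] (v : V) : ℕ → Finset V
  | 0 => {v}
  | i + 1 => nb G (ball G v i)

/-- layers around `v` -/
def lay (G : SimpleGraph V) [DecidableRel G.Adj] (v : V) : ℕ → Finset V
  | 0 => {v}
  | i + 1 => ball G v (i + 1) \ ball G v i

theorem ball_succ (v : V) (i : ℕ) : ball G v i ⊆ ball G v (i + 1) := subset_nb _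

theorem ball_mono (v : V) {i j : ℕ} (h : i ≤ j) : ball G v i ⊆ ball G v j := by
  induction h with
  | refl => exact Subset.refl _
  | step _ ih => exact ih.trans (ball_succ v _)

theorem lay_subset (v : V) (i : ℕ) : lay G v i ⊆ ball G v i := by
  cases i with
  | zero => exact Subset.refl _
  | succ i => exact sdiff_subset

theorem lay_lt (v : V) {i j : ℕ} {x : V} (hi : x ∈ lay G v i) (hj : x ∈ lay G v j) :
    ¬ i < j := by
  intro hlt
  obtain ⟨j, rfl⟩ : ∃ j', j = j' + 1 := ⟨j - 1, by omega⟩
  exact (mem_sdiff.1 hj).2 (ball_mono v (by omega) (lay_subset v i hi))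

theorem lay_unique (v : V) {i j : ℕ} {x : V} (hi : x ∈ lay G v i) (hj : x ∈ lay G v j) :
    i = j := by
  have h1 := lay_lt v hi hj
  have h2 := lay_lt v hj hi
  omega

theorem exists_par (v : V) (i : ℕ) (x : V) (hx : x ∈ lay G v (i + 1)) :
    ∃ y ∈ lay G v i, G.Adj y x := by
  obtain ⟨h1, h2⟩ := mem_sdiff.1 hx
  rcases mem_nb.1 h1 with h | ⟨y, hy, hyx⟩
  · exact absurd h h2
  · refine ⟨y, ?_, hyx⟩
    cases i with
    | zero => exact hy
    | succ i =>
      exact mem_sdiff.2 ⟨hy, fun hy' => h2 (mem_nb.2 (Or.inr ⟨y, hy', hyx⟩))⟩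

theorem exists_parent (v : V) :
    ∃ p : V → V, ∀ i, ∀ x ∈ lay G v (i + 1), p x ∈ lay G v i ∧ G.Adj (p x) x := by
  have : ∀ x : V, ∃ y : V, ∀ i, x ∈ lay G v (i + 1) → y ∈ lay G v i ∧ G.Adj y x := by
    intro x
    by_cases hx : ∃ i, x ∈ lay G v (i + 1)
    · obtain ⟨i, hi⟩ := hx
      obtain ⟨y, hy, hyx⟩ := exists_par v i x hi
      refine ⟨y, fun j hj => ?_⟩
      have hij : i = j := by have := lay_unique v hi hj; omega
      subst hij
      exact ⟨hy, hyx⟩
    · exact ⟨x, fun i hi => absurd ⟨i, hi⟩ hx⟩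
  choose p hp using this
  exact ⟨p, fun i x hx => hp x i hx⟩

theorem iter_lay {v : V} {p : V → V}
    (hp : ∀ i, ∀ x ∈ lay G v (i + 1), p x ∈ lay G v i ∧ G.Adj (p x) x) {i : ℕ} {x : V}
    (hx : x ∈ lay G v i) (r : ℕ) (hr : r ≤ i) : p^[r] x ∈ lay G v (i - r) := by
  induction r with
  | zero => exact hx
  | succ r ih =>
    have h1 := ih (by omega)
    rw [Function.iterate_succ_apply']
    have he : i - r = (i - (r + 1)) + 1 := by omega
    rw [he] at h1
    exact (hp _ _ h1).1

theorem iter_adj {v : V} {p : V → V}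
    (hp : ∀ i, ∀ x ∈ lay G v (i + 1), p x ∈ lay G v i ∧ G.Adj (p x) x) {i : ℕ} {x : V}
    (hx : x ∈ lay G v i) (r : ℕ) (hr : r + 1 ≤ i) : G.Adj (p^[r + 1] x) (p^[r] x) := by
  have h1 := iter_lay hp hx r (by omega)
  rw [Function.iterate_succ_apply']
  have he : i - r = (i - (r + 1)) + 1 := by omega
  rw [he] at h1
  exact (hp _ _ h1).2

/-- a path inside a layer closes up through the tree of parents -/
theorem close_up {k i j n : ℕ} {v : V} {p : V → V}
    (hc : ∀ l : List V, Cyc G l → l.length ≠ k + 1)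
    (hp : ∀ i, ∀ x ∈ lay G v (i + 1), p x ∈ lay G v i ∧ G.Adj (p x) x)
    (hj1 : 1 ≤ j) (hji : j + 1 ≤ i) (hn : n + 2 * (j + 1) = k + 1) (g : ℕ → V)
    (hg : ∀ t ≤ n, g t ∈ lay G v i) (hadj : ∀ t < n, G.Adj (g t) (g (t + 1)))
    (hinj : ∀ a ≤ n, ∀ b ≤ n, g a = g b → a = b)
    (htop : p^[j + 1] (g n) = p^[j + 1] (g 0)) : p^[j] (g 0) = p^[j] (g n) := by
  by_contra hne
  have hne' : ∀ r ≤ j, p^[r] (g n) ≠ p^[r] (g 0) := by
    intro r hr h
    apply hne
    have he : j = (j - r) + r := by omega
    rw [he, Function.iterate_add_apply, Function.iterate_add_apply, h]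
  have h0 := hg 0 (Nat.zero_le _)
  have hn' := hg n le_rfl
  let c : ℕ → V := fun t =>
    if t ≤ n then g t else if t ≤ n + j + 1 then p^[t - n] (g n) else p^[k + 1 - t] (g 0)
  have c1 : ∀ t ≤ n, c t = g t := fun t ht => if_pos ht
  have c2 : ∀ t, n ≤ t → t ≤ n + j + 1 → c t = p^[t - n] (g n) := by
    intro t h1 h2
    rcases h1.eq_or_lt with h | h
    · subst h
      rw [c1 _ le_rfl, Nat.sub_self]
      rfl
    · exact (if_neg (by omega)).trans (if_pos h2)
  have c3 : ∀ t, n + j + 1 ≤ t → c t = p^[k + 1 - t] (g 0) := by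
    intro t h1
    rcases h1.eq_or_lt with h | h
    · subst h
      rw [c2 _ (by omega) le_rfl]
      have e1 : n + j + 1 - n = j + 1 := by omega
      have e2 : k + 1 - (n + j + 1) = j + 1 := by omega
      rw [e1, e2, htop]
    · exact (if_neg (by omega)).trans (if_neg (by omega))
  have l1 : ∀ t ≤ n, c t ∈ lay G v i := fun t ht => by rw [c1 t ht]; exact hg t ht
  have l2 : ∀ t, n ≤ t → t ≤ n + j + 1 → c t ∈ lay G v (i - (t - n)) := fun t h1 h2 => by
    rw [c2 t h1 h2]; exact iter_lay hp hn' _ (by omega)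
  have l3 : ∀ t, n + j + 1 ≤ t → c t ∈ lay G v (i - (k + 1 - t)) := fun t h1 => by
    rw [c3 t h1]; exact iter_lay hp h0 _ (by omega)
  have key : ∀ a b, a < b → b ≤ k → c a ≠ c b := by
    intro a b hab hb heq
    by_cases hb1 : b ≤ n
    · rw [c1 a (by omega), c1 b hb1] at heq
      have := hinj a (by omega) b hb1 heq
      omega
    · by_cases hb2 : b ≤ n + j + 1
      · have hb' := l2 b (by omega) hb2
        rw [← heq] at hb'
        by_cases ha1 : a ≤ n
        · have := lay_unique v hb' (l1 a ha1)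
          omega
        · have := lay_unique v hb' (l2 a (by omega) (by omega))
          omega
      · have hb' := l3 b (by omega)
        rw [← heq] at hb'
        by_cases ha1 : a ≤ n
        · have := lay_unique v hb' (l1 a ha1)
          omega
        · by_cases ha2 : a ≤ n + j + 1
          · have := lay_unique v hb' (l2 a (by omega) ha2)
            have e : a - n = k + 1 - b := by omega
            rw [c2 a (by omega) ha2, c3 b (by omega), e] at heq
            exact hne' _ (by omega) heq
          · have := lay_unique v hb' (l3 a (by omega))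
            omega
  refine hc _ (cyc_of_fun c k ?_ ?_ ?_) (by simp)
  · intro a ha b hb hab
    rcases lt_trichotomy a b with h | h | h
    · exact absurd hab (key a b h hb)
    · exact h
    · exact absurd hab.symm (key b a h ha)
  · intro t ht
    by_cases h1 : t < n
    · rw [c1 t (by omega), c1 (t + 1) (by omega)]
      exact hadj t h1
    · by_cases h2 : t < n + j + 1
      · rw [c2 t (by omega) (by omega), c2 (t + 1) (by omega) (by omega)]
        have e : t + 1 - n = (t - n) + 1 := by omega
        rw [e]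
        exact (iter_adj hp hn' _ (by omega)).symm
      · rw [c3 t (by omega), c3 (t + 1) (by omega)]
        have e : k + 1 - t = (k + 1 - (t + 1)) + 1 := by omega
        rw [e]
        exact iter_adj hp h0 _ (by omega)
  · rw [c3 k (by omega), c1 0 (Nat.zero_le _)]
    have e : k + 1 - k = 0 + 1 := by omega
    rw [e]
    exact iter_adj hp h0 0 (by omega)

theorem lemmaA {k s : ℕ} (hs : 2 ≤ s) (hk1 : 2 * s ≤ k) (hk2 : k ≤ 2 * s + 1)
    (hc : ∀ l : List V, Cyc G l → l.length ≠ k + 1)
    (hK : ∀ K : Finset V, Clq G K → K.card ≤ s) (v : V) (i : ℕ) (hi1 : 1 ≤ i) (his : i ≤ s) :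
    ∃ I ⊆ lay G v i, Ind G I ∧ (lay G v i).card ≤ s * I.card := by
  obtain ⟨p, hp⟩ := exists_parent (G := G) v
  refine greedyA s (lay G v i) ?_ _ (Subset.refl _)
  intro W hW hne hexp hconn
  have h1 : ∀ x ∈ W, s + 1 ≤ (W ∩ nb G {x}).card := by
    intro x hx
    have := hexp {x} (singleton_subset_iff.2 hx) (ind_single x) (singleton_nonempty x)
    rwa [card_singleton, mul_one] at this
  have h2 : ∀ x ∈ W, ∀ y ∈ W, x ≠ y → ¬ G.Adj x y → 2 * s + 1 ≤ (W ∩ nb G {x, y}).card := by
    intro x hx y hy hxy hadj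
    have := hexp {x, y} (insert_subset hx (singleton_subset_iff.2 hy)) (ind_pair hadj)
      (insert_nonempty _ _)
    rw [card_pair hxy] at this
    omega
  rcases long_cycle W hne (s + 1) (2 * s + 1) (by omega) h1 h2 with
    ⟨K, -, hKc, hKs⟩ | ⟨l, hl, hlW, hlen, hhead⟩
  · have := hK K hKc
    omega
  have hex : ∃ j, ∀ a ∈ W, ∀ b ∈ W, p^[j] a = p^[j] b := by
    refine ⟨i, fun a ha b hb => ?_⟩
    have e1 := iter_lay hp (hW ha) i le_rfl
    have e2 := iter_lay hp (hW hb) i le_rfl
    rw [Nat.sub_self] at e1 e2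
    exact (mem_singleton.1 e1).trans (mem_singleton.1 e2).symm
  classical
  have hji : Nat.find hex ≤ i := by
    refine Nat.find_min' hex fun a ha b hb => ?_
    have e1 := iter_lay hp (hW ha) i le_rfl
    have e2 := iter_lay hp (hW hb) i le_rfl
    rw [Nat.sub_self] at e1 e2
    exact (mem_singleton.1 e1).trans (mem_singleton.1 e2).symm
  have hspec := Nat.find_spec hex
  have hmin : ∀ r < Nat.find hex, ¬ ∀ a ∈ W, ∀ b ∈ W, p^[r] a = p^[r] b :=
    fun r hr => Nat.find_min hex hr
  generalize Nat.find hex = j at hji hspec hmin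
  obtain ⟨w, hw⟩ := hne
  by_cases hj1 : j ≤ 1
  · have hone : ∀ a ∈ W, p a = p w := by
      intro a ha
      have := hspec a ha w hw
      rcases (by omega : j = 0 ∨ j = 1) with rfl | rfl
      · exact congrArg p this
      · exact this
    refine apex (by omega) hc (p w) l hl (by omega) fun x hx => ?_
    rw [← hone x (hlW x hx)]
    exact iter_adj hp (hW (hlW x hx)) 0 (by omega)
  · obtain ⟨j, rfl⟩ : ∃ j', j = j' + 1 := ⟨j - 1, by omega⟩
    apply hmin j (by omega)
    have hcc := colour_const W (k + 1 - 2 * (j + 1)) (by omega)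
      (fun I hI hind hIne => by
        have := hexp I hI hind hIne
        have h3 : 2 * I.card ≤ s * I.card := Nat.mul_le_mul_right _ hs
        omega)
      hconn l hl hlW (by omega)
      (by
        by_cases hn2 : k + 1 - 2 * (j + 1) ≤ 2
        · exact Or.inl hn2
        · refine Or.inr fun x hx => ?_
          have hxl : x ∈ l := List.mem_of_mem_head? hx
          have hsub : W ∩ nb G {x} ⊆ l.toFinset ∩ nb G {x} := by
            intro y hy
            obtain ⟨hy1, hy2⟩ := mem_inter.1 hy
            refine mem_inter.2 ⟨List.mem_toFinset.2 ?_, hy2⟩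
            rcases mem_nb_one.1 hy2 with rfl | hxy
            · exact hxl
            · exact hhead x hx y hy1 hxy
          have := card_le_card hsub
          have := h1 x (hlW x hxl)
          omega)
      (fun a => decide (p^[j] a = p^[j] w))
      (fun g hg hadj hinj => by
        have := close_up (n := k + 1 - 2 * (j + 1)) hc hp (by omega) hji (by omega) g
          (fun t ht => hW (hg t ht)) hadj hinj
          (hspec _ (hg _ le_rfl) _ (hg _ (Nat.zero_le _)))
        simp only [this])
    have hall : ∀ a ∈ W, p^[j] a = p^[j] w := by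
      intro a ha
      have := hcc a ha w hw
      simpa using this
    intro a ha b hb
    rw [hall a ha, hall b hb]

theorem adj_lay_one {v x : V} (hx : x ∈ lay G v 1) : G.Adj v x := by
  obtain ⟨y, hy, hyx⟩ := exists_par v 0 x hx
  rw [mem_singleton.1 hy] at hyx
  exact hyx

theorem lemmaB {s : ℕ} (hs : 2 ≤ s)
    (hc : ∀ l : List V, Cyc G l → l.length ≠ 2 * s + 1)
    (hK : ∀ K : Finset V, Clq G K → K.card ≤ s) (v : V) (hne : (lay G v 1).Nonempty) :
    ∃ I ⊆ lay G v 1, Ind G I ∧ (lay G v 1).card + 1 ≤ s * I.card := by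
  refine greedyB s (lay G v 1) ?_ _ (Subset.refl _) hne
  intro W hW hne hexp
  have h1 : ∀ x ∈ W, s ≤ (W ∩ nb G {x}).card := by
    intro x hx
    have := hexp {x} (singleton_subset_iff.2 hx) (ind_single x) (singleton_nonempty x)
    rwa [card_singleton, mul_one] at this
  have h2 : ∀ x ∈ W, ∀ y ∈ W, x ≠ y → ¬ G.Adj x y → 2 * s ≤ (W ∩ nb G {x, y}).card := by
    intro x hx y hy hxy hadj
    have := hexp {x, y} (insert_subset hx (singleton_subset_iff.2 hy)) (ind_pair hadj)
      (insert_nonempty _ _)
    rw [card_pair hxy] at this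
    omega
  rcases long_cycle W hne s (2 * s) hs h1 h2 with ⟨K, hKW, hKc, hKs⟩ | ⟨l, hl, hlW, hlen, -⟩
  · have hv : v ∉ K := fun h => (adj_lay_one (hW (hKW h))).ne rfl
    have := hK (insert v K) (by
      intro a ha b hb hab
      rcases mem_insert.1 ha with rfl | ha' <;> rcases mem_insert.1 hb with rfl | hb'
      · exact absurd rfl hab
      · exact adj_lay_one (hW (hKW hb'))
      · exact (adj_lay_one (hW (hKW ha'))).symm
      · exact hKc a ha' b hb' hab)
    rw [card_insert_of_notMem hv] at this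
    omega
  · exact apex (by omega) hc v l hl hlen fun x hx => adj_lay_one (hW (hlW x hx))

/-- alternate layers of independent sets -/
def alt (v : V) (I : ℕ → Finset V) : ℕ → Finset V
  | 0 => {v}
  | 1 => I 1
  | i + 2 => alt v I i ∪ I (i + 2)

theorem alt_prop (v : V) (I : ℕ → Finset V) (hI : ∀ i, I i ⊆ lay G v i ∧ Ind G (I i)) :
    ∀ i, alt v I i ⊆ ball G v i ∧ Ind G (alt v I i)
  | 0 => ⟨Subset.refl _, ind_single v⟩
  | 1 => ⟨(hI 1).1.trans (lay_subset v 1), (hI 1).2⟩
  | i + 2 => by
    obtain ⟨h1, h2⟩ := alt_prop v I hI i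
    refine ⟨union_subset (h1.trans (ball_mono v (by omega)))
      ((hI _).1.trans (lay_subset v _)), ind_union h2 (hI _).2 fun a ha b hb hab => ?_⟩
    exact (mem_sdiff.1 ((hI _).1 hb)).2 (mem_nb.2 (Or.inr ⟨a, h1 ha, hab⟩))

theorem alt_card (v : V) (I : ℕ → Finset V) (hI : ∀ i, I i ⊆ lay G v i ∧ Ind G (I i)) (i : ℕ) :
    (alt v I (i + 2)).card = (alt v I i).card + (I (i + 2)).card := by
  refine card_union_of_disjoint ?_
  rw [disjoint_left]
  intro x hx hx'
  exact (mem_sdiff.1 ((hI _).1 hx')).2 (ball_succ v i ((alt_prop v I hI i).1 hx))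

theorem ball_card (v : V) (i : ℕ) :
    (ball G v (i + 1)).card = (ball G v i).card + (lay G v (i + 1)).card := by
  have := card_sdiff_add_card_eq_card (ball_succ (G := G) v i)
  have e : lay G v (i + 1) = ball G v (i + 1) \ ball G v i := rfl
  rw [e]
  omega

theorem growth {k s e : ℕ} (hs : 2 ≤ s) (hk : k + e = 2 * s + 1) (he : e ≤ 1) (h : Bad G k)
    (v : V) (I : ℕ → Finset V) (hI : ∀ i, I i ⊆ lay G v i ∧ Ind G (I i))
    (hI1 : (lay G v 1).card + e ≤ s * (I 1).card)
    (hIi : ∀ i, 1 ≤ i → i ≤ s → (lay G v i).card ≤ s * (I i).card) : False := by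
  have hb : ∀ i, i + 1 ≤ s → (ball G v (i + 1)).card + s + e ≤
      1 + s * (alt v I (i + 1)).card + s * (alt v I i).card := by
    intro i
    induction i with
    | zero =>
      intro _
      have e0 : (ball G v 0).card = 1 := card_singleton v
      have e1 : (alt v I 0).card = 1 := card_singleton v
      have e2 : alt v I (0 + 1) = I 1 := rfl
      rw [ball_card, e0, e1, e2]
      have e3 : lay G v (0 + 1) = lay G v 1 := rfl
      rw [e3]
      omega
    | succ i ih =>
      intro hi
      have h1 := ih (by omega)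
      have h2 := hIi (i + 2) (by omega) hi
      have h3 := ball_card (G := G) v (i + 1)
      have h4 := alt_card v I hI i
      have e1 : i + 1 + 1 = i + 2 := rfl
      rw [e1] at h3 ⊢
      rw [h4, mul_add]
      omega
  have hstep : ∀ i, i + 1 ≤ s → 1 ≤ (alt v I i).card →
      s * (alt v I i).card + (1 - e) * (alt v I i).card + s + e ≤ s * (alt v I (i + 1)).card := by
    intro i hi hpos
    have h1 := hb i hi
    have h2 := h.exp _ (alt_prop v I hI i).2 (card_pos.1 hpos)
    have h3 : (nb G (alt v I i)).card ≤ (ball G v (i + 1)).card :=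
      card_le_card (nb_mono (alt_prop v I hI i).1)
    have h4 : k = s + s + (1 - e) := by omega
    rw [h4, add_mul, add_mul] at h2
    omega
  have hlin : ∀ i, i ≤ s → 2 * i + 1 ≤ (alt v I i).card := by
    intro i
    induction i with
    | zero => intro _; exact (card_singleton v).ge
    | succ i ih =>
      intro hi
      have h1 := ih (by omega)
      have h2 := hstep i hi (by omega)
      have h3 : s * ((alt v I i).card + 1) < s * (alt v I (i + 1)).card := by
        rw [mul_add, mul_one]
        rcases (by omega : e = 0 ∨ e = 1) with rfl | rfl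
        · rw [Nat.sub_zero, one_mul] at h2
          omega
        · omega
      have := Nat.lt_of_mul_lt_mul_left h3
      omega
  have hfin := h.ind _ (alt_prop v I hI s).2
  rcases (by omega : e = 0 ∨ e = 1) with rfl | rfl
  · obtain ⟨t, rfl⟩ : ∃ t, s = t + 1 := ⟨s - 1, by omega⟩
    have h1 := hlin t (by omega)
    have h2 := hstep t le_rfl (by omega)
    rw [Nat.sub_zero, one_mul] at h2
    have h3 : (t + 1) * ((alt v I t).card + 2) < (t + 1) * (alt v I (t + 1)).card := by
      rw [mul_add (t + 1)]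
      omega
    have := Nat.lt_of_mul_lt_mul_left h3
    omega
  · have := hlin s le_rfl
    omega

end Clique

open Clique in
/-- A minimal counterexample has a clique on more than `k / 2` vertices. -/
theorem big_clique {k : ℕ} (hk : 3 ≤ k) (h : Bad G k) (v : V) :
    ∃ K : Finset V, Clq G K ∧ k / 2 + 1 ≤ K.card := by
  have hne : (lay G v 1).Nonempty := by
    have h1 := h.exp {v} (ind_single v) (singleton_nonempty v)
    have h2 := ball_card (G := G) v 0
    have e0 : (ball G v 0).card = 1 := card_singleton v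
    have e1 : ball G v (0 + 1) = nb G {v} := rfl
    have e2 : lay G v (0 + 1) = lay G v 1 := rfl
    rw [e0, e1, e2] at h2
    rw [card_singleton] at h1
    exact card_pos.1 (by omega)
  by_cases hk3 : k = 3
  · obtain ⟨x, hx⟩ := hne
    have hadj := adj_lay_one hx
    refine ⟨{v, x}, ?_, ?_⟩
    · intro a ha b hb hab
      simp only [mem_insert, mem_singleton] at ha hb
      rcases ha with rfl | rfl <;> rcases hb with rfl | rfl
      · exact absurd rfl hab
      · exact hadj
      · exact hadj.symm
      · exact absurd rfl hab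
    · rw [card_pair hadj.ne]
      omega
  by_contra hcon
  have hK : ∀ K : Finset V, Clq G K → K.card ≤ k / 2 := by
    intro K hK
    by_contra hlt
    exact hcon ⟨K, hK, by omega⟩
  have hs : 2 ≤ k / 2 := by omega
  have hex : ∀ i, ∃ I : Finset V, (I ⊆ lay G v i ∧ Ind G I) ∧
      (i = 1 → (lay G v i).card + (1 - k % 2) ≤ k / 2 * I.card) ∧
      (1 ≤ i → i ≤ k / 2 → (lay G v i).card ≤ k / 2 * I.card) := by
    intro i
    by_cases hi : 1 ≤ i ∧ i ≤ k / 2
    · by_cases hi1 : i = 1 ∧ k % 2 = 0
      · obtain ⟨rfl, hev⟩ := hi1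
        obtain ⟨I, h1, h2, h3⟩ := lemmaB hs
          (fun l hl => by have := h.nocyc l hl; omega) hK v hne
        exact ⟨I, ⟨h1, h2⟩, fun _ => by omega, fun _ _ => by omega⟩
      · obtain ⟨I, h1, h2, h3⟩ := lemmaA hs (by omega) (by omega) h.nocyc hK v i hi.1 hi.2
        exact ⟨I, ⟨h1, h2⟩, fun _ => by omega, fun _ _ => h3⟩
    · exact ⟨∅, ⟨empty_subset _, fun a ha => absurd ha (notMem_empty a)⟩,
        fun _ => by omega, fun _ _ => by omega⟩
  choose I hI hI1 hIi using hex
  exact growth (e := 1 - k % 2) hs (by omega) (by omega) h v I hI (hI1 1 rfl) hIi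

end Vale.Agent.P048
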