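import Vale.Agent.P048.Init

/-! Enumeration of the small patterns. -/

namespace Vale.Agent.P048

open Finset

def nxt : List ℕ → List (List ℕ)
  | [] => [[1]]
  | a :: l => [1 :: a :: l, (a + 1) :: l]

/-- all compositions -/
def comps : ℕ → List (List ℕ)
  | 0 => [[]]
  | n + 1 => (comps n).flatMap nxt

theorem mem_comps (n : ℕ) (c : List ℕ) (h1 : ∀ a ∈ c, 1 ≤ a) (h2 : c.sum = n) : c ∈ comps n := by
  induction n generalizing c with
  | zero =>
    cases c with
    | nil => simp [comps]
    | cons a l =>
      have := h1 a (by simp)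
      rw [List.sum_cons] at h2
      omega
  | succ n ih =>
    cases c with
    | nil => simp at h2
    | cons a l =>
      rw [List.forall_mem_cons] at h1
      rw [List.sum_cons] at h2
      rw [comps, List.mem_flatMap]
      obtain ⟨a, rfl⟩ : ∃ b, a = b + 1 := ⟨a - 1, by omega⟩
      cases a with
      | zero => exact ⟨l, ih l h1.2 (by omega), by cases l <;> simp [nxt]⟩
      | succ a =>
        exact ⟨(a + 1) :: l, ih _ (List.forall_mem_cons.2 ⟨by omega, h1.2⟩)
          (by rw [List.sum_cons]; omega), by simp [nxt]⟩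

def spl : List ℕ → List ℕ → List (List ℕ)
  | [], _ => []
  | a :: b, l => l.take a :: spl b (l.drop a)

theorem spl_flatten (S : List (List ℕ)) : spl (S.map List.length) S.flatten = S := by
  induction S with
  | nil => rfl
  | cons a S ih => simp [spl, ih]

def look (tab : List (ℕ × ℕ × List (List ℕ))) (k t : ℕ) (p : List (List ℕ)) : Bool :=
  tab.any fun x => Nat.beq x.1 k && Nat.beq x.2.1 t && p.isPerm x.2.2

def frc (x : ℕ) (f : ℕ → Bool) : Bool :=
  match x with
  | 0 => f 0
  | m + 1 => f (m + 1)

theorem frc_eq (x : ℕ) (f : ℕ → Bool) : frc x f = f x := by cases x <;> rfl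

def enumOK (tab : List (ℕ × ℕ × List (List ℕ))) (D z L : ℕ) : Bool :=
  (comps L).all fun c =>
    (frc (c.count 1) fun n1 => frc (c.count 2) fun n2 => frc (c.count 3) fun n3 =>
      frc (c.count 4) fun n4 => allOK n1 n2 n3 n4 (D + z) z) ||
    (comps c.length).all fun b => frc (z + c.length + b.length) fun t =>
      Nat.blt t (L + D) || Nat.blt 10 t || Nat.blt (t + L + D) 4 ||
        look tab (t + L + D - 1) t (spl b c ++ List.replicate z [])

variable {V : Type} [DecidableEq V] {G : SimpleGraph V} {k t L O : ℕ} {Q : Finset V}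
  {cs : List (Comp V)} [Fintype V] [DecidableRel G.Adj]

theorem Str.small (h : Str G k t L O Q cs) (hb : Bad G k) (v : V) (hk : 3 ≤ k)
    (sig : k + 1 ≤ 2 * t) (ht : t ≤ 10) {tab : List (ℕ × ℕ × List (List ℕ))}
    (htab : ∀ x ∈ tab, Has x) (he : enumOK tab (k + 1 - t - L) (zz cs) L = true) : False := by
  have hL : (lens cs).sum = L := h.sumL
  have h1 := List.all_eq_true.1 he (lens cs) (mem_comps _ _ (fun a ha => by
    obtain ⟨s, h3, rfl⟩ := List.mem_map.1 ha
    exact List.length_pos_iff.2 (h.ne_ex h3)) hL)
  simp only [frc_eq, Bool.or_eq_true] at h1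
  rcases h1 with h1 | h1
  · exact h.gen_a hb sig (allOK_sound h1)
  obtain ⟨S, s1, s2, s3⟩ : ∃ S : List (List ℕ), (∀ a ∈ S, a ≠ []) ∧ S.flatten = lens cs ∧
      (cs.map shape).Perm (S ++ List.replicate (zz cs) []) := by
    refine ⟨(cs.map shape).filter fun a => !a.isEmpty, fun a ha => by
      simpa using (List.mem_filter.1 ha).2, by
        rw [List.flatten_filter_not_isEmpty, flatten_shape], ?_⟩
    refine (List.filter_append_perm (fun a => !a.isEmpty) _).symm.trans
      (List.Perm.append_left _ (List.Perm.of_eq ?_))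
    rw [List.eq_replicate_iff]
    refine ⟨?_, fun a ha => by simpa using (List.mem_filter.1 ha).2⟩
    rw [← List.countP_eq_length_filter, List.countP_map, zz]
    congr 1
    ext c
    simp [shape]
  have h2 := List.all_eq_true.1 h1 (S.map List.length) (mem_comps _ _ (fun a ha => by
    obtain ⟨s, h3, rfl⟩ := List.mem_map.1 ha
    exact List.length_pos_iff.2 (s1 s h3)) (by rw [← s2, List.length_flatten]))
  have h3 := s3.length_eq
  have h4 := length_segs cs
  have h5 := h.len_segs
  have h6 := h.le
  have h7 : (lens cs).length = (ex cs).length := List.length_map _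
  simp only [List.length_map, List.length_append, List.length_replicate] at h3
  have h8 : zz cs + (lens cs).length + S.length = t := by omega
  have h9 : t + L + (k + 1 - t - L) - 1 = k := by omega
  simp only [List.length_map, h8, h9, Bool.or_eq_true, Nat.blt_eq, look, List.any_eq_true,
    Bool.and_eq_true, Nat.beq_eq, List.isPerm_iff] at h2
  obtain ⟨⟨k', t', p⟩, x1, ⟨rfl, rfl⟩, x2⟩ := h2.resolve_left (by omega)
  rw [← s2, spl_flatten] at x2
  exact h.not_has hb v (s3.trans x2) (htab _ x1)

end Vale.Agent.P048
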