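import Vale.Agent.P048.Data1
import Vale.Agent.P048.Data2
import Vale.Agent.P048.Data3
import Vale.Agent.P048.Data4
import Vale.Agent.P048.Data5
import Vale.Agent.P048.Data6
import Vale.Agent.P048.Data7
import Vale.Agent.P048.Data8
import Vale.Agent.P048.Enum
import Vale.Agent.P048.Clique

/-! No graph has the properties of a minimal counterexample. -/

namespace Vale.Agent.P048

def tab : List (ℕ × ℕ × List (List ℕ)) :=
  tab1 ++ (tab2 ++ (tab3 ++ (tab4 ++ (tab5 ++ (tab6 ++ (tab7 ++ tab8))))))

theorem tab_ok : ∀ x ∈ tab, Has x :=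
  List.forall_mem_append.2 ⟨tab1_ok, List.forall_mem_append.2 ⟨tab2_ok,
    List.forall_mem_append.2 ⟨tab3_ok, List.forall_mem_append.2 ⟨tab4_ok,
    List.forall_mem_append.2 ⟨tab5_ok, List.forall_mem_append.2 ⟨tab6_ok,
    List.forall_mem_append.2 ⟨tab7_ok, tab8_ok⟩⟩⟩⟩⟩⟩⟩

def enumAll (D z : ℕ) : Bool := (List.range (11 - D)).all (enumOK tab D z)

theorem en10 : enumAll 1 0 = true := by decide +kernel

theorem en11 : enumAll 1 1 = true := by decide +kernel

theorem en12 : enumAll 1 2 = true := by decide +kernel

theorem en13 : enumAll 1 3 = true := by decide +kernel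

theorem en14 : enumAll 1 4 = true := by decide +kernel

theorem en20 : enumAll 2 0 = true := by decide +kernel

theorem en21 : enumAll 2 1 = true := by decide +kernel

theorem en22 : enumAll 2 2 = true := by decide +kernel

theorem en23 : enumAll 2 3 = true := by decide +kernel

theorem en30 : enumAll 3 0 = true := by decide +kernel

theorem en31 : enumAll 3 1 = true := by decide +kernel

theorem en32 : enumAll 3 2 = true := by decide +kernel

theorem en40 : enumAll 4 0 = true := by decide +kernel

theorem en41 : enumAll 4 1 = true := by decide +kernel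

theorem en50 : enumAll 5 0 = true := by decide +kernel

theorem en {D z : ℕ} (h1 : 1 ≤ D) (h2 : D + z ≤ 5) : enumAll D z = true := by
  have h3 : D ≤ 5 := by omega
  have h4 : z ≤ 5 - D := by omega
  interval_cases D <;> simp only [Nat.reduceSub] at h4 <;> interval_cases z
  exacts [en10, en11, en12, en13, en14, en20, en21, en22, en23, en30, en31, en32, en40, en41, en50]

theorem core {k : ℕ} (hk : 3 ≤ k) (V : Type) [Fintype V] [DecidableEq V] (G : SimpleGraph V)
    [DecidableRel G.Adj] (hb : Bad G k) : IsEmpty V := by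
  refine ⟨fun v => ?_⟩
  obtain ⟨t, L, O, Q, cs, h⟩ := exists_str hb (by omega)
  obtain ⟨K, h1, h2⟩ := big_clique hk hb v
  have h3 := h.opt.clq K h1
  have sig : k + 1 ≤ 2 * t := by omega
  have h4 := h.le
  by_cases h5 : 11 ≤ t
  · exact h.gen_large hb sig h5
  by_cases h6 : 6 ≤ k + 1 - t - L + zz cs
  · exact h.gen_a hb sig (allOK_of_six h6)
  exact h.small hb v hk sig (by omega) tab_ok (List.all_eq_true.1
    (en (D := k + 1 - t - L) (z := zz cs) (by omega) (by omega)) L (List.mem_range.2 (by omega)))

end Vale.Agent.P048
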