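import Mathlib.Combinatorics.SimpleGraph.Basic
import Mathlib.Data.Finset.Card
import Mathlib.Data.Fintype.Card
import Mathlib.Data.List.Chain
import Mathlib.Data.List.Nodup
import Mathlib.Tactic.Linarith
import Mathlib.Tactic.Ring

/-!
P048: basic notions for the cycle versus clique Ramsey numbers. Throughout `k = m - 1`.
-/

namespace Vale.Agent.P048

open Finset

variable {V : Type} [Fintype V] [DecidableEq V] (G : SimpleGraph V) [DecidableRel G.Adj]

/-- independent set -/
def Ind (I : Finset V) : Prop := ∀ a ∈ I, ∀ b ∈ I, ¬ G.Adj a b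

/-- clique -/
def Clq (K : Finset V) : Prop := ∀ a ∈ K, ∀ b ∈ K, a ≠ b → G.Adj a b

/-- closed neighbourhood of a set -/
def nb (I : Finset V) : Finset V := univ.filter fun v => v ∈ I ∨ ∃ i ∈ I, G.Adj i v

/-- the list runs once around a cycle -/
def Cyc (l : List V) : Prop :=
  l.Nodup ∧ l.IsChain G.Adj ∧ ∀ a ∈ l.getLast?, ∀ b ∈ l.head?, G.Adj a b

/-- the properties of a minimal counterexample -/
structure Bad (k : ℕ) : Prop where
  nocyc : ∀ l : List V, Cyc G l → l.length ≠ k + 1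
  ind : ∀ I : Finset V, Ind G I → I.card ≤ k
  exp : ∀ I : Finset V, Ind G I → I.Nonempty → k * I.card + 1 ≤ (nb G I).card

variable {G}

theorem mem_nb {I : Finset V} {v : V} : v ∈ nb G I ↔ v ∈ I ∨ ∃ i ∈ I, G.Adj i v := by
  simp [nb]

theorem mem_nb_one {x v : V} : v ∈ nb G {x} ↔ v = x ∨ G.Adj x v := by
  simp [nb]

theorem mem_nb_two {x y v : V} :
    v ∈ nb G {x, y} ↔ v = x ∨ v = y ∨ G.Adj x v ∨ G.Adj y v := by
  simp [nb, or_assoc]

end Vale.Agent.P048
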