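import Vale.Agent.P048.Str

/-! Successors of clique vertices are far apart outside the optimal path. -/

namespace Vale.Agent.P048

open Finset

variable {V : Type} [DecidableEq V] (G : SimpleGraph V)

/-- an optimal path, split into components -/
structure Str (k t L O : ℕ) (Q : Finset V) (cs : List (Comp V)) : Prop where
  opt : Opt G k t L O
  clq : Clq G Q
  card : Q.card = t
  ok : ∀ c ∈ cs, CompOK G Q c
  ne : ∀ c ∈ cs, ∀ s ∈ c.2, s.1 ≠ []
  nd : (flat cs).Nodup
  cov : ∀ q ∈ Q, q ∈ flat cs
  sumL : ((ex cs).map fun s => s.1.length).sum = L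
  sumO : ((ex cs).map fun s => s.1.length - 1).sum = O
  le : L + t ≤ k

variable {G}

theorem out_flat {Q : Finset V} {cs : List (Comp V)} (h : ∀ c ∈ cs, CompOK G Q c) :
    out Q (flat cs) = ((ex cs).map fun s => s.1.length).sum := by
  rw [flat, out_flatE (segOK_segs h)]
  exact sum_segs id rfl cs

theorem oo_flat {Q : Finset V} {cs : List (Comp V)} (h : ∀ c ∈ cs, CompOK G Q c) :
    oo Q (flat cs) = ((ex cs).map fun s => s.1.length - 1).sum := by
  rw [flat, oo_flatE (segOK_segs h)]
  exact sum_segs (fun n => n - 1) rfl cs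

theorem exists_str [Fintype V] [DecidableRel G.Adj] {k : ℕ} (h : Bad G k) (hk : 1 ≤ k) :
    ∃ t L O Q cs, Str G k t L O Q cs := by
  obtain ⟨t, L, O, Q, P, h1, h2, h3, h4, h5, h6, h7, h8⟩ := exists_opt h hk
  obtain ⟨cs, rfl, h9⟩ := parse h4
  have h10 : ∀ c ∈ cs, CompOK G Q c := fun c hc => (h9 c hc).1
  exact ⟨t, L, O, Q, cs, h1, h2, h3, h10, fun c hc => (h9 c hc).2, h4.nd, h7,
    (out_flat h10).symm.trans h5, (oo_flat h10).symm.trans h6, h8⟩

variable {k t L O : ℕ} {Q : Finset V} {cs : List (Comp V)}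

theorem Str.perm (h : Str G k t L O Q cs) {cs' : List (Comp V)} (hp : cs.Perm cs') :
    Str G k t L O Q cs' := by
  have h1 : (flat cs).Perm (flat cs') := (hp.flatMap_right _).flatMap_right _
  have h2 : (ex cs).Perm (ex cs') := hp.flatMap_right _
  exact ⟨h.opt, h.clq, h.card, fun c hc => h.ok c (hp.mem_iff.2 hc),
    fun c hc => h.ne c (hp.mem_iff.2 hc), h1.nodup_iff.1 h.nd,
    fun q hq => h1.mem_iff.1 (h.cov q hq), (h2.map _).sum_eq.symm.trans h.sumL,
    (h2.map _).sum_eq.symm.trans h.sumO, h.le⟩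

theorem Str.sys (h : Str G k t L O Q cs) : Sys G Q (flat cs) := sys_flat h.ok h.nd

theorem Str.length_flat (h : Str G k t L O Q cs) : (flat cs).length = L + t := by
  have h1 := out_add_card (Q := Q) h.nd
  have h2 : Q ∩ (flat cs).toFinset = Q :=
    inter_eq_left.2 fun q hq => List.mem_toFinset.2 (h.cov q hq)
  rw [h2, out_flat h.ok, h.sumL, h.card] at h1
  exact h1.symm

theorem Str.len_segs (h : Str G k t L O Q cs) : (segs cs).length = t := by
  have h1 := h.length_flat
  have h2 := sum_segs id rfl cs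
  simp only [id] at h2
  rw [flat, length_flatE, h2, h.sumL] at h1
  omega

theorem Str.nodup_segs (h : Str G k t L O Q cs) : (segs cs).Nodup :=
  (h.nd.sublist (map_snd_sublist _)).of_map _

theorem Str.nodup_ex (h : Str G k t L O Q cs) : (ex cs).Nodup :=
  h.nodup_segs.sublist (ex_sublist cs)

theorem Str.nodup_cs (h : Str G k t L O Q cs) : cs.Nodup :=
  (h.nd.sublist (map_fst_sublist _)).of_map _

theorem Str.ne_ex (h : Str G k t L O Q cs) {s : Seg V} (hs : s ∈ ex cs) : s.1 ≠ [] := by
  obtain ⟨c, hc, h1⟩ := List.mem_flatMap.1 hs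
  exact h.ne c hc s h1

/-- remove the excursions in `S` -/
def dr (S : Finset (Seg V)) (s : Seg V) : Seg V := if s ∈ S then ([], s.2) else s

theorem dr_snd (S : Finset (Seg V)) (s : Seg V) : (dr S s).2 = s.2 := by
  unfold dr
  split_ifs <;> rfl

theorem dr_nil (S : Finset (Seg V)) (q : V) : dr S ([], q) = ([], q) := by
  unfold dr
  split_ifs <;> rfl

theorem flatE_dr_sublist (S : Finset (Seg V)) (l : List (Seg V)) :
    (flatE (l.map (dr S))).Sublist (flatE l) := by
  induction l with
  | nil => simp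
  | cons s l ih =>
    rw [List.map_cons, flatE_cons, flatE_cons, dr_snd]
    refine List.Sublist.append ?_ (ih.cons_cons _)
    unfold dr
    split_ifs
    · exact List.nil_sublist _
    · exact List.Sublist.refl _

theorem Link.dr (S : Finset (Seg V)) {q : V} {l : List (Seg V)} (hq : q ∈ Q)
    (hl : ∀ s ∈ l, SegOK Q s) (h : Link G Q q l) : Link G Q q (l.map (dr S)) := by
  induction l generalizing q with
  | nil => trivial
  | cons s l ih =>
    have h1 := (hl s (by simp)).2
    refine ⟨?_, ?_⟩
    · unfold P048.dr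
      split_ifs
      · exact List.isChain_pair.2 (Or.inr ⟨hq, h1⟩)
      · exact h.1
    · rw [dr_snd]
      exact ih h1 (fun x hx => hl x (by simp [hx])) h.2

def drC (S : Finset (Seg V)) (c : Comp V) : Comp V := (c.1, c.2.map (dr S))

theorem CompOK.dr (S : Finset (Seg V)) {c : Comp V} (h : CompOK G Q c) :
    CompOK G Q (drC S c) := by
  refine ⟨h.1, fun s hs => ?_, h.2.2.dr S h.1 h.2.1⟩
  obtain ⟨x, hx, rfl⟩ := List.mem_map.1 hs
  have := h.2.1 x hx
  unfold P048.dr
  split_ifs
  · exact ⟨by simp, this.2⟩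
  · exact this

theorem segs_drC (S : Finset (Seg V)) (cs : List (Comp V)) :
    segs (cs.map (drC S)) = (segs cs).map (dr S) := by
  induction cs with
  | nil => rfl
  | cons c cs ih => simp [segs_cons, ih, drC, dr_nil]

theorem ex_drC (S : Finset (Seg V)) (cs : List (Comp V)) :
    ex (cs.map (drC S)) = (ex cs).map (dr S) := by
  simp [ex, drC, List.flatMap_map, List.map_flatMap]

omit [DecidableEq V] in
theorem ex_filter (p : Comp V → Bool) (cs : List (Comp V)) (h : ∀ c, c.2 ≠ [] → p c = true) :
    ex (cs.filter p) = ex cs := by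
  induction cs with
  | nil => rfl
  | cons c cs ih =>
    unfold ex at ih ⊢
    by_cases hp : p c = true
    · simp [hp, ih]
    · have : c.2 = [] := by
        by_contra hc
        exact hp (h c hc)
      simp [hp, ih, this]

theorem sum_dr (f : ℕ → ℕ) (hf : f 0 = 0) {l : List (Seg V)} (hl : l.Nodup)
    {S : Finset (Seg V)} (hS : S ⊆ l.toFinset) :
    ((l.map (dr S)).map fun s => f s.1.length).sum + ∑ x ∈ S, f x.1.length =
      (l.map fun s => f s.1.length).sum := by
  rw [List.map_map, ← List.sum_toFinset _ hl, ← List.sum_toFinset _ hl, ← sum_sdiff hS,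
    ← sum_sdiff hS (f := fun s => f s.1.length)]
  have h1 : ∑ x ∈ S, ((fun s : Seg V => f s.1.length) ∘ dr S) x = 0 :=
    sum_eq_zero fun x hx => by simp [dr, hx, hf]
  rw [h1, add_zero]
  congr 1
  exact sum_congr rfl fun x hx => by simp [dr, (mem_sdiff.1 hx).2]

/-- the segment is an unused clique vertex -/
def Triv (cs : List (Comp V)) (s : Seg V) : Prop := s.1 = [] ∧ (s.2, []) ∈ cs

instance (cs : List (Comp V)) (s : Seg V) : Decidable (Triv cs s) := by
  unfold Triv; infer_instance

/-- number of unused clique vertices -/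
def zz (cs : List (Comp V)) : ℕ := cs.countP fun c => c.2.isEmpty

theorem count_keep (hn : cs.Nodup) (s : Seg V) :
    cs.countP (fun c => decide (c.2 = [] ∧ ([], c.1) = s)) ≤ if Triv cs s then 1 else 0 := by
  split_ifs with h
  · refine le_trans (List.countP_mono_left (q := fun c => c == (s.2, [])) ?_)
      (List.nodup_iff_count_le_one.1 hn _)
    intro c _ hc
    obtain ⟨h1, h2⟩ := of_decide_eq_true hc
    simp [← h2, ← h1]
  · rw [Nat.le_zero, List.countP_eq_zero]
    intro c hc h1
    obtain ⟨h2, h3⟩ := of_decide_eq_true h1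
    exact h ⟨by rw [← h3], by rw [← h3, ← h2]; exact hc⟩

theorem count_aux {α : Type} (l : List α) (p q r u : α → Bool)
    (h : ∀ c, p c = true → q c = true → r c = true ∨ u c = true) :
    l.countP p + l.countP q ≤ l.length + l.countP r + l.countP u := by
  induction l with
  | nil => simp
  | cons c l ih =>
    have := h c
    simp only [List.countP_cons, List.length_cons]
    cases hp : p c <;> cases hq : q c <;> cases hr : r c <;> cases hu : u c <;> simp_all <;> omega

theorem count_split (cs : List (Comp V)) (s s' : Seg V) :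
    (cs.filter fun c => decide (c.2 ≠ [] ∨ ([], c.1) = s ∨ ([], c.1) = s')).length + zz cs ≤
      cs.length + cs.countP (fun c => decide (c.2 = [] ∧ ([], c.1) = s)) +
        cs.countP (fun c => decide (c.2 = [] ∧ ([], c.1) = s')) := by
  rw [← List.countP_eq_length_filter]
  refine count_aux cs _ _ _ _ fun c h1 h2 => ?_
  have h3 : c.2 = [] := List.isEmpty_iff.1 h2
  simpa [h3] using h1

theorem Str.far (h : Str G k t L O Q cs) {s s' : Seg V} (hs : s ∈ segs cs) (hs' : s' ∈ segs cs)
    (hne : s ≠ s') (ρ : ℕ)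
    (hr : ∀ r, 1 ≤ r → r ≤ ρ → ∃ S ⊆ (ex cs).toFinset, s ∉ S ∧ s' ∉ S ∧
      ((∑ x ∈ S, x.1.length < r ∧ r + t + L + (if Triv cs s then 1 else 0) +
        (if Triv cs s' then 1 else 0) ≤ k + 1 + ∑ x ∈ S, x.1.length + zz cs) ∨
      (r = ∑ x ∈ S, x.1.length ∧
        2 ≤ S.card + (if s.1 ≠ [] then 1 else 0) + (if s'.1 ≠ [] then 1 else 0)))) :
    Far G (flat cs).toFinset (hd s) (hd s') ρ := by
  intro W0 e1 e2 e3 e4
  obtain ⟨W, w1, w2, w3, w4, w5⟩ := exists_nodup_walk _ _ W0 _ le_rfl e1 e4
  have w6 : ∀ v ∈ W, v ∉ flat cs := fun v hv hc => e3 v (w3 v hv) (List.mem_toFinset.2 hc)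
  obtain ⟨S, hS, h1, h2, h3⟩ := hr W.length (List.length_pos_iff.2 w1) (w4.trans e2)
  set cs1 := cs.filter fun c => decide (c.2 ≠ [] ∨ ([], c.1) = s ∨ ([], c.1) = s') with hcs1
  have hsub : cs1.Sublist cs := List.filter_sublist
  have hex : ex cs1 = ex cs := ex_filter _ cs fun c hc => decide_eq_true (Or.inl hc)
  have hok : ∀ c ∈ cs1.map (drC S), CompOK G Q c := by
    intro c hc
    obtain ⟨x, hx, rfl⟩ := List.mem_map.1 hc
    exact (h.ok x (hsub.subset hx)).dr S
  have hsl : (flat (cs1.map (drC S))).Sublist (flat cs) := by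
    rw [flat, segs_drC]
    exact (flatE_dr_sublist S _).trans ((hsub.flatMap _).flatMap _)
  have hmem : ∀ x, x = s ∨ x = s' → x ∈ segs cs → x ∉ S → x ∈ segs (cs1.map (drC S)) := by
    intro x hx h4 h5
    rw [segs_drC]
    refine List.mem_map.2 ⟨x, ?_, if_neg h5⟩
    rw [mem_segs, hex] at *
    refine h4.imp_left ?_
    rintro ⟨c, hc, rfl⟩
    exact ⟨c, List.mem_filter.2 ⟨hc, decide_eq_true (Or.inr hx)⟩, rfl⟩
  obtain ⟨P, p1, p2, p3, p4⟩ := join_segs (sys_flat hok (h.nd.sublist hsl)) (segOK_segs hok)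
    (hmem s (Or.inl rfl) hs h1) (hmem s' (Or.inr rfl) hs' h2) hne w1 w2
    (fun v hv hc => w6 v hv (hsl.subset hc)) (fun v hv hq => w6 v hv (h.cov v hq)) w5
  have a1 := sum_dr id rfl h.nodup_ex hS
  have a2 := sum_dr (fun n => n - 1) rfl h.nodup_ex hS
  have a3 := out_flat hok
  have a4 := oo_flat hok
  have a5 := sum_segs id rfl (cs1.map (drC S))
  have a6 := length_segs (cs1.map (drC S))
  have a7 := length_segs cs
  have a8 := count_split cs s s'
  have a9 := count_keep h.nodup_cs s
  have a10 := count_keep h.nodup_cs s'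
  have a11 : ∑ x ∈ S, (x.1.length - 1) + S.card = ∑ x ∈ S, x.1.length := by
    rw [card_eq_sum_ones, ← sum_add_distrib]
    refine sum_congr rfl fun x hx => ?_
    have := List.length_pos_iff.2 (h.ne_ex (List.mem_toFinset.1 (hS hx)))
    omega
  have a12 := length_flatE (segs (cs1.map (drC S)))
  simp only [id] at a1 a5
  rw [ex_drC, hex] at a3 a4 a5 a6
  rw [h.sumL] at a1
  rw [h.sumO] at a2
  rw [h.len_segs] at a7
  rw [List.length_map, List.length_map] at a6
  rw [← hcs1] at a8
  unfold flat at a3 a4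
  have a13 : cs1.length ≤ cs.length := hsub.length_le
  have hle := h.le
  have := h.opt.best Q h.clq h.card P p1 (by omega)
  omega

/-- a common neighbour of two consecutive vertices of the optimal path -/
theorem Str.no_insert (h : Str G k t L O Q cs) {A B : List V} {a b x : V}
    (e : flat cs = A ++ a :: b :: B) (hx : x ∉ flat cs) (h1 : G.Adj a x) (h2 : G.Adj x b) :
    False := by
  have hs := h.sys
  have hxQ : x ∉ Q := fun hq => hx (h.cov x hq)
  have hp : (A ++ a :: x :: b :: B).Perm (x :: flat cs) := by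
    rw [e, List.perm_iff_count]
    intro v
    simp only [List.count_append, List.count_cons]
    omega
  have hs' : Sys G Q (A ++ a :: x :: b :: B) := by
    refine ⟨hp.nodup_iff.2 (List.nodup_cons.2 ⟨hx, h.nd⟩), ?_, ?_, ?_⟩
    · have hc := hs.ch
      rw [e, List.isChain_split, List.isChain_cons_cons] at hc
      rw [List.isChain_split, List.isChain_cons_cons, List.isChain_cons_cons]
      exact ⟨hc.1, Or.inl h1, Or.inl h2, hc.2.2⟩
    · intro v hv
      refine hs.hd v ?_
      rw [e]
      cases A <;> simpa using hv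
    · intro v hv
      refine hs.la v ?_
      rw [e]
      simpa using hv
  have h3 := hp.length_eq
  have h4 : out Q (A ++ a :: x :: b :: B) = out Q (x :: flat cs) := (hp.map _).count_eq _
  rw [← List.singleton_append (l := flat cs), out_append Q [x], out_of_out (W := [x]) (by simpa using hxQ),
    out_flat h.ok, h.sumL] at h4
  rw [List.length_cons, h.length_flat] at h3
  have hle := h.le
  have := h.opt.best Q h.clq h.card _ hs' (by omega)
  simp only [List.length_singleton] at h4
  omega

end Vale.Agent.P048
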