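import Vale.Agent.P048.Ball
import Vale.Agent.P048.FarLem
import Vale.Agent.P048.Arith
import Mathlib.Algebra.BigOperators.Group.Finset.Piecewise

/-! The generic case: all successors are far apart. -/

namespace Vale.Agent.P048

open Finset

variable {V : Type} [DecidableEq V] {G : SimpleGraph V} {k t L O : ℕ} {Q : Finset V}
  {cs : List (Comp V)}

/-- lengths of the excursions -/
def lens (cs : List (Comp V)) : List ℕ := (ex cs).map fun s => s.1.length

theorem Str.pick1 (h : Str G k t L O Q cs) (s s' : Seg V) (i m : ℕ)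
    (hm : m ≤ (lens cs).count i - ind s.1.length i - ind s'.1.length i) :
    ∃ S ⊆ (ex cs).toFinset, s ∉ S ∧ s' ∉ S ∧ S.card = m ∧ ∀ x ∈ S, x.1.length = i := by
  have h1 : ((ex cs).toFinset.filter fun x => x.1.length = i).card = (lens cs).count i := by
    rw [lens, List.count_eq_countP, List.countP_map, List.countP_eq_length_filter,
      ← List.toFinset_card_of_nodup (h.nodup_ex.filter _), List.toFinset_filter]
    congr 1
    ext x
    simp
  have h2 : ∀ (A : Finset (Seg V)) (x : Seg V), (∀ y ∈ A, y.1.length = i) →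
      A.card - ind x.1.length i ≤ (A.erase x).card := by
    intro A x hA
    rw [ind_eq]
    split_ifs with h3
    · exact pred_card_le_card_erase
    · rw [erase_eq_of_notMem fun hx => h3 (hA x hx)]
      omega
  have h3 := h2 ((ex cs).toFinset.filter fun x => x.1.length = i) s fun y hy => (mem_filter.1 hy).2
  have h4 := h2 (((ex cs).toFinset.filter fun x => x.1.length = i).erase s) s'
    fun y hy => (mem_filter.1 (mem_of_mem_erase hy)).2
  obtain ⟨S, h5, h6⟩ := exists_subset_card_eq (n := m)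
    (s := (((ex cs).toFinset.filter fun x => x.1.length = i).erase s).erase s') (by omega)
  have h7 : ∀ x ∈ S, x ≠ s' ∧ x ≠ s ∧ x ∈ (ex cs).toFinset ∧ x.1.length = i := by
    intro x hx
    simpa only [mem_erase, mem_filter] using h5 hx
  exact ⟨S, fun x hx => (h7 x hx).2.2.1, fun hx => (h7 s hx).2.1 rfl, fun hx => (h7 s' hx).1 rfl,
    h6, fun x hx => (h7 x hx).2.2.2⟩

theorem Str.card_triv (cs : List (Comp V)) :
    ((segs cs).toFinset.filter (Triv cs)).card ≤ zz cs := by
  rw [zz, List.countP_eq_length_filter]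
  refine le_trans ?_ (List.toFinset_card_le _)
  refine card_le_card_of_injOn (fun s => (s.2, [])) (fun s hs => ?_) fun s hs s' hs' e => ?_
  · have := (mem_filter.1 (mem_coe.1 hs)).2
    simp [this.2]
  · have h1 := (mem_filter.1 (mem_coe.1 hs)).2
    have h2 := (mem_filter.1 (mem_coe.1 hs')).2
    exact Prod.ext (h1.1.trans h2.1.symm) (congrArg Prod.fst e)

theorem triv_le {s s' : Seg V} (hs : s ∈ segs cs) (hs' : s' ∈ segs cs) (hne : s ≠ s') :
    (if Triv cs s then 1 else 0) + (if Triv cs s' then 1 else 0) ≤ zz cs := by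
  refine le_trans ?_ (Str.card_triv cs)
  rw [← sum_pair (f := fun s => if Triv cs s then 1 else 0) hne, ← card_filter]
  refine card_le_card (filter_subset_filter _ fun x hx => ?_)
  simp only [mem_insert, mem_singleton] at hx
  rcases hx with rfl | rfl <;> simpa

theorem Str.far_cover (h : Str G k t L O Q cs) {s s' : Seg V} (hs : s ∈ segs cs)
    (hs' : s' ∈ segs cs) (hne : s ≠ s') (ρ : ℕ)
    (hr : ∀ r, 1 ≤ r → r ≤ ρ → ∃ s1 s2 s3 s4,
      s1 ≤ (lens cs).count 1 - ind s.1.length 1 - ind s'.1.length 1 ∧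
      s2 ≤ (lens cs).count 2 - ind s.1.length 2 - ind s'.1.length 2 ∧
      s3 ≤ (lens cs).count 3 - ind s.1.length 3 - ind s'.1.length 3 ∧
      s4 ≤ (lens cs).count 4 - ind s.1.length 4 - ind s'.1.length 4 ∧
      ((s1 + 2 * s2 + 3 * s3 + 4 * s4 < r ∧ r ≤ s1 + 2 * s2 + 3 * s3 + 4 * s4 +
        (k + 1 - t - L + zz cs - ((if Triv cs s then 1 else 0) + if Triv cs s' then 1 else 0))) ∨
        (r = s1 + 2 * s2 + 3 * s3 + 4 * s4 ∧
          2 ≤ s1 + s2 + s3 + s4 + (2 - ind s.1.length 0 - ind s'.1.length 0)))) :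
    Far G (flat cs).toFinset (hd s) (hd s') ρ := by
  refine h.far hs hs' hne ρ fun r h1 h2 => ?_
  obtain ⟨s1, s2, s3, s4, e1, e2, e3, e4, e5⟩ := hr r h1 h2
  obtain ⟨S1, a1, a2, a3, a4, a5⟩ := h.pick1 s s' 1 s1 e1
  obtain ⟨S2, b1, b2, b3, b4, b5⟩ := h.pick1 s s' 2 s2 e2
  obtain ⟨S3, c1, c2, c3, c4, c5⟩ := h.pick1 s s' 3 s3 e3
  obtain ⟨S4, d1, d2, d3, d4, d5⟩ := h.pick1 s s' 4 s4 e4
  have f1 : Disjoint S1 S2 := disjoint_left.2 fun x hx hx' => by
    have := a5 x hx; have := b5 x hx'; omega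
  have f2 : Disjoint S3 S4 := disjoint_left.2 fun x hx hx' => by
    have := c5 x hx; have := d5 x hx'; omega
  have f3 : Disjoint (S1 ∪ S2) (S3 ∪ S4) := disjoint_left.2 fun x hx hx' => by
    have g1 := (mem_union.1 hx).imp (a5 x) (b5 x)
    have g2 := (mem_union.1 hx').imp (c5 x) (d5 x)
    omega
  have g : ∑ x ∈ S1 ∪ S2 ∪ (S3 ∪ S4), x.1.length = s1 + 2 * s2 + 3 * s3 + 4 * s4 := by
    rw [sum_union f3, sum_union f1, sum_union f2, sum_const_nat a5, sum_const_nat b5,
      sum_const_nat c5, sum_const_nat d5]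
    omega
  have g' : (S1 ∪ S2 ∪ (S3 ∪ S4)).card = s1 + s2 + s3 + s4 := by
    rw [card_union_of_disjoint f3, card_union_of_disjoint f1, card_union_of_disjoint f2]
    omega
  refine ⟨S1 ∪ S2 ∪ (S3 ∪ S4), union_subset (union_subset a1 b1) (union_subset c1 d1),
    by simp [a2, b2, c2, d2], by simp [a3, b3, c3, d3], ?_⟩
  have g1 := triv_le hs hs' hne
  have g2 := h.le
  have g3 : ∀ x : Seg V, (if x.1 ≠ [] then 1 else 0) + ind x.1.length 0 = 1 := by
    intro x
    rw [ind_eq]
    by_cases hx : x.1 = [] <;> simp [hx]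
  have g4 := g3 s
  have g5 := g3 s'
  rw [g, g']
  omega

theorem triv_ind (cs : List (Comp V)) (s : Seg V) :
    (if Triv cs s then 1 else 0) ≤ ind s.1.length 0 := by
  split_ifs with h
  · simp [ind_eq, h.1]
  · exact Nat.zero_le _

/-- all vertices of the path that are not successors of clique vertices -/
def tls (cs : List (Comp V)) : List V := (segs cs).flatMap fun s => (s.1 ++ [s.2]).tail

omit [DecidableEq V] in
theorem mem_flat {v : V} (h : v ∈ flat cs) : (∃ s ∈ segs cs, v = hd s) ∨ v ∈ tls cs := by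
  obtain ⟨⟨E, q⟩, h1, h2⟩ := List.mem_flatMap.1 h
  cases E with
  | nil => exact Or.inl ⟨_, h1, by simpa [hd] using h2⟩
  | cons a E =>
    rcases List.mem_cons.1 h2 with h3 | h3
    · exact Or.inl ⟨_, h1, h3⟩
    · exact Or.inr (List.mem_flatMap.2 ⟨_, h1, h3⟩)

theorem Str.card_tls (h : Str G k t L O Q cs) : (tls cs).toFinset.card ≤ L := by
  refine (List.toFinset_card_le _).trans (le_of_eq ?_)
  have := sum_segs id rfl cs
  simp only [id] at this
  rw [← h.sumL, ← this, tls, List.length_flatMap]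
  simp

omit [DecidableEq V] in
theorem hd_mem {s : Seg V} (h : s ∈ segs cs) : hd s ∈ flat cs :=
  (map_hd_sublist _).subset (List.mem_map_of_mem h)

theorem Str.last_insert (h : Str G k t L O Q cs) {E : List V} {b q x : V}
    (hs : (E ++ [b], q) ∈ segs cs) (hx : x ∉ flat cs) (h1 : G.Adj x b) (h2 : G.Adj x q) : False := by
  obtain ⟨A, B, e⟩ := List.append_of_mem hs
  refine h.no_insert (A := flatE A ++ E) (B := flatE B) ?_ hx h1.symm h2
  rw [flat, e, flatE_append, flatE_cons]
  simp

theorem nbr_sub {s : Seg V} {i : ℕ} {y : V} (hy : Near G (flat cs).toFinset (hd s) i y)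
    (hf : ∀ s' ∈ segs cs, s ≠ s' → Far G (flat cs).toFinset (hd s) (hd s') i) {v : V}
    (hv : v ∈ (flat cs).toFinset) (ha : G.Adj y v) : v ∈ insert (hd s) (tls cs).toFinset := by
  rcases mem_flat (List.mem_toFinset.1 hv) with ⟨s', h1, rfl⟩ | h1
  · by_cases e : s = s'
    · simp [e]
    · exact absurd ha (hy.not_adj (hf s' h1 e))
  · simp [h1]

variable [Fintype V] [DecidableRel G.Adj]

theorem Str.one (h : Str G k t L O Q cs) (hb : Bad G k) {s : Seg V} (hs : s ∈ segs cs) :
    ∃ x, x ∉ (flat cs).toFinset ∧ G.Adj (hd s) x := by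
  refine ball_one hb _ _ ?_
  have h1 : (flat cs).toFinset.filter (G.Adj (hd s)) ⊆ (flat cs).toFinset.erase (hd s) :=
    fun v hv => mem_erase.2 ⟨(mem_filter.1 hv).2.ne', (mem_filter.1 hv).1⟩
  have h2 := card_le_card h1
  have h3 := card_erase_add_one (List.mem_toFinset.2 (hd_mem hs))
  have h4 := List.toFinset_card_le (flat cs)
  have h5 := h.length_flat
  have h6 := h.le
  omega

theorem Str.two (h : Str G k t L O Q cs) (hb : Bad G k) {s : Seg V} (hs : s ∈ segs cs)
    (hf : ∀ s' ∈ segs cs, s ≠ s' → Far G (flat cs).toFinset (hd s) (hd s') 1)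
    (hg : L + t + 1 ≤ k ∨ (∃ s' ∈ segs cs, 2 ≤ s'.1.length) ∨ s.1.length = 1) :
    ∃ a b, a ≠ b ∧ ¬ G.Adj a b ∧ Near G (flat cs).toFinset (hd s) 2 a ∧
      Near G (flat cs).toFinset (hd s) 2 b := by
  obtain ⟨x, h1, h2⟩ := h.one hb hs
  have h3 := Near.one h1 h2
  have h4 : (flat cs).toFinset.filter (G.Adj x) ⊆ insert (hd s) (tls cs).toFinset :=
    fun v hv => nbr_sub h3 hf (mem_filter.1 hv).1 (mem_filter.1 hv).2
  have h5 := h.card_tls
  have h6 := h.le
  have h7 : ∀ a ∈ tls cs, ¬ G.Adj x a → ((flat cs).toFinset.filter (G.Adj x)).card ≤ L := by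
    intro a ha hn
    have h8 : (flat cs).toFinset.filter (G.Adj x) ⊆ insert (hd s) ((tls cs).toFinset.erase a) := by
      intro v hv
      rcases mem_insert.1 (h4 hv) with h9 | h9
      · simp [h9]
      · exact mem_insert_of_mem (mem_erase.2 ⟨fun e => hn (e ▸ (mem_filter.1 hv).2), h9⟩)
    have h9 := (card_le_card h8).trans (card_insert_le _ _)
    have h10 := card_erase_add_one (List.mem_toFinset.2 ha)
    omega
  have h8 : ((flat cs).toFinset.filter (G.Adj x)).card + t ≤ k + (∅ : Finset V).card := by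
    have hx : x ∉ flat cs := fun e => h1 (List.mem_toFinset.2 e)
    rcases hg with hg | ⟨⟨E, q⟩, e1, e2⟩ | hg
    · have := (card_le_card h4).trans (card_insert_le _ _)
      omega
    · obtain ⟨a, E, rfl⟩ := List.exists_cons_of_length_pos (l := E) (by simp only at e2; omega)
      obtain ⟨E, b, rfl⟩ := (List.eq_nil_or_concat' E).resolve_left (by rintro rfl; simp at e2)
      by_cases e3 : G.Adj x b
      · have := h7 q (List.mem_flatMap.2 ⟨_, e1, by simp⟩)
          (h.last_insert (E := a :: E) e1 hx e3)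
        omega
      · have := h7 b (List.mem_flatMap.2 ⟨_, e1, by simp⟩) e3
        omega
    · obtain ⟨E, q⟩ := s
      obtain ⟨b, rfl⟩ := List.length_eq_one_iff.1 hg
      have := h7 q (List.mem_flatMap.2 ⟨_, hs, by simp⟩) (h.last_insert (E := []) hs hx h2.symm)
      omega
  obtain ⟨a, b, e1, e2, e3, e4⟩ := ball_pair hb h.opt.clq _ x ∅ (empty_subset _) (by simp) h8
  have e5 := e3.resolve_left (by simp)
  have e6 := e4.resolve_left (by simp)
  exact ⟨a, b, e1, e2, h3.step e5.1 e5.2, h3.step e6.1 e6.2⟩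

theorem Str.two_self (h : Str G k t L O Q cs) (hb : Bad G k) {s : Seg V} (hs : s ∈ segs cs)
    (hf : ∀ s' ∈ segs cs, s ≠ s' → Far G (flat cs).toFinset (hd s) (hd s') 1) :
    ∃ a b, a ≠ b ∧ ¬ G.Adj a b ∧ (a = hd s ∨ Near G (flat cs).toFinset (hd s) 2 a) ∧
      (b = hd s ∨ Near G (flat cs).toFinset (hd s) 2 b) := by
  obtain ⟨x, h1, h2⟩ := h.one hb hs
  have h3 := Near.one h1 h2
  have h4 : (flat cs).toFinset.filter (G.Adj x) ⊆ insert (hd s) (tls cs).toFinset :=
    fun v hv => nbr_sub h3 hf (mem_filter.1 hv).1 (mem_filter.1 hv).2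
  have h5 := h.card_tls
  have h6 := h.le
  have h7 := (card_le_card h4).trans (card_insert_le _ _)
  obtain ⟨a, b, e1, e2, e3, e4⟩ := ball_pair hb h.opt.clq (flat cs).toFinset x {hd s}
    (by simpa using hd_mem hs) (by simpa using h2.symm) (by rw [card_singleton]; omega)
  exact ⟨a, b, e1, e2, e3.imp mem_singleton.1 fun e => h3.step e.1 e.2,
    e4.imp mem_singleton.1 fun e => h3.step e.1 e.2⟩

theorem Str.three (h : Str G k t L O Q cs) (hb : Bad G k) (hk : 4 ≤ k) {s : Seg V}
    (hs : s ∈ segs cs)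
    (hf : ∀ s' ∈ segs cs, s ≠ s' → Far G (flat cs).toFinset (hd s) (hd s') 2)
    (hg : ∃ s' ∈ segs cs, 2 ≤ s'.1.length) (hL : L + 1 + max k (2 * t) ≤ 2 * k) :
    ∃ J, Ind G J ∧ J.card = 3 ∧ ∀ y ∈ J, Near G (flat cs).toFinset (hd s) 3 y := by
  obtain ⟨a, b, e1, e2, e3, e4⟩ := h.two hb hs (fun s' h1 h2 => (hf s' h1 h2).mono (by omega))
    (Or.inr (Or.inl hg))
  have h4 : ((flat cs).toFinset.filter fun v => (G.Adj a v ∨ G.Adj b v) ∧ v ∉ (∅ : Finset V)) ⊆
      insert (hd s) (tls cs).toFinset := by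
    intro v hv
    obtain ⟨h1, h2 | h2, -⟩ := mem_filter.1 hv
    · exact nbr_sub e3 hf h1 h2
    · exact nbr_sub e4 hf h1 h2
  have h5 := h.card_tls
  have h7 := (card_le_card h4).trans (card_insert_le _ _)
  obtain ⟨J, j1, j2, j3⟩ := ball_triple hb hk h.opt.clq (flat cs).toFinset e1 e2 ∅ (by omega)
  refine ⟨J, j1, j2, fun y hy => ?_⟩
  rcases j3 y hy with h1 | h1 | h1 | ⟨h1, h2 | h2⟩
  · exact h1 ▸ e3.mono (by omega)
  · exact h1 ▸ e4.mono (by omega)
  · simp at h1
  · exact e3.step h1 h2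
  · exact e4.step h1 h2

theorem Str.gen_a (h : Str G k t L O Q cs) (hb : Bad G k) (sig : k + 1 ≤ 2 * t)
    (ha : AllOK ((lens cs).count 1) ((lens cs).count 2) ((lens cs).count 3) ((lens cs).count 4)
      (k + 1 - t - L + zz cs) (zz cs)) : False := by
  have hf : ∀ s ∈ segs cs, ∀ s' ∈ segs cs, s ≠ s' →
      Far G (flat cs).toFinset (hd s) (hd s') 4 := fun s hs s' hs' hne =>
    h.far_cover hs hs' hne 4 (ha _ _ _ (triv_le hs hs' hne)
      (Nat.add_le_add (triv_ind cs s) (triv_ind cs s'))).cover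
  have hf1 : ∀ s ∈ segs cs, ∀ s' ∈ segs cs, s ≠ s' →
      Far G (flat cs).toFinset (hd s) (hd s') 1 := fun s hs s' hs' hne =>
    (hf s hs s' hs' hne).mono (by omega)
  have hpair : ∀ {p : V → Prop} {a b : V}, a ≠ b → ¬ G.Adj a b → p a → p b →
      ∃ J, Ind G J ∧ J.card = 2 ∧ ∀ y ∈ J, p y := by
    intro p a b h1 h2 h3 h4
    exact ⟨{a, b}, ind_pair h2, card_pair h1, by simp [h3, h4]⟩
  have hlen := h.len_segs
  by_cases hg : L + t + 1 ≤ k ∨ ∃ s' ∈ segs cs, 2 ≤ s'.1.length
  · obtain ⟨J, j1, j2, -⟩ := items_list (G := G)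
      ((segs cs).map fun s => (2, Near G (flat cs).toFinset (hd s) 2)) (by
        intro x hx
        obtain ⟨s, hs, rfl⟩ := List.mem_map.1 hx
        obtain ⟨a, b, e1, e2, e3, e4⟩ := h.two hb hs (hf1 s hs) (hg.imp_right Or.inl)
        exact hpair e1 e2 e3 e4) (by
        rw [List.pairwise_map]
        exact h.nodup_segs.pairwise_of_forall_ne fun s hs s' hs' hne y y' h1 h2 =>
          h1.cross h2 (hf s hs s' hs' hne))
    have := hb.ind J j1
    simp only [List.map_map, Function.comp_def, List.map_const', List.sum_replicate,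
      smul_eq_mul] at j2
    omega
  · obtain ⟨c, cs', e⟩ : ∃ c cs', cs = c :: cs' := by
      cases cs with
      | nil => simp [segs] at hlen; omega
      | cons c cs' => exact ⟨c, cs', rfl⟩
    have e1 : segs cs = ([], c.1) :: (c.2 ++ segs cs') := by rw [e, segs_cons]
    generalize c.2 ++ segs cs' = l at e1
    have hnd := h.nodup_segs
    have hsum := sum_segs id rfl cs
    simp only [id] at hsum
    rw [h.sumL, e1] at hsum
    rw [e1] at hlen hnd
    rw [List.nodup_cons] at hnd
    have hl : ∀ s ∈ l, s ∈ segs cs := fun s hs => by simp [e1, hs]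
    have h0 : ([], c.1) ∈ segs cs := by simp [e1]
    obtain ⟨J, j1, j2, -⟩ := items_list (G := G)
      ((2, fun y => y = hd ([], c.1) ∨ Near G (flat cs).toFinset (hd ([], c.1)) 2 y) ::
        l.map fun s => (s.1.length + 1, Near G (flat cs).toFinset (hd s) 2)) (by
        intro x hx
        rcases List.mem_cons.1 hx with rfl | hx
        · obtain ⟨a, b, e1, e2, e3, e4⟩ := h.two_self hb h0 (hf1 _ h0)
          exact hpair (p := fun y => y = hd ([], c.1) ∨
            Near G (flat cs).toFinset (hd ([], c.1)) 2 y) e1 e2 e3 e4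
        · obtain ⟨s, hs, rfl⟩ := List.mem_map.1 hx
          by_cases h1 : s.1.length = 1
          · obtain ⟨a, b, e1, e2, e3, e4⟩ := h.two hb (hl s hs) (hf1 s (hl s hs))
              (Or.inr (Or.inr h1))
            rw [h1]
            exact hpair e1 e2 e3 e4
          · have h2 : s.1.length = 0 := by
              by_contra h3
              exact hg (Or.inr ⟨s, hl s hs, by omega⟩)
            obtain ⟨x, h3, h4⟩ := h.one hb (hl s hs)
            exact ⟨{x}, by simp [Ind], by simp [h2], by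
              simpa using (Near.one h3 h4).mono (by omega)⟩) (by
        rw [List.pairwise_cons, List.pairwise_map]
        refine ⟨fun x hx y y' h1 h2 => ?_, hnd.2.pairwise_of_forall_ne
          fun s hs s' hs' hne y y' h1 h2 => h1.cross h2 (hf s (hl s hs) s' (hl s' hs') hne)⟩
        obtain ⟨s, hs, rfl⟩ := List.mem_map.1 hx
        have h3 := hf _ h0 s (hl s hs) fun e => hnd.1 (e ▸ hs)
        rcases h1 with h1 | h1
        · rw [h1]
          exact ⟨fun e => h2.notMem (e ▸ List.mem_toFinset.2 (hd_mem h0)),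
            fun e => h2.not_adj (h3.symm.mono (by omega)) e.symm⟩
        · exact h1.cross h2 h3)
    have := hb.ind J j1
    have h5 := h.le
    simp only [List.map_cons, List.map_map, Function.comp_def, List.sum_cons, List.sum_map_add,
      List.map_const', List.sum_replicate, smul_eq_mul, List.length_nil, List.length_cons]
      at j2 hsum hlen
    omega

theorem Str.gen_b (h : Str G k t L O Q cs) (hb : Bad G k) (sig : k + 1 ≤ 2 * t)
    (hz : 1 ≤ zz cs) (hz' : zz cs ≤ 2) (h2 : 4 ≤ (lens cs).count 2) : False := by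
  have hle := h.le
  have hind : ∀ a i, ind a i ≤ 1 := fun a i => by rw [ind_eq]; split_ifs <;> omega
  have hf6 : ∀ s ∈ segs cs, ∀ s' ∈ segs cs, s ≠ s' → ¬ Triv cs s → ¬ Triv cs s' →
      Far G (flat cs).toFinset (hd s) (hd s') 6 := by
    intro s hs s' hs' hne t1 t2
    refine h.far_cover hs hs' hne 6 fun r r1 r2 => ⟨0, (r - 1) / 2, 0, 0, ?_⟩
    have := hind s.1.length 2
    have := hind s'.1.length 2
    rw [if_neg t1, if_neg t2]
    omega
  have hf1 : ∀ s ∈ segs cs, ∀ s' ∈ segs cs, s ≠ s' →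
      Far G (flat cs).toFinset (hd s) (hd s') 1 := by
    intro s hs s' hs' hne
    refine h.far_cover hs hs' hne 1 fun r r1 r2 => ⟨0, 0, 0, 0, ?_⟩
    have := triv_le hs hs' hne
    omega
  have hf2 : ∀ s ∈ segs cs, s.1.length = 2 → ∀ s' ∈ segs cs, s ≠ s' →
      Far G (flat cs).toFinset (hd s) (hd s') 2 := by
    intro s hs e s' hs' hne
    refine h.far_cover hs hs' hne 2 fun r r1 r2 => ⟨0, r / 2, 0, 0, ?_⟩
    have := triv_le hs hs' hne
    have := hind s.1.length 2
    have := hind s'.1.length 2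
    have := hind s'.1.length 0
    have : ind s.1.length 0 = 0 := by simp [e, ind_eq]
    omega
  have hsum := sum_segs (fun n => ind n 2) rfl cs
  have hcnt : ∀ l : List ℕ, (l.map fun n => ind n 2).sum = l.count 2 ∧ 2 * l.count 2 ≤ l.sum := by
    intro l
    induction l with
    | nil => simp
    | cons a l ih =>
      simp only [List.map_cons, List.sum_cons, List.count_cons, ind_eq, beq_iff_eq] at ih ⊢
      split_ifs <;> omega
  have hc := hcnt (lens cs)
  have hL : (lens cs).sum = L := h.sumL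
  have hg : ∃ s' ∈ segs cs, 2 ≤ s'.1.length := by
    obtain ⟨s, h3, h4⟩ := List.mem_map.1 (List.count_pos_iff.1 (show 0 < (lens cs).count 2 by omega))
    exact ⟨s, (ex_sublist cs).subset h3, h4.ge⟩
  obtain ⟨J, j1, j2, -⟩ := items_list (G := G)
    ((segs cs).map fun s => (if Triv cs s then 0 else 2 + ind s.1.length 2,
      fun y => ¬ Triv cs s ∧ Near G (flat cs).toFinset (hd s) 3 y)) (by
      intro x hx
      obtain ⟨s, hs, rfl⟩ := List.mem_map.1 hx
      by_cases t1 : Triv cs s
      · exact ⟨∅, by simp [Ind], by simp [t1], by simp⟩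
      · by_cases e : s.1.length = 2
        · obtain ⟨J, j1, j2, j3⟩ := h.three hb (by omega) hs (hf2 s hs e) hg (by omega)
          exact ⟨J, j1, by simp [t1, j2, e, ind_eq], fun y hy => ⟨t1, j3 y hy⟩⟩
        · obtain ⟨a, b, e1, e2, e3, e4⟩ := h.two hb hs (hf1 s hs) (Or.inr (Or.inl hg))
          exact ⟨{a, b}, ind_pair e2, by simp [t1, e, ind_eq, card_pair e1], by
            simpa [t1] using ⟨e3.mono (by omega), e4.mono (by omega)⟩⟩) (by
      rw [List.pairwise_map]
      exact h.nodup_segs.pairwise_of_forall_ne fun s hs s' hs' hne y y' h1 h2 =>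
        h1.2.cross h2.2 (hf6 s hs s' hs' hne h1.1 h2.1))
  have h3 := hb.ind J j1
  have h4 := Str.card_triv cs
  rw [card_filter, List.sum_toFinset _ h.nodup_segs] at h4
  have h5 : ∀ l : List (Seg V), 2 * l.length + (l.map fun s => ind s.1.length 2).sum ≤
      (l.map fun s => if Triv cs s then 0 else 2 + ind s.1.length 2).sum +
        2 * (l.map fun s => if Triv cs s then 1 else 0).sum := by
    intro l
    induction l with
    | nil => simp
    | cons s l ih =>
      simp only [List.map_cons, List.sum_cons, List.length_cons]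
      by_cases t1 : Triv cs s
      · have : ind s.1.length 2 = 0 := by simp [t1.1, ind_eq]
        simp only [t1, if_true] at ih ⊢
        omega
      · simp only [t1, if_false] at ih ⊢
        omega
  have h6 := h5 (segs cs)
  have h7 := h.len_segs
  simp only [lens, List.map_map, Function.comp_def] at j2 hc h2
  omega

theorem Str.gen_large (h : Str G k t L O Q cs) (hb : Bad G k) (sig : k + 1 ≤ 2 * t)
    (ht : 11 ≤ t) : False := by
  have h1 : ∀ l : List ℕ, (∀ a ∈ l, 1 ≤ a) →
      5 * l.length ≤ l.sum + 4 * l.count 1 + 3 * l.count 2 + 2 * l.count 3 + l.count 4 ∧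
      l.count 1 + l.count 2 + l.count 3 + l.count 4 ≤ l.length := by
    intro l hl
    induction l with
    | nil => simp
    | cons a l ih =>
      have h2 := ih fun b hb => hl b (by simp [hb])
      have h3 := hl a (by simp)
      simp only [List.sum_cons, List.count_cons, List.length_cons, beq_iff_eq]
      split_ifs <;> omega
  have h2 := h1 (lens cs) fun a ha => by
    obtain ⟨s, h3, rfl⟩ := List.mem_map.1 ha
    exact List.length_pos_iff.2 (h.ne_ex h3)
  have h3 : ∀ cs : List (Comp V), zz cs ≤ cs.length ∧ cs.length ≤ zz cs + (ex cs).length := by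
    intro cs
    induction cs with
    | nil => simp [zz]
    | cons c cs ih =>
      have : ex (c :: cs) = c.2 ++ ex cs := by simp [ex]
      unfold zz at ih ⊢
      rw [this, List.countP_cons, List.length_append, List.length_cons]
      cases c.2 <;> simp <;> omega
  have h4 := h3 cs
  have h5 := length_segs cs
  have h6 := h.len_segs
  have h7 := h.le
  have hL : (lens cs).sum = L := h.sumL
  have h8 : (lens cs).length = (ex cs).length := List.length_map _
  rcases allOK_large (c := cs.length - zz cs) (z := zz cs) (D := k + 1 - t - L) (L := L) ht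
    (by omega) (by omega) (hL ▸ h2.1) h2.2 (by omega) (by omega) with h9 | h9
  · exact h.gen_a hb sig h9
  · exact h.gen_b hb sig h9.1 h9.2.1 h9.2.2

end Vale.Agent.P048
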