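import Vale.Agent.P048.Check
import Vale.Agent.P048.Gen

/-! The initial state of the checker, read off from the shape of an optimal path. -/

namespace Vale.Agent.P048

open Finset

def qf (pat : List (List ℕ)) : List Bool :=
  pat.flatMap fun c => true :: c.flatMap fun l => List.replicate l false ++ [true]

def q0 (pat : List (List ℕ)) : ℕ := msk (fun i => (qf pat).getD i false) (qf pat).length

def ipairs (q n : ℕ) : List (ℕ × ℕ) :=
  (List.range n).flatMap fun j =>
    ((List.range j).filter fun i => Nat.beq (i + 1) j || (tb q i && tb q j)).map fun i => (i, j)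

def good (k t : ℕ) (pat : List (List ℕ)) (c : Cert) : Bool :=
  chk k t pat.flatten.sum (pat.flatten.map fun n => n - 1).sum (q0 pat) c (qf pat).length
    (setAll (ipairs (q0 pat) (qf pat).length) 0) 0

/-- the pattern has a certificate -/
def Has (x : ℕ × ℕ × List (List ℕ)) : Prop := ∃ c, good x.1 x.2.1 x.2.2 c = true

variable {V : Type}

def shape (c : Comp V) : List ℕ := c.2.map fun s => s.1.length

theorem flatten_shape (cs : List (Comp V)) : (cs.map shape).flatten = lens cs := by
  simp only [lens, ex, List.flatMap_def, List.map_flatten, List.map_map]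
  rfl

variable [DecidableEq V] {G : SimpleGraph V} {k t L O : ℕ} {Q : Finset V} {cs : List (Comp V)}

theorem flags_flatE {l : List (Seg V)} (h : ∀ s ∈ l, SegOK Q s) :
    (flatE l).map (fun v => decide (v ∈ Q)) =
      (l.map fun s => s.1.length).flatMap fun l => List.replicate l false ++ [true] := by
  induction l with
  | nil => rfl
  | cons s l ih =>
    obtain ⟨h1, h2⟩ := h s (by simp)
    have h3 : s.1.map (fun v => decide (v ∈ Q)) = List.replicate s.1.length false := by
      rw [List.eq_replicate_iff]
      simpa using h1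
    rw [flatE_cons, List.map_append, List.map_cons, ih fun x hx => h x (by simp [hx]), h3]
    simp [h2]

theorem flags_flat (h : ∀ c ∈ cs, CompOK G Q c) :
    (flat cs).map (fun v => decide (v ∈ Q)) = qf (cs.map shape) := by
  induction cs with
  | nil => rfl
  | cons c cs ih =>
    obtain ⟨h1, h2, -⟩ := h c (by simp)
    rw [flat_cons, List.map_append, List.map_cons, ih fun x hx => h x (by simp [hx]),
      flags_flatE h2]
    simp [qf, h1, shape]

variable [Fintype V] [DecidableRel G.Adj]

theorem Str.not_has (h : Str G k t L O Q cs) (hb : Bad G k) (v : V) {pat : List (List ℕ)}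
    (hp : (cs.map shape).Perm pat) (hx : Has (k, t, pat)) : False := by
  obtain ⟨cs', h1, h2⟩ : ∃ cs', cs.Perm cs' ∧ cs'.map shape = pat := by
    have := List.eq_map_comp_perm (shape (V := V))
    have h3 : (fun a b => a.Perm (List.map shape b)) pat cs := hp.symm
    rw [← this] at h3
    obtain ⟨cs', h4, h5⟩ := h3
    exact ⟨cs', h5.symm, h4.symm⟩
  replace h := h.perm h1
  clear h1 hp
  subst h2
  obtain ⟨c, hc⟩ := hx
  have e1 : (lens cs').sum = L := h.sumL
  have e2 : ((lens cs').map fun n => n - 1).sum = O := by
    rw [← h.sumO, lens, List.map_map]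
    rfl
  have e3 := flags_flat h.ok
  have e4 : (qf (cs'.map shape)).length = (flat cs').length := by rw [← e3, List.length_map]
  simp only [good, flatten_shape, e1, e2, e4] at hc
  have hφ : ∀ (i : ℕ) (hi : i < (flat cs').length), (flat cs').getD i v = (flat cs')[i] :=
    fun i hi => by simp [hi]
  have m : Mod G Q (q0 (cs'.map shape)) (fun i => (flat cs').getD i v) (flat cs').length 0 0 := by
    refine ⟨fun i hi j hj e => ?_, by simp [bit_zero], by simp [bit_zero], fun i => ?_,
      fun x hx => ?_⟩
    · rw [hφ i hi, hφ j hj] at e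
      exact h.nd.getElem_inj_iff.1 e
    · rw [q0, tb_msk, e4, ← e3]
      refine and_congr_right fun hi => ?_
      simp [hi]
    · obtain ⟨i, hi, e⟩ := List.getElem_of_mem (h.cov x hx)
      exact mem_XX.2 ⟨i, hi, (hφ i hi).trans e⟩
  refine chk_sound ⟨hb, h.opt, h.clq, h.card⟩ c (m.allE fun p hp => ?_) hc
  simp only [ipairs, List.mem_flatMap, List.mem_range, List.mem_map, List.mem_filter,
    Bool.or_eq_true, Bool.and_eq_true, Nat.beq_eq] at hp
  obtain ⟨j, hj, i, ⟨hi, e⟩, rfl⟩ := hp
  refine ⟨by omega, hj, ?_⟩
  rcases e with rfl | e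
  · rw [hφ _ hj, hφ _ (by omega)]
    exact List.isChain_iff_getElem.1 (isChain_adj h.clq h.nd h.sys.ch) i hj
  · exact h.clq _ ((m.qq i).1 e.1).2 _ ((m.qq j).1 e.2).2 fun e' => by
      have := m.inj i (by omega) j hj e'
      omega

end Vale.Agent.P048
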