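import Vale.Agent.P048.Defs

namespace Vale.Agent.P048

open Finset

variable {V : Type} [Fintype V] [DecidableEq V] {G : SimpleGraph V} [DecidableRel G.Adj]

namespace LongCyc

/-- a path inside `W` -/
def Pth (G : SimpleGraph V) (W : Finset V) (p : List V) : Prop :=
  p.Nodup ∧ p.IsChain G.Adj ∧ ∀ v ∈ p, v ∈ W

omit [Fintype V] [DecidableRel G.Adj] in
theorem Pth.length_le {W : Finset V} {p : List V} (h : Pth G W p) : p.length ≤ W.card := by
  rw [← List.toFinset_card_of_nodup h.1]
  exact card_le_card fun v hv => h.2.2 v (List.mem_toFinset.1 hv)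

theorem exists_max {α : Type} (P : α → Prop) (f : α → ℕ) (N : ℕ) (hN : ∀ a, P a → f a ≤ N)
    (h : ∃ a, P a) : ∃ a, P a ∧ ∀ b, P b → f b ≤ f a := by
  induction N with
  | zero =>
    obtain ⟨a, ha⟩ := h
    exact ⟨a, ha, fun b hb => (hN b hb).trans (Nat.zero_le _)⟩
  | succ N ih =>
    by_cases h1 : ∃ a, P a ∧ f a = N + 1
    · obtain ⟨a, ha, e⟩ := h1
      exact ⟨a, ha, fun b hb => e ▸ hN b hb⟩
    · exact ih fun a ha => Nat.le_of_lt_succ (lt_of_le_of_ne (hN a ha) fun e => h1 ⟨a, ha, e⟩)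

omit [Fintype V] [DecidableRel G.Adj] in
theorem mem_of_max {W : Finset V} {n : ℕ} (hn : ∀ q, Pth G W q → q.length ≤ n) {s v : V}
    {r : List V} (h : Pth G W (s :: r)) (hl : (s :: r).length = n) (hv : v ∈ W)
    (ha : G.Adj s v) : v ∈ r := by
  by_contra hc
  have h1 : Pth G W (v :: s :: r) := ⟨List.nodup_cons.2 ⟨by simp [hc, ha.ne'], h.1⟩,
    List.isChain_cons_cons.2 ⟨ha.symm, h.2.1⟩, fun u hu => by
      rcases List.mem_cons.1 hu with rfl | hu
      · exact hv
      · exact h.2.2 u hu⟩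
  have := hn _ h1
  rw [List.length_cons, hl] at this
  omega

/-- an initial segment of a longest path that closes up to a cycle -/
def Seg (G : SimpleGraph V) (W : Finset V) (n : ℕ) (A : List V) : Prop :=
  ∃ T s B z, A = s :: (B ++ [z]) ∧ G.Adj s z ∧ Pth G W (A ++ T) ∧ (A ++ T).length = n

omit [Fintype V] [DecidableRel G.Adj] in
theorem good_of {W : Finset V} {n : ℕ} (hn : ∀ q, Pth G W q → q.length ≤ n) {A T : List V}
    (hA : Pth G W (A ++ T)) (hl : (A ++ T).length = n)
    (hm : ∀ A', Seg G W n A' → A'.length ≤ A.length) {x : V} {r : List V} (hp : (x :: r).Perm A)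
    (hc : (x :: r).IsChain G.Adj) (hlast : (x :: r).getLast? = A.getLast?) :
    ∀ v ∈ W, G.Adj x v → v ∈ A := by
  intro v hv ha
  have hp' := hp.append_right T
  have h1 : Pth G W (x :: (r ++ T)) := by
    refine ⟨hp'.nodup_iff.2 hA.1, ?_, fun u hu => hA.2.2 u (hp'.subset hu)⟩
    obtain ⟨-, h2, h3⟩ := List.isChain_append.1 hA.2.1
    exact List.isChain_append.2 ⟨hc, h2, hlast ▸ h3⟩
  have hl' : (x :: (r ++ T)).length = n := hp'.length_eq.trans hl
  rcases List.mem_append.1 (mem_of_max hn h1 hl' hv ha) with h | h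
  · exact hp.subset (List.mem_cons_of_mem _ h)
  · obtain ⟨T1, T2, rfl⟩ := List.append_of_mem h
    have e : x :: (r ++ T1 ++ [v]) ++ T2 = x :: (r ++ (T1 ++ v :: T2)) := by simp
    have := hm (x :: (r ++ T1 ++ [v])) ⟨T2, x, r ++ T1, v, rfl, ha, e ▸ h1, e ▸ hl'⟩
    rw [← hp.length_eq] at this
    simp only [List.length_cons, List.length_append] at this
    omega

omit [Fintype V] [DecidableRel G.Adj] in
theorem good_rot {W : Finset V} {n : ℕ} (hn : ∀ q, Pth G W q → q.length ≤ n) {A T : List V}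
    (hA : Pth G W (A ++ T)) (hl : (A ++ T).length = n)
    (hm : ∀ A', Seg G W n A' → A'.length ≤ A.length) {B C : List V} {u y s : V}
    (e : A = B ++ u :: y :: C) (hs : s ∈ A.head?) (ha : G.Adj s y) :
    ∀ v ∈ W, G.Adj u v → v ∈ A := by
  have hc := hA.2.1.left_of_append
  rw [e] at hc hs
  obtain ⟨h1, -, h2⟩ := List.isChain_append_cons_cons.1 hc
  have e1 : u :: (B.reverse ++ y :: C) = (B ++ [u]).reverse ++ y :: C := by simp
  refine good_of hn hA hl hm (r := B.reverse ++ y :: C) ?_ ?_ ?_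
  · rw [e1, e]
    simpa using (List.reverse_perm (B ++ [u])).append_right (y :: C)
  · rw [e1]
    refine List.isChain_append.2 ⟨List.isChain_reverse.2 (h1.imp fun a b h => h.symm), h2, ?_⟩
    intro a h3 b h4
    rw [List.getLast?_reverse] at h3
    obtain rfl : y = b := by simpa using h4
    obtain rfl : a = s := by
      cases B with
      | nil => simp_all
      | cons c B => simp_all
    exact ha
  · have e2 : B ++ u :: y :: C = (B ++ [u]) ++ y :: C := by simp
    rw [e1, e, e2, List.getLast?_append_cons, List.getLast?_append_cons]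

omit [Fintype V] [DecidableEq V] [DecidableRel G.Adj] in
theorem cyc_iff {a : V} {L : List V} :
    Cyc G (a :: L) ↔ (a :: L).Nodup ∧ (a :: (L ++ [a])).IsChain G.Adj := by
  rw [← List.cons_append, List.isChain_append]
  simp [Cyc]

omit [Fintype V] [DecidableEq V] in
theorem shrink {B : Finset V} (hB : ∀ a ∈ B, ∀ b ∈ B, ∀ c ∈ B, a ≠ b → a ≠ c → b ≠ c →
    G.Adj a b ∨ G.Adj a c ∨ G.Adj b c) {l : List V} (hl : Cyc G l) (hm : ∀ v ∈ l, v ∈ B)
    (h6 : 6 ≤ l.length) :
    ∃ l', Cyc G l' ∧ (∀ v ∈ l', v ∈ B) ∧ l'.length + 1 = l.length := by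
  obtain ⟨a0, a1, a2, a3, a4, a5, r, rfl⟩ :
      ∃ a0 a1 a2 a3 a4 a5 r, l = a0 :: a1 :: a2 :: a3 :: a4 :: a5 :: r := by
    match l, h6 with
    | a0 :: a1 :: a2 :: a3 :: a4 :: a5 :: r, _ => exact ⟨a0, a1, a2, a3, a4, a5, r, rfl⟩
  obtain ⟨hn, hc⟩ := cyc_iff.1 hl
  simp only [List.cons_append, List.isChain_cons_cons] at hc
  obtain ⟨e01, e12, e23, e34, e45, hc⟩ := hc
  have sub : ∀ l' : List V, (a0 :: l').Sublist (a0 :: a1 :: a2 :: a3 :: a4 :: a5 :: r) →
      (a0 :: (l' ++ [a0])).IsChain G.Adj → l'.length = r.length + 4 →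
      ∃ l', Cyc G l' ∧ (∀ v ∈ l', v ∈ B) ∧
        l'.length + 1 = (a0 :: a1 :: a2 :: a3 :: a4 :: a5 :: r).length := fun l' h1 h2 h3 =>
    ⟨a0 :: l', cyc_iff.2 ⟨hn.sublist h1, h2⟩, fun v hv => hm v (h1.subset hv), by simp [h3]⟩
  have hn' := hn
  simp only [List.nodup_cons, List.mem_cons, not_or] at hn'
  by_cases c02 : G.Adj a0 a2
  · exact sub (a2 :: a3 :: a4 :: a5 :: r) (by simp) (by simp [*]) rfl
  by_cases c24 : G.Adj a2 a4
  · exact sub (a1 :: a2 :: a4 :: a5 :: r) (by simp) (by simp [*]) rfl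
  by_cases c13 : G.Adj a1 a3
  · exact sub (a1 :: a3 :: a4 :: a5 :: r) (by simp) (by simp [*]) rfl
  by_cases c35 : G.Adj a3 a5
  · exact sub (a1 :: a2 :: a3 :: a5 :: r) (by simp) (by simp [*]) rfl
  have c04 : G.Adj a0 a4 := by
    have := hB a0 (hm _ (by simp)) a2 (hm _ (by simp)) a4 (hm _ (by simp)) (by tauto) (by tauto)
      (by tauto)
    tauto
  have c15 : G.Adj a1 a5 := by
    have := hB a1 (hm _ (by simp)) a3 (hm _ (by simp)) a5 (hm _ (by simp)) (by tauto) (by tauto)
      (by tauto)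
    tauto
  cases r with
  | nil => exact sub [a1, a2, a3, a4] (by simp) (by simp [*, c04.symm]) rfl
  | cons a6 r =>
    obtain ⟨x, R, hx⟩ : ∃ x R, r ++ [a0] = x :: R := by
      cases r with
      | nil => exact ⟨a0, [], rfl⟩
      | cons b r => exact ⟨b, r ++ [a0], rfl⟩
    have hxm : x ∈ r ∨ x = a0 := by
      have : x ∈ r ++ [a0] := hx ▸ List.mem_cons_self
      simpa using this
    simp only [List.cons_append, hx, List.isChain_cons_cons] at hc
    obtain ⟨e56, e6x, hc⟩ := hc
    simp only [List.mem_cons, not_or] at hn'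
    by_cases c57 : G.Adj a5 x
    · exact sub (a1 :: a2 :: a3 :: a4 :: a5 :: r) (by simp) (by simp [*]) rfl
    have c37 : G.Adj a3 x := by
      have := hB a3 (hm _ (by simp)) a5 (hm _ (by simp)) x
        (hm _ (by rcases hxm with h | h <;> simp [h])) (by tauto)
        (by rintro rfl; rcases hxm with h | h <;> tauto)
        (by rintro rfl; rcases hxm with h | h <;> tauto)
      tauto
    have hp : (a0 :: a4 :: a5 :: a1 :: a2 :: a3 :: r).Perm (a0 :: a1 :: a2 :: a3 :: a4 :: a5 :: r) :=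
      .cons _ ((List.perm_append_comm (l₁ := [a4, a5]) (l₂ := [a1, a2, a3])).append_right r)
    have hs : (a0 :: a1 :: a2 :: a3 :: a4 :: a5 :: r).Sublist
      (a0 :: a1 :: a2 :: a3 :: a4 :: a5 :: a6 :: r) := by simp
    exact ⟨_, cyc_iff.2 ⟨hp.nodup_iff.2 (hn.sublist hs), by simp [*, c15.symm]⟩,
      fun v hv => hm v (hs.subset (hp.subset hv)), rfl⟩

end LongCyc

open LongCyc

/-- A large clique or a long cycle. -/
theorem long_cycle (W : Finset V) (hW : W.Nonempty) (d M : ℕ) (hd : 2 ≤ d)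
    (h1 : ∀ x ∈ W, d ≤ (W ∩ nb G {x}).card)
    (h2 : ∀ x ∈ W, ∀ y ∈ W, x ≠ y → ¬ G.Adj x y → M ≤ (W ∩ nb G {x, y}).card) :
    (∃ K ⊆ W, Clq G K ∧ d ≤ K.card) ∨
      ∃ l : List V, Cyc G l ∧ (∀ v ∈ l, v ∈ W) ∧ M ≤ l.length ∧
        ∀ s ∈ l.head?, ∀ v ∈ W, G.Adj s v → v ∈ l := by
  obtain ⟨w, hw⟩ := hW
  have hw1 : Pth G W [w] := ⟨by simp, by simp, by simpa using hw⟩
  obtain ⟨p, hp, hn⟩ := exists_max (Pth G W) List.length W.card (fun _ h => h.length_le) ⟨_, hw1⟩
  obtain ⟨A, ⟨T, s, B, z, e, hsz, hA, hl⟩, hm⟩ := exists_max (Seg G W p.length) List.length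
    p.length (by
      rintro A ⟨T, s, B, z, -, -, -, hl⟩
      rw [← hl, List.length_append]
      omega) (by
      cases p with
      | nil => simpa using hn _ hw1
      | cons s r =>
        obtain ⟨y, hy, hys⟩ := exists_mem_ne (s := W ∩ nb G {s})
          (by have := h1 s (hp.2.2 s (by simp)); omega) s
        have ha : G.Adj s y := (mem_nb_one.1 (mem_inter.1 hy).2).resolve_left hys
        obtain ⟨B, T, rfl⟩ := List.append_of_mem (mem_of_max hn hp rfl (mem_inter.1 hy).1 ha)
        exact ⟨_, T, s, B, y, rfl, ha, by simpa using hp, by simp⟩)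
  have hAW : ∀ v ∈ A, v ∈ W := fun v hv => hA.2.2 v (List.mem_append_left _ hv)
  have hAn : A.Nodup := hA.1.of_append_left
  have hAc : A.IsChain G.Adj := hA.2.1.left_of_append
  have hs : s ∈ A.head? := by simp [e]
  have gs : ∀ v ∈ W, G.Adj s v → v ∈ A :=
    good_of hn hA hl hm (r := B ++ [z]) (e ▸ List.Perm.refl _) (e ▸ hAc) (by rw [e])
  by_cases hM : M ≤ A.length
  · refine Or.inr ⟨A, ⟨hAn, hAc, fun a ha b hb => ?_⟩, hAW, hM, fun s' hs' => ?_⟩
    · rw [e, ← List.cons_append, List.getLast?_concat] at ha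
      obtain rfl : z = a := by simpa using ha
      obtain rfl : s = b := by simpa [e] using hb
      exact hsz.symm
    · obtain rfl : s = s' := by simpa [e] using hs'
      exact gs
  left
  have hcard : A.toFinset.card = A.length := List.toFinset_card_of_nodup hAn
  have hadj : ∀ x ∈ A, ∀ y ∈ A, (∀ v ∈ W, G.Adj x v → v ∈ A) → (∀ v ∈ W, G.Adj y v → v ∈ A) →
      x ≠ y → G.Adj x y := by
    intro x hx y hy gx gy hne
    by_contra hc
    refine hM ((h2 x (hAW x hx) y (hAW y hy) hne hc).trans (hcard ▸ card_le_card fun v hv => ?_))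
    obtain ⟨v1, v2⟩ := mem_inter.1 hv
    rcases mem_nb_two.1 v2 with rfl | rfl | h | h
    · exact List.mem_toFinset.2 hx
    · exact List.mem_toFinset.2 hy
    · exact List.mem_toFinset.2 (gx v v1 h)
    · exact List.mem_toFinset.2 (gy v v1 h)
  have hsA : s ∈ A := by simp [e]
  have hgood : ∀ (C D : List V) (u y : V), A = D ++ u :: y :: C → ∀ v ∈ W, G.Adj u v → v ∈ A := by
    intro C
    induction C with
    | nil =>
      intro D u y e'
      refine good_rot hn hA hl hm e' hs ?_
      have e2 : (s :: B) ++ [z] = (D ++ [u]) ++ [y] := by simpa [e] using e'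
      obtain rfl : z = y := by simpa using (List.append_inj' e2 rfl).2
      exact hsz
    | cons y' C ih =>
      intro D u y e'
      refine good_rot hn hA hl hm e' hs (hadj s hsA y (by simp [e']) gs
        (ih (D ++ [u]) y y' (by simp [e'])) ?_)
      rintro rfl
      rw [e'] at hAn hs
      cases D with
      | nil =>
        obtain rfl : u = s := by simpa using hs
        simp at hAn
      | cons c D =>
        obtain rfl : c = s := by simpa using hs
        simp at hAn
  have hgood' : ∀ u ∈ s :: B, ∀ v ∈ W, G.Adj u v → v ∈ A := by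
    intro u hu
    obtain ⟨D, C, e'⟩ := List.append_of_mem hu
    have e2 : A = D ++ u :: (C ++ [z]) := by
      rw [e, ← List.cons_append, e']
      simp
    cases C with
    | nil => exact hgood [] D u z e2
    | cons y C => exact hgood (C ++ [z]) D u y e2
  have hsub : ∀ u ∈ s :: B, u ∈ A := fun u hu => by
    rw [e, ← List.cons_append]
    exact List.mem_append_left _ hu
  by_cases hd' : d ≤ (s :: B).length
  · refine ⟨(s :: B).toFinset, fun v hv => hAW v (hsub v (List.mem_toFinset.1 hv)),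
      fun a ha b hb => ?_, ?_⟩
    · rw [List.mem_toFinset] at ha hb
      exact hadj a (hsub a ha) b (hsub b hb) (hgood' a ha) (hgood' b hb)
    · rw [e, ← List.cons_append] at hAn
      rwa [List.toFinset_card_of_nodup hAn.of_append_left]
  · have hlen : A.length ≤ d := by
      rw [e]
      simp only [List.length_cons, List.length_append, List.length_nil] at hd' ⊢
      omega
    have heq : ∀ u ∈ s :: B, W ∩ nb G {u} = A.toFinset := by
      intro u hu
      refine eq_of_subset_of_card_le (fun v hv => List.mem_toFinset.2 ?_)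
        (hcard.le.trans (hlen.trans (h1 u (hAW u (hsub u hu)))))
      rcases mem_nb_one.1 (mem_inter.1 hv).2 with rfl | h
      · exact hsub _ hu
      · exact hgood' u hu v (mem_inter.1 hv).1 h
    have hone : ∀ u ∈ s :: B, ∀ v ∈ A.toFinset, u ≠ v → G.Adj u v := by
      intro u hu v hv hne
      rw [← heq u hu] at hv
      exact (mem_nb_one.1 (mem_inter.1 hv).2).resolve_left hne.symm
    have hcase : ∀ u ∈ A.toFinset, u ∈ s :: B ∨ u = z := by
      intro u hu
      rw [List.mem_toFinset, e, ← List.cons_append, List.mem_append] at hu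
      exact hu.imp id fun h => by simpa using h
    refine ⟨A.toFinset, fun v hv => hAW v (List.mem_toFinset.1 hv), fun a ha b hb hne => ?_,
      heq s (by simp) ▸ h1 s (hAW s hsA)⟩
    rcases hcase a ha with h | rfl
    · exact hone a h b hb hne
    · exact (hone b ((hcase b hb).resolve_right hne.symm) a ha hne.symm).symm

/-- A large set in a graph with small cliques and no cycle of length `k + 1` contains three
pairwise nonadjacent vertices. -/
theorem exists_triple {k t : ℕ} (hk : 4 ≤ k) (hc : ∀ l : List V, Cyc G l → l.length ≠ k + 1)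
    (ht : ∀ K : Finset V, Clq G K → K.card ≤ t) (B : Finset V) (h1 : k + 1 ≤ B.card)
    (h2 : 2 * t + 1 ≤ B.card) : ∃ J ⊆ B, Ind G J ∧ J.card = 3 := by
  by_contra hcon
  have hB : ∀ a ∈ B, ∀ b ∈ B, ∀ c ∈ B, a ≠ b → a ≠ c → b ≠ c →
      G.Adj a b ∨ G.Adj a c ∨ G.Adj b c := by
    intro a ha b hb c hc' ab ac bc
    by_contra hn
    simp only [not_or] at hn
    refine hcon ⟨{a, b, c}, by simp [insert_subset_iff, *], ?_, card_eq_three.2
      ⟨a, b, c, ab, ac, bc, rfl⟩⟩
    have s1 : ¬ G.Adj b a := fun h => hn.1 h.symm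
    have s2 : ¬ G.Adj c a := fun h => hn.2.1 h.symm
    have s3 : ¬ G.Adj c b := fun h => hn.2.2 h.symm
    simp [Ind, *]
  have hne : B.Nonempty := card_pos.1 (by omega)
  have ht1 : 1 ≤ t := by
    obtain ⟨x, -⟩ := hne
    simpa using ht {x} (by simp [Clq])
  rcases long_cycle (G := G) B hne (t + 1) (k + 1) (by omega) (fun x hx => by
      have h3 := ht (B \ nb G {x}) fun a ha b hb hab => by
        simp only [mem_sdiff, mem_nb_one, not_or] at ha hb
        have := hB x hx a ha.1 b hb.1 (Ne.symm ha.2.1) (Ne.symm hb.2.1) hab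
        tauto
      have h4 := card_sdiff_add_card_inter B (nb G {x})
      omega) (fun x hx y hy hxy ha => by
      refine h1.trans (card_le_card fun v hv => mem_inter.2 ⟨hv, mem_nb_two.2 ?_⟩)
      by_contra hn
      simp only [not_or] at hn
      have := hB x hx y hy v hv hxy (Ne.symm hn.1) (Ne.symm hn.2.1)
      tauto) with ⟨K, -, hK, h⟩ | ⟨l, hl, hm, hlen, -⟩
  · have := ht K hK
    omega
  · obtain ⟨n, hn⟩ : ∃ n, l.length = k + 1 + n := ⟨l.length - (k + 1), by omega⟩
    clear hlen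
    induction n generalizing l with
    | zero => exact hc l hl hn
    | succ n ih =>
      obtain ⟨l', c1, c2, c3⟩ := shrink hB hl hm (by omega)
      exact ih l' c1 c2 (by omega)

end Vale.Agent.P048
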