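import Vale.Agent.P048.Bits
import Vale.Agent.P048.Ball

/-! Labelled finite pieces of a graph, and the closing rules of the checker. -/

namespace Vale.Agent.P048

open Finset

variable {V : Type} [DecidableEq V]

/-- the labelled vertices -/
def XX (φ : ℕ → V) (n : ℕ) : Finset V := (range n).image φ

theorem mem_XX {φ : ℕ → V} {n : ℕ} {v : V} : v ∈ XX φ n ↔ ∃ i < n, φ i = v := by
  simp [XX]

theorem XX_mem {φ : ℕ → V} {n i : ℕ} (h : i < n) : φ i ∈ XX φ n := mem_XX.2 ⟨i, h, rfl⟩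

structure Mod (G : SimpleGraph V) (Q : Finset V) (q : ℕ) (φ : ℕ → V) (n E N : ℕ) : Prop where
  inj : ∀ i < n, ∀ j < n, φ i = φ j → i = j
  adj : ∀ i j, bit E i j = true → i < n ∧ j < n ∧ G.Adj (φ i) (φ j)
  non : ∀ i j, bit N i j = true → i < n ∧ j < n ∧ ¬ G.Adj (φ i) (φ j)
  qq : ∀ i, tb q i = true ↔ i < n ∧ φ i ∈ Q
  cov : ∀ v ∈ Q, v ∈ XX φ n

variable {G : SimpleGraph V} {Q : Finset V} {q n E N k t L O : ℕ} {φ : ℕ → V}

theorem Mod.addE (h : Mod G Q q φ n E N) {a b : ℕ} (ha : a < n) (hb : b < n)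
    (hab : G.Adj (φ a) (φ b)) : Mod G Q q φ n (sb E a b) N :=
  ⟨h.inj, bit_sb (R := fun i j => i < n ∧ j < n ∧ G.Adj (φ i) (φ j))
    (fun _ _ e => ⟨e.2.1, e.1, e.2.2.symm⟩) ⟨ha, hb, hab⟩ h.adj, h.non, h.qq, h.cov⟩

theorem Mod.addN (h : Mod G Q q φ n E N) {a b : ℕ} (ha : a < n) (hb : b < n)
    (hab : ¬ G.Adj (φ a) (φ b)) : Mod G Q q φ n E (sb N a b) :=
  ⟨h.inj, h.adj, bit_sb (R := fun i j => i < n ∧ j < n ∧ ¬ G.Adj (φ i) (φ j))
    (fun _ _ e => ⟨e.2.1, e.1, fun e' => e.2.2 e'.symm⟩) ⟨ha, hb, hab⟩ h.non, h.qq, h.cov⟩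

theorem Mod.allE (h : Mod G Q q φ n E N) {l : List (ℕ × ℕ)}
    (hl : ∀ p ∈ l, p.1 < n ∧ p.2 < n ∧ G.Adj (φ p.1) (φ p.2)) : Mod G Q q φ n (setAll l E) N :=
  ⟨h.inj, bit_setAll (R := fun i j => i < n ∧ j < n ∧ G.Adj (φ i) (φ j))
    (fun _ _ e => ⟨e.2.1, e.1, e.2.2.symm⟩) hl h.adj, h.non, h.qq, h.cov⟩

theorem Mod.allN (h : Mod G Q q φ n E N) {l : List (ℕ × ℕ)}
    (hl : ∀ p ∈ l, p.1 < n ∧ p.2 < n ∧ ¬ G.Adj (φ p.1) (φ p.2)) : Mod G Q q φ n E (setAll l N) :=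
  ⟨h.inj, h.adj, bit_setAll (R := fun i j => i < n ∧ j < n ∧ ¬ G.Adj (φ i) (φ j))
    (fun _ _ e => ⟨e.2.1, e.1, fun e' => e.2.2 e'.symm⟩) hl h.non, h.qq, h.cov⟩

theorem Mod.extend (h : Mod G Q q φ n E N) (l : List V) (hl : l.Nodup)
    (hx : ∀ v ∈ l, v ∉ XX φ n) : ∃ ψ : ℕ → V, Mod G Q q ψ (n + l.length) E N ∧
      (∀ i < n, ψ i = φ i) ∧ ∀ (j : ℕ) (hj : j < l.length), ψ (n + j) = l[j] := by
  have h1 : ∃ ψ : ℕ → V, (∀ i < n, ψ i = φ i) ∧
      ∀ (j : ℕ) (hj : j < l.length), ψ (n + j) = l[j] :=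
    ⟨fun i => if i < n then φ i else l.getD (i - n) (φ 0), fun i hi => if_pos hi, fun j hj => by
      simp [hj]⟩
  obtain ⟨ψ, h1, h2⟩ := h1
  have h3 : ∀ i < n + l.length, ¬ i < n → ∃ (j : ℕ) (hj : j < l.length), i = n + j :=
    fun i hi hn => ⟨i - n, by omega, by omega⟩
  have h4 : ∀ i < n, ∀ j < n + l.length, ¬ j < n → ψ i ≠ ψ j := by
    intro i hi j hj hn e
    obtain ⟨j', hj', rfl⟩ := h3 j hj hn
    rw [h1 i hi, h2 j' hj'] at e
    exact hx _ (List.getElem_mem hj') (e ▸ XX_mem hi)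
  refine ⟨ψ, ⟨fun i hi j hj e => ?_, fun i j e => ?_, fun i j e => ?_, fun i => ?_,
    fun v hv => ?_⟩, h1, h2⟩
  · by_cases c1 : i < n <;> by_cases c2 : j < n
    · exact h.inj i c1 j c2 (by rwa [h1 i c1, h1 j c2] at e)
    · exact absurd e (h4 i c1 j hj c2)
    · exact absurd e.symm (h4 j c2 i hi c1)
    · obtain ⟨i', hi', rfl⟩ := h3 i hi c1
      obtain ⟨j', hj', rfl⟩ := h3 j hj c2
      rw [h2 i' hi', h2 j' hj'] at e
      rw [hl.getElem_inj_iff.1 e]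
  · obtain ⟨e1, e2, e3⟩ := h.adj i j e
    exact ⟨by omega, by omega, by rwa [h1 i e1, h1 j e2]⟩
  · obtain ⟨e1, e2, e3⟩ := h.non i j e
    exact ⟨by omega, by omega, by rwa [h1 i e1, h1 j e2]⟩
  · rw [h.qq]
    refine ⟨fun e => ⟨by omega, by rw [h1 i e.1]; exact e.2⟩, fun e => ?_⟩
    by_cases c : i < n
    · exact ⟨c, h1 i c ▸ e.2⟩
    · obtain ⟨j, hj, e'⟩ := mem_XX.1 (h.cov _ e.2)
      exact absurd ((h1 j hj).trans e') (h4 j hj i e.1 c)
  · obtain ⟨j, hj, e'⟩ := mem_XX.1 (h.cov _ hv)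
    exact mem_XX.2 ⟨j, by omega, (h1 j hj).trans e'⟩

theorem Mod.ext1 (h : Mod G Q q φ n E N) {x : V} (hx : x ∉ XX φ n) :
    ∃ ψ : ℕ → V, Mod G Q q ψ (n + 1) E N ∧ (∀ i < n, ψ i = φ i) ∧ ψ n = x := by
  obtain ⟨ψ, h1, h2, h3⟩ := h.extend [x] (by simp) (by simpa using hx)
  exact ⟨ψ, h1, h2, h3 0 (by simp)⟩

theorem Mod.ext2 (h : Mod G Q q φ n E N) {x y : V} (hx : x ∉ XX φ n) (hy : y ∉ XX φ n)
    (hxy : x ≠ y) : ∃ ψ : ℕ → V, Mod G Q q ψ (n + 2) E N ∧ (∀ i < n, ψ i = φ i) ∧ ψ n = x ∧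
      ψ (n + 1) = y := by
  obtain ⟨ψ, h1, h2, h3⟩ := h.extend [x, y] (by simpa using hxy) (by simpa using ⟨hx, hy⟩)
  exact ⟨ψ, h1, h2, h3 0 (by simp), h3 1 (by simp)⟩

theorem Mod.nodup (h : Mod G Q q φ n E N) {l : List ℕ} (h1 : l.Nodup) (h2 : ∀ i ∈ l, i < n) :
    (l.map φ).Nodup :=
  h1.map_on fun i hi j hj e => h.inj i (h2 i hi) j (h2 j hj) e

def chn (E : ℕ) : ℕ → List ℕ → Bool
  | _, [] => true
  | a, b :: l => bit E a b && chn E b l

theorem Mod.chain (h : Mod G Q q φ n E N) {a : ℕ} {l : List ℕ} (h1 : chn E a l = true) :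
    ((a :: l).map φ).IsChain G.Adj ∧ ∀ i ∈ l, i < n := by
  induction l generalizing a with
  | nil => simp
  | cons b l ih =>
    simp only [chn, Bool.and_eq_true] at h1
    obtain ⟨h2, h3⟩ := ih h1.2
    obtain ⟨-, h4, h5⟩ := h.adj _ _ h1.1
    exact ⟨List.isChain_cons_cons.2 ⟨h5, h2⟩, List.forall_mem_cons.2 ⟨h4, h3⟩⟩

def lst : ℕ → List ℕ → ℕ
  | a, [] => a
  | _, b :: l => lst b l

theorem lst_eq (a : ℕ) (l : List ℕ) : (a :: l).getLast? = some (lst a l) := by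
  induction l generalizing a with
  | nil => rfl
  | cons b l ih => rw [List.getLast?_cons_cons, ih, lst]

def cntT : List Bool → ℕ
  | [] => 0
  | b :: l => cond b (Nat.succ (cntT l)) (cntT l)

theorem cntT_eq (l : List Bool) : cntT l = l.count true := by
  induction l with
  | nil => rfl
  | cons b l ih => cases b <;> simp [cntT, ih]

def better (L O : ℕ) (f : List Bool) : Bool :=
  Nat.blt L (cntT f) || (Nat.ble L (cntT f) && Nat.blt O (ooB f))

def pathOK (k L O : ℕ) (isq : ℕ → Bool) (E : ℕ) : List ℕ → Bool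
  | [] => false
  | a :: l => isq a && isq (lst a l) && chn E a l && ndm 0 (a :: l) && Nat.ble l.length k &&
      better L O ((a :: l).map fun i => !isq i)

theorem Mod.path (h : Mod G Q q φ n E N) (ho : Opt G k t L O) {Q' : Finset V} (hq : Clq G Q')
    (hc : Q'.card = t) {isq : ℕ → Bool} (hi : ∀ i, isq i = true ↔ i < n ∧ φ i ∈ Q')
    {p : List ℕ} (hp : pathOK k L O isq E p = true) : False := by
  cases p with
  | nil => simp [pathOK] at hp
  | cons a l =>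
    simp only [pathOK, better, Bool.and_eq_true, Bool.or_eq_true, Nat.ble_eq, Nat.blt_eq,
      cntT_eq] at hp
    obtain ⟨⟨⟨⟨⟨h1, h2⟩, h3⟩, h4⟩, h5⟩, h6⟩ := hp
    obtain ⟨c1, c2⟩ := h.chain h3
    have c3 : ∀ i ∈ a :: l, i < n := List.forall_mem_cons.2 ⟨((hi a).1 h1).1, c2⟩
    have c4 : fl Q' ((a :: l).map φ) = (a :: l).map fun i => !isq i := by
      rw [fl, List.map_map]
      refine List.map_congr_left fun i hm => ?_
      have := hi i
      rw [Bool.eq_iff_iff]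
      simp only [Function.comp_apply, decide_eq_true_eq, Bool.not_eq_true', ← Bool.not_eq_true]
      have := c3 i hm
      tauto
    have c5 := ho.best Q' hq hc ((a :: l).map φ)
      ⟨h.nodup (ndm_sound h4).1 c3, c1.imp fun _ _ e => Or.inl e,
        by simpa using ((hi a).1 h1).2, by
          rw [List.getLast?_map, lst_eq]
          simpa using ((hi _).1 h2).2⟩ (by simpa using h5)
    rw [out, oo, c4] at c5
    omega

def cycOK (k E : ℕ) : List ℕ → Bool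
  | [] => false
  | a :: l => bit E (lst a l) a && chn E a l && ndm 0 (a :: l) && Nat.beq l.length k

theorem Mod.clique (h : Mod G Q q φ n E N) {l : List ℕ} (hl : pwB (bit E) l = true) :
    Clq G (l.map φ).toFinset ∧ (l.map φ).toFinset.card = l.length := by
  have h1 : (l.map φ).Pairwise G.Adj :=
    List.pairwise_map.2 ((pwB_sound hl).imp fun e => (h.adj _ _ e).2.2)
  have : Std.Symm G.Adj := ⟨fun _ _ e => e.symm⟩
  refine ⟨fun a ha b hb hab => h1.forall (List.mem_toFinset.1 ha)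
    (List.mem_toFinset.1 hb) hab, ?_⟩
  rw [List.toFinset_card_of_nodup (h1.imp fun e => e.ne), List.length_map]

def qpath (k t L O n E : ℕ) (a b : List ℕ) : Bool :=
  a.all (fun i => Nat.blt i n) && pwB (bit E) a && Nat.beq a.length t &&
    pathOK k L O (fun i => a.any (Nat.beq i)) E b

def clo1 (k t L O q n E c : ℕ) (p : List ℕ) : Bool :=
  cond (Nat.beq c 0) (pathOK k L O (tb q) E p)
    (cond (Nat.beq c 1) (cycOK k E p)
      (cond (Nat.beq c 2) (pwB (bit E) p && Nat.blt t p.length)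
        (qpath k t L O n E (p.take t) (p.drop t))))

/-- the closing rules -/
def clo (k t L O q n E c : ℕ) : Bool := clo1 k t L O q n E (uu c) (dg (rs c) (ww c))

variable [Fintype V] [DecidableRel G.Adj]

structure Ctx (G : SimpleGraph V) [DecidableRel G.Adj] (k t L O : ℕ) (Q : Finset V) : Prop where
  bad : Bad G k
  opt : Opt G k t L O
  clq : Clq G Q
  card : Q.card = t

theorem Mod.cyc (h : Mod G Q q φ n E N) (hb : Bad G k) {p : List ℕ} (hp : cycOK k E p = true) :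
    False := by
  cases p with
  | nil => simp [cycOK] at hp
  | cons a l =>
    simp only [cycOK, Bool.and_eq_true, Nat.beq_eq] at hp
    obtain ⟨⟨⟨h1, h2⟩, h3⟩, h4⟩ := hp
    obtain ⟨c1, c2⟩ := h.chain h2
    obtain ⟨-, c3, c4⟩ := h.adj _ _ h1
    refine hb.nocyc ((a :: l).map φ) ⟨h.nodup (ndm_sound h3).1
      (List.forall_mem_cons.2 ⟨c3, c2⟩), c1, ?_⟩ (by simp [h4])
    rw [List.getLast?_map, lst_eq]
    simpa using c4

theorem Mod.close (h : Mod G Q q φ n E N) (hc : Ctx G k t L O Q) {c : ℕ}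
    (hp : clo k t L O q n E c = true) : False := by
  unfold clo clo1 at hp
  generalize dg (rs c) (ww c) = p, uu c = c at hp
  cases e0 : Nat.beq c 0
  · cases e1 : Nat.beq c 1
    · cases e2 : Nat.beq c 2
      · simp only [e0, e1, e2, cond_false, qpath, Bool.and_eq_true, Nat.beq_eq, List.all_eq_true,
          Nat.blt_eq] at hp
        obtain ⟨⟨⟨h1, h2⟩, h3⟩, h4⟩ := hp
        obtain ⟨h5, h6⟩ := h.clique h2
        refine h.path hc.opt h5 (h6.trans h3) (fun i => ?_) h4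
        simp only [List.any_eq_true, Nat.beq_eq, exists_eq_right', List.mem_toFinset, List.mem_map]
        refine ⟨fun e => ⟨h1 i e, i, e, rfl⟩, ?_⟩
        rintro ⟨e1, j, e2, e3⟩
        exact h.inj j (h1 j e2) i e1 e3 ▸ e2
      · simp only [e0, e1, e2, cond_false, cond_true, Bool.and_eq_true, Nat.blt_eq] at hp
        obtain ⟨h5, h6⟩ := h.clique hp.1
        have := hc.opt.clq _ h5
        omega
    · simp only [e0, e1, cond_false, cond_true] at hp
      exact h.cyc hc.bad hp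
  · simp only [e0, cond_true] at hp
    exact h.path hc.opt hc.clq hc.card h.qq hp

end Vale.Agent.P048
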