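import Mathlib.Combinatorics.SimpleGraph.Circulant
import Mathlib.Combinatorics.SimpleGraph.Copy
import Vale.Agent.P048.Defs

namespace Vale.Agent.P048

open Finset SimpleGraph

namespace Reduce

theorem upper (k : ℕ)
    (core : ∀ (V : Type) [Fintype V] [DecidableEq V] (G : SimpleGraph V) [DecidableRel G.Adj],
      Bad G k → IsEmpty V) (a : ℕ) : a ≤ k →
    ∀ (V : Type) [Fintype V] [DecidableEq V] (G : SimpleGraph V) [DecidableRel G.Adj],
      (∀ l : List V, Cyc G l → l.length ≠ k + 1) → (∀ I : Finset V, Ind G I → I.card ≤ a) →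
      Fintype.card V ≤ k * a := by
  induction a using Nat.strong_induction_on with
  | _ a ih =>
    intro ha V _ _ G _ h1 h2
    by_contra h
    have hb : Bad G k := by
      refine ⟨h1, fun I hI => (h2 I hI).trans ha, fun I hI hne => ?_⟩
      have h3 := h2 I hI
      have h4 := hne.card_pos
      have h5 := ih (a - I.card) (by omega) (by omega) {v // v ∉ nb G I}
        (G.comap Subtype.val) (fun l hl => by
          rw [← List.length_map (f := Subtype.val)]
          refine h1 _ ⟨hl.1.map Subtype.val_injective, (List.isChain_map _).2 hl.2.1, ?_⟩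
          intro x hx y hy
          rw [List.getLast?_map, Option.mem_map] at hx
          rw [List.head?_map, Option.mem_map] at hy
          obtain ⟨x, hx, rfl⟩ := hx
          obtain ⟨y, hy, rfl⟩ := hy
          exact hl.2.2 x hx y hy) (fun J hJ => by
          have hd : Disjoint (J.map (Function.Embedding.subtype _)) I := by
            rw [Finset.disjoint_left]
            intro x hx hxI
            obtain ⟨y, -, rfl⟩ := mem_map.1 hx
            exact y.2 (mem_nb.2 (Or.inl hxI))
          have h6 := h2 (J.map (Function.Embedding.subtype _) ∪ I) (by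
            intro x hx y hy hxy
            rcases mem_union.1 hx with hx | hx <;> rcases mem_union.1 hy with hy | hy
            · obtain ⟨x', hx', rfl⟩ := mem_map.1 hx
              obtain ⟨y', hy', rfl⟩ := mem_map.1 hy
              exact hJ x' hx' y' hy' hxy
            · obtain ⟨x, -, rfl⟩ := mem_map.1 hx
              exact x.2 (mem_nb.2 (Or.inr ⟨y, hy, hxy.symm⟩))
            · obtain ⟨y, -, rfl⟩ := mem_map.1 hy
              exact y.2 (mem_nb.2 (Or.inr ⟨x, hx, hxy⟩))
            · exact hI x hx y hy hxy)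
          rw [card_union_of_disjoint hd, card_map] at h6
          omega)
      rw [Fintype.card_subtype_compl, Fintype.card_coe] at h5
      obtain ⟨b, rfl⟩ := Nat.exists_eq_add_of_le h3
      rw [Nat.add_sub_cancel_left] at h5
      rw [mul_add] at h
      omega
    have := core V G hb
    simp at h

theorem adj_iff {m : ℕ} {u v : Fin m} (h : (cycleGraph m).Adj u v) :
    (u.val = v.val + 1 ∨ v.val = u.val + 1) ∨
      (u.val + 1 = m ∧ v.val = 0) ∨ (v.val + 1 = m ∧ u.val = 0) := by
  have key : ∀ u v : Fin m, (u - v).val = 1 → u.val = v.val + 1 ∨ (v.val + 1 = m ∧ u.val = 0) := by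
    intro u v h
    have h1 := u.2
    have h2 := v.2
    rcases le_or_gt v u with h3 | h3
    · rw [Fin.sub_val_of_le h3] at h
      omega
    · rw [Fin.coe_sub_iff_lt.2 h3] at h
      have h4 : u.val < v.val := h3
      omega
  rcases cycleGraph_adj'.1 h with h | h
  · have := key u v h
    omega
  · have := key v u h
    omega

theorem copy_of_cyc {V : Type} {G : SimpleGraph V} {l : List V} (hl : Cyc G l) :
    cycleGraph l.length ⊑ G := by
  have key : ∀ u v : Fin l.length, (v.val = u.val + 1 ∨ (u.val + 1 = l.length ∧ v.val = 0)) →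
      G.Adj (l.get u) (l.get v) := by
    rintro ⟨u, hu⟩ ⟨v, hv⟩ h
    rcases h with h | ⟨h1, h2⟩
    · dsimp only at h
      subst h
      exact List.isChain_iff_getElem.1 hl.2.1 u hv
    · dsimp only at h1 h2
      subst h2
      refine hl.2.2 _ ?_ _ ?_
      · rw [List.getLast?_eq_getElem?, Option.mem_def, show l.length - 1 = u by omega]
        simp
      · rw [List.head?_eq_getElem?, Option.mem_def]
        simp
  refine ⟨⟨⟨l.get, fun {u v} h => ?_⟩, List.nodup_iff_injective_get.1 hl.1⟩⟩
  rcases adj_iff h with (h | h) | h | h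
  · exact (key v u (Or.inl h)).symm
  · exact key u v (Or.inl h)
  · exact key u v (Or.inr h)
  · exact (key v u (Or.inr h)).symm

theorem copy_of_ind {V : Type} {G : SimpleGraph V} {I : Finset V} (hI : Ind G I) {n : ℕ}
    (hn : n ≤ I.card) : (⊤ : SimpleGraph (Fin n)) ⊑ Gᶜ := by
  let f : Fin n → V := fun i => (I.equivFin.symm (Fin.castLE hn i)).1
  have hf : Function.Injective f :=
    Subtype.val_injective.comp (I.equivFin.symm.injective.comp (Fin.castLE_injective hn))
  exact ⟨⟨⟨f, fun {u v} h => ⟨hf.ne h, hI _ (Subtype.prop _) _ (Subtype.prop _)⟩⟩, hf⟩⟩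

/-- disjoint cliques -/
def blocks (k N : ℕ) : SimpleGraph (Fin N) where
  Adj i j := i ≠ j ∧ i.val / k = j.val / k
  symm := ⟨fun _ _ h => ⟨h.1.symm, h.2.symm⟩⟩
  loopless := ⟨fun _ h => h.1 rfl⟩

theorem no_cyc {k N : ℕ} (hk : 0 < k) : ¬ cycleGraph (k + 1) ⊑ blocks k N := by
  rintro ⟨f⟩
  have key : ∀ (i : ℕ) (hi : i < k + 1), (f ⟨i, hi⟩).val / k = (f 0).val / k := by
    intro i
    induction i with
    | zero => intro _; rfl
    | succ i ih =>
      intro hi
      rw [← ih (by omega)]
      refine (f.toHom.map_adj (cycleGraph_adj'.2 (Or.inl ?_))).2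
      rw [Fin.sub_val_of_le (by simp [Fin.le_def])]
      simp
  have h := Fintype.card_le_of_injective
    (fun i : Fin (k + 1) => (⟨(f i).val % k, Nat.mod_lt _ hk⟩ : Fin k)) fun i j hij => by
      refine f.injective (Fin.ext ?_)
      have h1 := key i.1 i.2
      have h2 := key j.1 j.2
      have h3 : (f i).val % k = (f j).val % k := congrArg Fin.val hij
      change (f i).val = (f j).val
      rw [← Nat.div_add_mod (f i).val k, ← Nat.div_add_mod (f j).val k, h3]
      exact congrArg (fun x => k * x + (f j).val % k) (h1.trans h2.symm)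
  simp at h

theorem no_ind {k N n : ℕ} (hN : N ≤ k * n) :
    ¬ (⊤ : SimpleGraph (Fin (n + 1))) ⊑ (blocks k N)ᶜ := by
  rintro ⟨f⟩
  have h := Fintype.card_le_of_injective
    (fun i : Fin (n + 1) => (⟨(f i).val / k, Nat.div_lt_of_lt_mul ((f i).2.trans_le hN)⟩ : Fin n))
    fun i j hij => by
      by_contra h
      have h1 := f.toHom.map_adj (show (⊤ : SimpleGraph (Fin (n + 1))).Adj i j from h)
      exact h1.2 ⟨h1.1, congrArg Fin.val hij⟩
  simp at h

end Reduce

/-- The Ramsey formula follows once minimal counterexamples are excluded. -/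
theorem ramsey_of_core (m n : ℕ) (hn : 1 ≤ n) (hmn : n ≤ m) (hm : 4 ≤ m)
    (core : ∀ (V : Type) [Fintype V] [DecidableEq V] (G : SimpleGraph V) [DecidableRel G.Adj],
      Bad G (m - 1) → IsEmpty V) :
    IsLeast {N : ℕ | ∀ G : SimpleGraph (Fin N),
      cycleGraph m ⊑ G ∨ (⊤ : SimpleGraph (Fin n)) ⊑ Gᶜ} ((m - 1) * (n - 1) + 1) := by
  classical
  obtain ⟨k, rfl⟩ : ∃ k, m = k + 1 := ⟨m - 1, by omega⟩
  obtain ⟨a, rfl⟩ : ∃ a, n = a + 1 := ⟨n - 1, by omega⟩
  simp only [Nat.add_sub_cancel] at core ⊢
  refine ⟨fun G => ?_, fun N hN => ?_⟩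
  · by_contra h
    rw [not_or] at h
    have h1 := Reduce.upper k core a (by omega) _ G
      (fun l hl e => h.1 (e ▸ Reduce.copy_of_cyc hl))
      fun I hI => Nat.le_of_not_lt fun h2 => h.2 (Reduce.copy_of_ind hI h2)
    rw [Fintype.card_fin] at h1
    omega
  · by_contra h
    exact (hN (Reduce.blocks k N)).elim (Reduce.no_cyc (by omega)) (Reduce.no_ind (by omega))

end Vale.Agent.P048
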