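import Vale.Agent.P048.Defs
import Mathlib.Algebra.BigOperators.Group.List.Basic
import Mathlib.Data.Nat.Find
import Mathlib.Data.List.Perm.Basic

/-! Paths with both ends in a maximum clique. -/

namespace Vale.Agent.P048

open Finset

variable {V : Type} [DecidableEq V] (G : SimpleGraph V)

/-- adjacent, or both in the clique -/
def Rq (Q : Finset V) (a b : V) : Prop := G.Adj a b ∨ (a ∈ Q ∧ b ∈ Q)

/-- a path with both ends in `Q` -/
structure Sys (Q : Finset V) (P : List V) : Prop where
  nd : P.Nodup
  ch : P.IsChain (Rq G Q)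
  hd : ∀ a ∈ P.head?, a ∈ Q
  la : ∀ a ∈ P.getLast?, a ∈ Q

/-- number of consecutive pairs of `true` -/
def ooB : List Bool → ℕ
  | a :: b :: l => cond (a && b) 1 0 + ooB (b :: l)
  | _ => 0

def fl (Q : Finset V) (P : List V) : List Bool := P.map fun v => decide (v ∉ Q)

/-- number of vertices outside `Q` -/
def out (Q : Finset V) (P : List V) : ℕ := (fl Q P).count true

/-- number of edges of the path with both ends outside `Q` -/
def oo (Q : Finset V) (P : List V) : ℕ := ooB (fl Q P)

theorem ooB_append (l l' : List Bool) : ooB (l ++ l') = ooB l + ooB l' +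
    (if l.getLast? = some true ∧ l'.head? = some true then 1 else 0) := by
  induction l with
  | nil => simp [ooB]
  | cons a l ih =>
    cases l with
    | nil =>
      cases l' with
      | nil => simp [ooB]
      | cons b l' => cases a <;> cases b <;> simp [ooB, add_comm]
    | cons b l =>
      rw [List.cons_append, List.cons_append, ooB, ← List.cons_append, ih, ooB,
        List.getLast?_cons_cons]
      omega

theorem ooB_reverse (l : List Bool) : ooB l.reverse = ooB l := by
  induction l with
  | nil => rfl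
  | cons a l ih =>
    have h := ooB_append [a] l
    rw [List.singleton_append] at h
    rw [List.reverse_cons, ooB_append, ih, h]
    simp only [List.getLast?_reverse, List.head?_cons, List.getLast?_singleton, and_comm]
    omega

theorem ooB_le (l : List Bool) : ooB l ≤ l.length := by
  induction l with
  | nil => simp [ooB]
  | cons a l ih =>
    cases l with
    | nil => simp [ooB]
    | cons b l =>
      rw [ooB]
      simp only [List.length_cons] at ih ⊢
      cases (a && b) <;> simp only [cond] <;> omega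

theorem ooB_replicate (n : ℕ) : ooB (List.replicate n true) = n - 1 := by
  induction n with
  | zero => rfl
  | succ n ih =>
    cases n with
    | zero => rfl
    | succ n =>
      rw [List.replicate_succ, List.replicate_succ, ooB, ← List.replicate_succ, ih]
      simp
      omega

variable {G}

theorem out_append (Q : Finset V) (P P' : List V) : out Q (P ++ P') = out Q P + out Q P' := by
  simp [out, fl]

theorem out_reverse (Q : Finset V) (P : List V) : out Q P.reverse = out Q P := by
  simp [out, fl, List.map_reverse]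

theorem oo_reverse (Q : Finset V) (P : List V) : oo Q P.reverse = oo Q P := by
  simp [oo, fl, List.map_reverse, ooB_reverse]

theorem oo_append (Q : Finset V) (P P' : List V) : oo Q (P ++ P') = oo Q P + oo Q P' +
    (if (∃ a ∈ P.getLast?, a ∉ Q) ∧ ∃ b ∈ P'.head?, b ∉ Q then 1 else 0) := by
  unfold oo fl
  rw [List.map_append, ooB_append]
  simp

theorem oo_append_left {Q : Finset V} {P : List V} (h : ∀ a ∈ P.getLast?, a ∈ Q) (P' : List V) :
    oo Q (P ++ P') = oo Q P + oo Q P' := by
  rw [oo_append, if_neg, add_zero]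
  rintro ⟨⟨a, h1, h2⟩, -⟩
  exact h2 (h a h1)

theorem oo_append_right {Q : Finset V} (P : List V) {P' : List V} (h : ∀ a ∈ P'.head?, a ∈ Q) :
    oo Q (P ++ P') = oo Q P + oo Q P' := by
  rw [oo_append, if_neg, add_zero]
  rintro ⟨-, a, h1, h2⟩
  exact h2 (h a h1)

theorem fl_of_out {Q : Finset V} {W : List V} (h : ∀ v ∈ W, v ∉ Q) :
    fl Q W = List.replicate W.length true := by
  unfold fl
  rw [List.eq_replicate_iff]
  refine ⟨by simp, fun b hb => ?_⟩
  obtain ⟨v, hv, rfl⟩ := List.mem_map.1 hb
  simpa using h v hv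

theorem out_of_out {Q : Finset V} {W : List V} (h : ∀ v ∈ W, v ∉ Q) : out Q W = W.length := by
  simp [out, fl_of_out h]

theorem oo_of_out {Q : Finset V} {W : List V} (h : ∀ v ∈ W, v ∉ Q) : oo Q W = W.length - 1 := by
  rw [oo, fl_of_out h, ooB_replicate]

theorem out_of_in {Q : Finset V} {W : List V} (h : ∀ v ∈ W, v ∈ Q) : out Q W = 0 := by
  unfold out fl
  rw [List.count_eq_zero]
  intro hb
  obtain ⟨v, hv, h1⟩ := List.mem_map.1 hb
  simp [h v hv] at h1

theorem oo_of_in {Q : Finset V} {W : List V} (h : ∀ v ∈ W, v ∈ Q) : oo Q W = 0 := by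
  induction W with
  | nil => rfl
  | cons a W ih =>
    rw [← List.singleton_append, oo_append_left (by simpa using h a (by simp)),
      ih fun v hv => h v (by simp [hv])]
    rfl

theorem out_add_card {Q : Finset V} {P : List V} (h : P.Nodup) :
    out Q P + (Q ∩ P.toFinset).card = P.length := by
  induction P with
  | nil => simp [out, fl]
  | cons a P ih =>
    rw [List.nodup_cons] at h
    have h1 := ih h.2
    rw [← List.singleton_append, out_append, List.length_append]
    by_cases ha : a ∈ Q
    · rw [out_of_in (by simpa using ha), List.singleton_append, List.toFinset_cons,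
        inter_insert_of_mem ha, card_insert_of_notMem (by simp [h.1])]
      simp only [List.length_singleton]
      omega
    · rw [out_of_out (by simpa using ha), List.singleton_append, List.toFinset_cons,
        inter_insert_of_notMem ha]
      omega

omit [DecidableEq V] in
theorem isChain_in {Q : Finset V} {W : List V} (h : ∀ v ∈ W, v ∈ Q) : W.IsChain (Rq G Q) := by
  induction W with
  | nil => simp
  | cons a W ih =>
    refine (ih fun v hv => h v (by simp [hv])).cons fun b hb => ?_
    exact Or.inr ⟨h a (by simp), h b (by simp [List.mem_of_mem_head? hb])⟩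

omit [DecidableEq V] in
theorem Sys.extend {Q : Finset V} {P W : List V} (h : Sys G Q P) (hW : ∀ v ∈ W, v ∈ Q)
    (hnd : W.Nodup) (hd : ∀ v ∈ W, v ∉ P) : Sys G Q (P ++ W) := by
  refine ⟨List.nodup_append.2 ⟨h.nd, hnd, fun a ha b hb hab => hd b hb (hab ▸ ha)⟩, ?_, ?_, ?_⟩
  · exact h.ch.append (isChain_in hW) fun a ha b hb =>
      Or.inr ⟨h.la a ha, hW b (List.mem_of_mem_head? hb)⟩
  · intro a ha
    rw [List.head?_append] at ha
    cases P with
    | nil => exact hW a (List.mem_of_mem_head? (by simpa using ha))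
    | cons b P => exact h.hd a (by simpa using ha)
  · intro a ha
    rw [List.getLast?_append] at ha
    cases hw : W.getLast? with
    | none => exact h.la a (by simpa [hw] using ha)
    | some b =>
      have : b = a := by simpa [hw] using ha
      exact this ▸ hW b (List.mem_of_getLast? hw)

omit [DecidableEq V] in
theorem isChain_adj {Q : Finset V} (hQ : Clq G Q) {P : List V} (hn : P.Nodup)
    (hc : P.IsChain (Rq G Q)) : P.IsChain G.Adj := by
  induction P with
  | nil => simp
  | cons a P ih =>
    cases P with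
    | nil => simp
    | cons b P =>
      rw [List.isChain_cons_cons] at hc ⊢
      rw [List.nodup_cons] at hn
      refine ⟨?_, ih hn.2 hc.2⟩
      rcases hc.1 with h | h
      · exact h
      · exact hQ a h.1 b h.2 fun hab => hn.1 (by simp [hab])

omit [DecidableEq V] in
theorem Sys.cyc {Q : Finset V} (hQ : Clq G Q) {P : List V} (h : Sys G Q P) (h2 : 2 ≤ P.length) :
    Cyc G P := by
  refine ⟨h.nd, isChain_adj hQ h.nd h.ch, fun a ha b hb => hQ a (h.la a ha) b (h.hd b hb) ?_⟩
  match P, h2 with
  | x :: y :: P, _ =>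
    have h1 := (List.nodup_cons.1 h.nd).1
    rw [List.getLast?_cons_cons] at ha
    have h3 : x = b := by simpa using hb
    intro hab
    exact h1 (h3 ▸ hab ▸ List.mem_of_getLast? ha)

theorem Sys.grow {Q : Finset V} {P : List V} (h : Sys G Q P) {n : ℕ} (h1 : P.length ≤ n)
    (h2 : n ≤ out Q P + Q.card) : ∃ P', Sys G Q P' ∧ P'.length = n ∧ out Q P' = out Q P ∧
      oo Q P' = oo Q P := by
  have h3 := out_add_card (Q := Q) h.nd
  have h4 := card_sdiff_add_card_inter Q P.toFinset
  obtain ⟨T, hT, hTc⟩ := exists_subset_card_eq (s := Q \ P.toFinset) (n := n - P.length) (by omega)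
  have hW : ∀ v ∈ T.toList, v ∈ Q := fun v hv => (mem_sdiff.1 (hT (mem_toList.1 hv))).1
  refine ⟨P ++ T.toList, h.extend hW T.nodup_toList fun v hv hp =>
    (mem_sdiff.1 (hT (mem_toList.1 hv))).2 (List.mem_toFinset.2 hp), ?_, ?_, ?_⟩
  · rw [List.length_append, length_toList]
    omega
  · rw [out_append, out_of_in hW, add_zero]
  · rw [oo_append_left h.la, oo_of_in hW, add_zero]

variable (G)

/-- `t` is the clique number and `(L, O)` is the lexicographic optimum -/
structure Opt (k t L O : ℕ) : Prop where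
  clq : ∀ K, Clq G K → K.card ≤ t
  best : ∀ Q, Clq G Q → Q.card = t → ∀ P, Sys G Q P → P.length ≤ k + 1 →
    out Q P < L ∨ (out Q P = L ∧ oo Q P ≤ O)

variable {G}

theorem exists_max {p : ℕ → Prop} {b : ℕ} (h0 : ∃ n, p n) (hb : ∀ n, p n → n ≤ b) :
    ∃ n, p n ∧ ∀ m, p m → m ≤ n := by
  classical
  obtain ⟨n, hn⟩ := h0
  exact ⟨Nat.findGreatest p b, Nat.findGreatest_spec (hb n hn) hn,
    fun m hm => Nat.le_findGreatest (hb m hm) hm⟩

theorem exists_opt [Fintype V] [DecidableRel G.Adj] {k : ℕ} (h : Bad G k) (hk : 1 ≤ k) :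
    ∃ t L O Q P, Opt G k t L O ∧ Clq G Q ∧ Q.card = t ∧ Sys G Q P ∧ out Q P = L ∧ oo Q P = O ∧
      (∀ q ∈ Q, q ∈ P) ∧ L + t ≤ k := by
  obtain ⟨t, ⟨Q0, hQ0, hQ0t⟩, ht⟩ := exists_max (p := fun n => ∃ K, Clq G K ∧ K.card = n)
    (b := Fintype.card V) ⟨0, ∅, by simp [Clq], rfl⟩
    (by rintro n ⟨K, -, rfl⟩; exact card_le_univ K)
  have hnil : ∀ Q : Finset V, Sys G Q [] := fun Q => ⟨by simp, by simp, by simp, by simp⟩
  obtain ⟨L, hL0, hL⟩ := exists_max (p := fun n => ∃ Q P, Clq G Q ∧ Q.card = t ∧ Sys G Q P ∧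
    P.length ≤ k + 1 ∧ out Q P = n) (b := k + 1) ⟨_, Q0, [], hQ0, hQ0t, hnil _, by simp, rfl⟩ (by
      rintro n ⟨Q, P, -, -, h1, h2, rfl⟩
      have := out_add_card (Q := Q) h1.nd
      omega)
  obtain ⟨O, ⟨Q, P, hQ, hQt, hP, hlen, hout, hoo⟩, hO⟩ := exists_max
    (p := fun n => ∃ Q P, Clq G Q ∧ Q.card = t ∧ Sys G Q P ∧
    P.length ≤ k + 1 ∧ out Q P = L ∧ oo Q P = n) (b := k + 1) (by
      obtain ⟨Q, P, h1, h2, h3, h4, h5⟩ := hL0
      exact ⟨_, Q, P, h1, h2, h3, h4, h5, rfl⟩) (by
      rintro n ⟨Q, P, -, -, -, h2, -, rfl⟩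
      have := ooB_le (fl Q P)
      simp only [fl, List.length_map] at this
      exact this.trans h2)
  have hle : L + t ≤ k := by
    by_contra hc
    obtain ⟨P', h1, h2, -⟩ := hP.grow hlen (by omega)
    exact h.nocyc P' (h1.cyc hQ (by omega)) h2
  have h3 := out_add_card (Q := Q) hP.nd
  have h4 := card_le_card (inter_subset_left (s₁ := Q) (s₂ := P.toFinset))
  obtain ⟨P', h1, h2, h5, h6⟩ := hP.grow (n := L + t) (by omega) (by omega)
  refine ⟨t, L, O, Q, P', ⟨fun K hK => ht _ ⟨K, hK, rfl⟩, fun Q' h7 h8 P'' h9 h10 => ?_⟩, hQ, hQt,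
    h1, h5.trans hout, h6.trans hoo, fun q hq => ?_, hle⟩
  · rcases (hL _ ⟨Q', P'', h7, h8, h9, h10, rfl⟩).lt_or_eq with h11 | h11
    · exact Or.inl h11
    · exact Or.inr ⟨h11, hO _ ⟨Q', P'', h7, h8, h9, h10, h11, rfl⟩⟩
  · have h7 := out_add_card (Q := Q) h1.nd
    have h8 : Q ∩ P'.toFinset = Q := eq_of_subset_of_card_le inter_subset_left (by omega)
    rw [← h8] at hq
    exact List.mem_toFinset.1 (mem_inter.1 hq).2

omit [DecidableEq V] in
theorem Rq.symm {Q : Finset V} {a b : V} (h : Rq G Q a b) : Rq G Q b a :=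
  h.imp (fun h => h.symm) fun h => h.symm

/-- Joining two successors of clique vertices by a new path. -/
theorem Sys.join {Q : Finset V} {A X Y W : List V} {p p' : V}
    (h : Sys G Q (A ++ (p :: X) ++ (p' :: Y))) (hA : ∀ a ∈ A.getLast?, a ∈ Q)
    (hX : ∀ a ∈ (p :: X).getLast?, a ∈ Q) (hW0 : W ≠ []) (hW : W.Nodup)
    (hd : ∀ v ∈ W, v ∉ A ++ (p :: X) ++ (p' :: Y)) (hQ : ∀ v ∈ W, v ∉ Q)
    (hc : (p :: (W ++ [p'])).IsChain G.Adj) :
    ∃ P', Sys G Q P' ∧ P'.length = (A ++ (p :: X) ++ (p' :: Y)).length + W.length ∧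
      out Q P' = out Q (A ++ (p :: X) ++ (p' :: Y)) + W.length ∧
      oo Q P' + 1 = oo Q (A ++ (p :: X) ++ (p' :: Y)) + W.length +
        (if p ∉ Q then 1 else 0) + (if p' ∉ Q then 1 else 0) := by
  have hY : ∀ a ∈ (p' :: Y).getLast?, a ∈ Q := by
    intro a ha
    refine h.la a ?_
    rw [List.getLast?_append, Option.mem_def.1 ha]
    rfl
  have hA0 : ∀ a ∈ A.head?, a ∈ Q := by
    intro a ha
    refine h.hd a ?_
    rw [List.append_assoc, List.head?_append, Option.mem_def.1 ha]
    rfl
  have hperm : ((p :: X).reverse ++ W ++ (p' :: Y) ++ A).Perm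
      (A ++ (p :: X) ++ (p' :: Y) ++ W) := by
    rw [List.perm_iff_count]
    intro a
    simp only [List.count_append, List.count_reverse]
    omega
  obtain ⟨w, W', rfl⟩ := List.exists_cons_of_ne_nil hW0
  have hch := h.ch
  rw [List.isChain_append, List.isChain_append] at hch
  obtain ⟨⟨c1, c2, -⟩, c3, -⟩ := hch
  have hc' : (p :: (w :: W' ++ [p'])).IsChain (Rq G Q) := hc.imp fun a b hab => Or.inl hab
  have hlast : ∀ a ∈ ((p :: X).reverse ++ (w :: W') ++ (p' :: Y)).getLast?, a ∈ Q := by
    intro a ha
    rw [List.getLast?_append] at ha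
    cases hy : (p' :: Y).getLast? with
    | none => simp at hy
    | some b =>
      have : b = a := by simpa [hy] using ha
      exact this ▸ hY b hy
  refine ⟨(p :: X).reverse ++ (w :: W') ++ (p' :: Y) ++ A, ⟨?_, ?_, ?_, ?_⟩, ?_, ?_, ?_⟩
  · exact hperm.nodup_iff.2 (List.nodup_append.2 ⟨h.nd, hW, fun a ha b hb hab =>
      hd b hb (hab ▸ ha)⟩)
  · refine List.IsChain.append ?_ c1 fun a ha b hb => Or.inr ⟨hlast a ha, hA0 b hb⟩
    have e : (p :: X).reverse ++ (w :: W') ++ (p' :: Y) =
        X.reverse ++ p :: ((w :: W') ++ p' :: Y) := by simp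
    rw [e, List.isChain_split, ← List.reverse_cons, ← List.cons_append, List.isChain_split]
    exact ⟨List.isChain_reverse.2 (c2.imp fun a b hab => hab.symm), hc', c3⟩
  · intro a ha
    refine hX a ?_
    rw [List.append_assoc, List.append_assoc, List.head?_append, List.head?_reverse] at ha
    cases hx : (p :: X).getLast? with
    | none => simp at hx
    | some b => simpa [hx] using ha
  · intro a ha
    rw [List.getLast?_append] at ha
    cases hy : A.getLast? with
    | none => exact hlast a (by simpa [hy] using ha)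
    | some b =>
      have : b = a := by simpa [hy] using ha
      exact this ▸ hA b hy
  · rw [hperm.length_eq, List.length_append]
  · simp only [out_append, out_reverse, out_of_out hQ]
    omega
  · have hw : w ∉ Q := hQ w (by simp)
    have hl : ∃ a ∈ ((p :: X).reverse ++ (w :: W')).getLast?, a ∉ Q := by
      refine ⟨(w :: W').getLast (by simp), ?_, hQ _ (List.getLast_mem _)⟩
      rw [List.getLast?_append, List.getLast?_eq_some_getLast (by simp)]
      rfl
    have hl' : ∀ a ∈ (A ++ p :: X).getLast?, a ∈ Q := by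
      intro a ha
      refine hX a ?_
      rw [List.getLast?_append] at ha
      cases hx : (p :: X).getLast? with
      | none => simp at hx
      | some b => simpa [hx] using ha
    rw [oo_append_left hlast, oo_append _ _ (p' :: Y), oo_append _ _ (w :: W'), oo_reverse,
      oo_of_out hQ, oo_append_left hl', oo_append_left hA]
    simp only [Option.mem_def] at hl
    simp only [hl, true_and, List.head?_cons, Option.mem_def, Option.some.injEq, exists_eq_left',
      List.getLast?_reverse, hw, not_false_eq_true, and_true, List.length_cons]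
    omega

end Vale.Agent.P048
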